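import Vale.Agent.P048.Defs

namespace Vale.Agent.P048

namespace ABaux

/-- `d` is a period of `f` -/
def Per (f : ℤ → Prop) (d : ℕ) : Prop := ∀ i, f (i + d) ↔ f i

theorem Per.mul {f : ℤ → Prop} {d : ℕ} (h : Per f d) (k i : ℤ) : f (i + k * d) ↔ f i := by
  induction k using Int.induction_on with
  | zero => simp
  | succ k ih =>
    rw [← ih, ← h (i + k * d)]
    congr! 1
    ring
  | pred k ih =>
    rw [← ih, ← h (i + (-(k : ℤ) - 1) * d)]
    congr! 1
    ring

theorem Per.eq {f : ℤ → Prop} {d : ℕ} (h : Per f d) {i j : ℤ} (e : j = i + d) : f j ↔ f i := by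
  rw [e]; exact h i

theorem Per.neg {f : ℤ → Prop} {d : ℕ} (h : Per f d) : Per (fun i => f (-i)) d :=
  fun i => (h.eq (by ring)).symm

theorem win {d : ℕ} (hd : 0 < d) (s i : ℤ) : ∃ j k : ℤ, s ≤ j ∧ j < s + d ∧ i = j + k * d := by
  have hd' : (0 : ℤ) < d := by omega
  refine ⟨s + (i - s) % d, (i - s) / d, ?_, ?_, ?_⟩
  · have := Int.emod_nonneg (i - s) hd'.ne'; omega
  · have := Int.emod_lt_of_pos (i - s) hd'; omega
  · have := Int.emod_add_mul_ediv (i - s) d
    linarith

variable {W : Type*} {H : SimpleGraph W} {n l : ℕ} {c : ℤ → W} {col : W → Prop}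

/-- the ends of every path on `l + 1` vertices have the same colour -/
def No (H : SimpleGraph W) (l : ℕ) (col : W → Prop) : Prop :=
  ∀ L a b, PathL H L a b → L.length = l + 1 → (col a ↔ col b)

theorem per_l (hc : ZCyc H n c) (hno : No H l col) (hln : l < n) :
    Per (fun i => col (c i)) l := fun i =>
  (hno _ _ _ (hc.seg_path (i := i) (j := i + l) (m := l + 1) (by push_cast; ring) (by omega) hln)
    (length_seg _ _ _)).symm

theorem per_n (hc : ZCyc H n c) : Per (fun i => col (c i)) n := fun i => by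
  show col (c (i + n)) ↔ col (c i)
  rw [hc.per]

theorem per_nl (hc : ZCyc H n c) (hno : No H l col) (hln : l < n) :
    Per (fun i => col (c i)) (n - l) := fun i =>
  ((per_l hc hno hln).eq (i := i + (n - l : ℕ)) (j := i + n)
    (by push_cast [Nat.cast_sub hln.le]; ring)).symm.trans (per_n hc i)

theorem short (hc : ZCyc H n c) (hno : No H l col) (hl : 1 ≤ l) {x : ℤ} {s : ℕ} (hs : 1 ≤ s)
    (hsl : s + l ≤ n) (ha : H.Adj (c x) (c (x + s))) : Per (fun i => col (c i)) (s - 1) := by
  have pl := per_l hc hno (by omega)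
  intro i
  obtain ⟨j, k, h1, h2, rfl⟩ := win (d := l) hl (x - l + 1) i
  have hp := (hc.seg_path (i := j) (j := x) (m := (x - j + 1).toNat) (by omega) (by omega)
    (by omega)).append (hc.seg_path (i := x + s) (j := j + s + l - 1)
      (m := (j + l - x).toNat) (by omega) (by omega) (by omega)) ha (by
        intro v hv hv'
        obtain ⟨t, t1, t2, rfl⟩ := mem_seg.1 hv
        obtain ⟨u, u1, u2, e⟩ := mem_seg.1 hv'
        have := hc.inj' (by omega) (by omega) e
        omega)
  have h3 := hno _ _ _ hp (by rw [List.length_append, length_seg, length_seg]; omega)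
  have h4 := pl.eq (i := j + (s - 1 : ℕ)) (j := j + s + l - 1) (by omega)
  have h5 := pl.mul k j
  have h6 := pl.mul k (j + (s - 1 : ℕ))
  rw [add_right_comm]
  exact h6.trans ((h4.symm.trans h3.symm).trans h5.symm)

theorem refl1 (hc : ZCyc H n c) (hno : No H l col) {x : ℤ} {s m : ℕ} (hm : 0 < m)
    (pm : Per (fun i => col (c i)) m) (h1 : m ≤ s) (h2 : m + s ≤ n) (h3 : m ≤ l)
    (h4 : m + l ≤ n) (ha : H.Adj (c x) (c (x + s))) (i : ℤ) :
    col (c i) ↔ col (c (2 * x + s - 1 - i)) := by
  have pl := per_l hc hno (by omega)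
  obtain ⟨j, k, j1, j2, rfl⟩ := win hm (x + max 0 ((s : ℤ) + l - n)) i
  have hp := (hc.seg_path (i := x) (j := j) (m := (j - x + 1).toNat) (by omega) (by omega)
    (by omega)).reverse.append (hc.seg_path (i := x + s) (j := 2 * x + s + l - 1 - j)
      (m := (x + l - j).toNat) (by omega) (by omega) (by omega)) ha (by
        intro v hv hv'
        rw [List.mem_reverse] at hv
        obtain ⟨t, t1, t2, rfl⟩ := mem_seg.1 hv
        obtain ⟨u, u1, u2, e⟩ := mem_seg.1 hv'
        have := hc.inj' (by omega) (by omega) e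
        omega)
  have h3 := hno _ _ _ hp
    (by rw [List.length_append, List.length_reverse, length_seg, length_seg]; omega)
  have h4 := pl.eq (i := 2 * x + s - 1 - j) (j := 2 * x + s + l - 1 - j) (by omega)
  have h5 := pm.mul k j
  have h6 := pm.mul (-k) (2 * x + s - 1 - j)
  have e : 2 * x + s - 1 - (j + k * m) = 2 * x + s - 1 - j + -k * m := by ring
  rw [e]
  exact h5.trans ((h3.trans h4).trans h6.symm)

theorem per_two_chord (hc : ZCyc H n c) (hno : No H l col) (hl : 1 ≤ l) (hln : l < n) {x : ℤ}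
    {s : ℕ} (hs : 2 ≤ s) (hsn : s + 2 ≤ n) (ha : H.Adj (c x) (c (x + s))) :
    Per (fun i => col (c i)) 2 := by
  classical
  have hex : ∃ d, 0 < d ∧ Per (fun i => col (c i)) d := ⟨l, hl, per_l hc hno hln⟩
  obtain ⟨hm, pm⟩ := Nat.find_spec hex
  have hmin : ∀ d, 0 < d → Per (fun i => col (c i)) d → Nat.find hex ≤ d :=
    fun d h1 h2 => Nat.find_min' hex ⟨h1, h2⟩
  generalize Nat.find hex = m at hm pm hmin
  have m1 := hmin l hl (per_l hc hno hln)
  have m2 := hmin (n - l) (by omega) (per_nl hc hno hln)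
  have m3 : m ≤ s := by
    by_contra h
    have := hmin (s - 1) (by omega) (short hc hno hl (by omega) (by omega) ha)
    omega
  have m4 : m ≤ n - s := by
    by_contra h
    have := hmin (n - s - 1) (by omega) (short hc hno hl (x := x + s) (s := n - s) (by omega)
      (by omega) (by
        rw [hc.eq_of_add (i := x) (j := x + s + (n - s : ℕ)) (by omega)]
        exact ha.symm))
    omega
  have r1 := refl1 hc hno hm pm m3 (by omega) m1 (by omega) ha
  have r2 := refl1 hc.rev hno (x := -x) (s := n - s) hm pm.neg m4 (by omega) m1 (by omega) (by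
    rw [neg_neg, ← hc.eq_of_add (i := -(-x + (n - s : ℕ))) (j := x + s) (by omega)]
    exact ha)
  intro i
  have a1 := r2 (-(i + 2))
  have a2 := r1 i
  rw [neg_neg, ← hc.eq_of_add (i := -(2 * -x + (n - s : ℕ) - 1 - -(i + 2)))
    (j := 2 * x + s - 1 - i) (by omega)] at a1
  exact a1.trans a2.symm

theorem classify (hc : ZCyc H n c) (hn : 0 < n) {x i : ℤ} (ha : H.Adj (c x) (c i)) :
    c i = c (x + 1) ∨ c i = c (x - 1) ∨ ∃ s : ℕ, 2 ≤ s ∧ s + 2 ≤ n ∧ c i = c (x + s) := by
  obtain ⟨j, j1, j2, j3⟩ := hc.window hn x i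
  have e : c j = c i := by simpa using j3 0
  rw [← e] at ha ⊢
  have hjx : j ≠ x := fun h => by
    rw [h] at ha
    exact H.irrefl ha
  by_cases h1 : j = x + 1
  · exact Or.inl (by rw [h1])
  · by_cases h2 : j = x - 1 + n
    · exact Or.inr (Or.inl (hc.eq_of_add h2))
    · refine Or.inr (Or.inr ⟨(j - x).toNat, by omega, by omega, ?_⟩)
      congr 1
      omega

theorem per_two {D : ℕ} (hD : 3 ≤ D) (hexp : Expands H D) (hc : ZCyc H n c) (hno : No H l col)
    (hl : 1 ≤ l) (hln : l < n) : Per (fun i => col (c i)) 2 := by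
  classical
  by_cases hch : ∃ (x : ℤ) (s : ℕ), 2 ≤ s ∧ s + 2 ≤ n ∧ H.Adj (c x) (c (x + s))
  · obtain ⟨x, s, h1, h2, h3⟩ := hch
    exact per_two_chord hc hno hl hln h1 h2 h3
  · have pl := per_l hc hno hln
    intro i
    have hz : ∃ z, H.Adj (c (i + 1)) z ∧ ∀ t, c t ≠ z := by
      by_contra hcon
      have := hexp.deg (c (i + 1)) {c (i + 1 + 1), c (i + 1 - 1)} (by
        intro u hu
        by_contra hmem
        refine hcon ⟨u, hu, ?_⟩
        rintro t rfl
        simp only [Finset.mem_insert, Finset.mem_singleton, not_or] at hmem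
        rcases classify hc (by omega) hu with h | h | ⟨s, s1, s2, h⟩
        · exact hmem.1 h
        · exact hmem.2 h
        · exact hch ⟨i + 1, s, s1, s2, h ▸ hu⟩)
      have h2 := Finset.card_le_two (a := c (i + 1 + 1)) (b := c (i + 1 - 1))
      omega
    obtain ⟨z, hz1, hz2⟩ := hz
    have hnot : ∀ a m, z ∉ seg c a m := fun a m h => by
      obtain ⟨t, -, -, e⟩ := mem_seg.1 h
      exact hz2 t e
    have p1 := (hc.seg_path (i := i + 1) (j := i + l) (m := l) (by ring) hl hln.le).cons
      hz1.symm (hnot _ _)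
    have p2 := (hc.seg_path (i := i + 2 - l) (j := i + 1) (m := l) (by ring) hl
      hln.le).reverse.cons hz1.symm (by rw [List.mem_reverse]; exact hnot _ _)
    have a1 := hno _ _ _ p1 (by simp [length_seg])
    have a2 := hno _ _ _ p2 (by simp [length_seg])
    have a3 := pl.eq (i := i + 2 - l) (j := i + (2 : ℕ)) (by push_cast; ring)
    exact a3.trans (a2.symm.trans (a1.trans (pl i)))

theorem step_type {f : ℤ → Prop} (h : Per f 2) (i : ℤ) :
    (f i ↔ f (i + 1)) ↔ (f 0 ↔ f 1) := by
  obtain ⟨j, k, j1, j2, rfl⟩ := win (d := 2) (by norm_num) 0 i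
  have a1 := h.mul k j
  have a2 := h.mul k (j + 1)
  rw [add_right_comm, a1, a2]
  have : j = 0 ∨ j = 1 := by omega
  rcases this with rfl | rfl
  · simp
  · have a3 := h.eq (i := 0) (j := 1 + 1) (by norm_num)
    rw [a3]
    exact iff_comm

theorem cyc_type {D : ℕ} (hD : 3 ≤ D) (hexp : Expands H D) (hc : ZCyc H n c) (hno : No H l col)
    (hl : 1 ≤ l) (hln : l < n) {x i : ℤ} (ha : H.Adj (c x) (c i)) :
    (col (c x) ↔ col (c i)) ↔ (col (c 0) ↔ col (c 1)) := by
  have p2 := per_two hD hexp hc hno hl hln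
  have st := step_type p2
  rcases classify hc (by omega) ha with h | h | ⟨s, s1, s2, h⟩
  · rw [h]
    exact st x
  · rw [h, ← st (x - 1), sub_add_cancel]
    exact iff_comm
  · rw [h] at ha ⊢
    by_cases hσ : col (c 0) ↔ col (c 1)
    · have p1 : Per (fun i => col (c i)) 1 := fun i => ((st i).2 hσ).symm
      have := p1.mul s x
      simp only [Nat.cast_one, mul_one] at this
      exact iff_of_true this.symm hσ
    · have n1 : ¬ Per (fun i => col (c i)) 1 := fun p1 => hσ (p1.eq (by norm_num)).symm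
      have l1 : l ≠ 1 := fun e => n1 (e ▸ per_l hc hno hln)
      have l2 : n - l ≠ 1 := fun e => n1 (e ▸ per_nl hc hno hln)
      have r := refl1 hc hno (by norm_num) p2 s1 (by omega) (by omega) (by omega) ha x
      have e1 : 2 * x + s - 1 - x = x + s - 1 := by ring
      rw [e1] at r
      have := st (x + s - 1)
      rw [sub_add_cancel] at this
      rw [r]
      exact this

theorem split_last {L : List W} {a b : W} (h : PathL H L a b) (h2 : 2 ≤ L.length) :
    ∃ L' e, L = L' ++ [b] ∧ PathL H L' a e ∧ H.Adj e b := by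
  obtain ⟨L', rfl⟩ := List.getLast?_eq_some_iff.1 h.last
  have hne : L' ≠ [] := by
    rintro rfl
    simp at h2
  have hc := List.isChain_append.1 h.chain
  refine ⟨L', L'.getLast hne, rfl, ⟨h.nodup.sublist (List.sublist_append_left _ _), hc.1, ?_,
    List.getLast?_eq_some_getLast hne⟩, hc.2.2 _ ?_ _ (by simp)⟩
  · have := h.head
    rwa [List.head?_append_of_ne_nil _ hne] at this
  · rw [List.getLast?_eq_some_getLast hne]
    rfl

end ABaux

open ABaux in
/-- TASK AB: paths of every length below the length of a cycle between the two colour classes. -/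
theorem ab_path {W : Type*} [Finite W] (H : SimpleGraph W) (D : ℕ) (hD : 3 ≤ D)
    (hexp : Expands H D) (hconn : Conn H) {n : ℕ} {c : ℤ → W} (hc : ZCyc H n c)
    (l : ℕ) (hl : 1 ≤ l) (hln : l < n) (col : W → Prop) (x y : W) (hx : col x) (hy : ¬ col y) :
    ∃ L a b, PathL H L a b ∧ L.length = l + 1 ∧ col a ∧ ¬ col b := by
  classical
  have := Fintype.ofFinite W
  by_contra hcon
  have hno : No H l col := by
    intro L a b hp hL
    by_contra h
    by_cases ha : col a
    · exact hcon ⟨L, a, b, hp, hL, ha, fun hb => h (iff_of_true ha hb)⟩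
    · exact hcon ⟨L.reverse, b, a, hp.reverse, by simpa using hL,
        by_contra fun hb => h (iff_of_false ha hb), ha⟩
  set σ : Prop := (col (c 0) ↔ col (c 1)) with hσ
  obtain ⟨X, hX, hmax⟩ := Finset.exists_max_image
    ((Finset.univ : Finset (Finset W)).filter fun X => X.Nonempty ∧
      (∀ u ∈ X, ∀ v ∈ X, H.Adj u v → ((col u ↔ col v) ↔ σ)) ∧
      ∀ z ∈ X, ∃ L e, PathL H L z e ∧ L.length = l + 1 ∧ ∀ w ∈ L, w ∈ X) Finset.card
    ⟨Finset.univ.filter fun w => ∃ i, c i = w, by
      simp only [Finset.mem_filter, Finset.mem_univ, true_and]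
      refine ⟨⟨c 0, by simp⟩, ?_, ?_⟩
      · rintro _ ⟨i, rfl⟩ _ ⟨j, rfl⟩ h
        exact cyc_type hD hexp hc hno hl hln h
      · rintro _ ⟨i, rfl⟩
        refine ⟨_, _, hc.seg_path (i := i) (j := i + l) (m := l + 1) (by push_cast; ring)
          (by omega) hln, length_seg _ _ _, fun w hw => ?_⟩
        obtain ⟨t, -, -, e⟩ := mem_seg.1 hw
        exact ⟨t, e⟩⟩
  simp only [Finset.mem_filter, Finset.mem_univ, true_and] at hX hmax
  obtain ⟨hX0, hX1, hX2⟩ := hX
  have hcl : ∀ u ∈ X, ∀ z, H.Adj u z → z ∈ X := by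
    intro u hu z huz
    by_contra hz
    have key : ∀ y ∈ X, H.Adj y z → ((col y ↔ col z) ↔ σ) ∧
        ∃ L e, PathL H L z e ∧ L.length = l + 1 ∧ ∀ w ∈ L, w ∈ insert z X := by
      intro y hy hyz
      obtain ⟨L, e, hp, hL, hm⟩ := hX2 y hy
      have a1 := hno _ _ _ hp hL
      obtain ⟨L', e', rfl, hp', hadj⟩ := split_last hp (by omega)
      have hp2 := hp'.cons hyz.symm (fun h => hz (hm z (List.mem_append_left _ h)))
      have hl2 : (z :: L').length = l + 1 := by simpa using hL
      have a2 := hno _ _ _ hp2 hl2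
      have a3 := hX1 e' (hm _ (List.mem_append_left _ hp'.last_mem)) e (hm _ (by simp)) hadj
      refine ⟨?_, _, _, hp2, hl2, fun w hw => ?_⟩
      · rw [a1, a2, ← a3]
        exact iff_comm
      · rcases List.mem_cons.1 hw with rfl | hw
        · exact Finset.mem_insert_self _ _
        · exact Finset.mem_insert_of_mem (hm w (List.mem_append_left _ hw))
    have := hmax (insert z X) ⟨Finset.insert_nonempty _ _, ?_, ?_⟩
    · rw [Finset.card_insert_of_notMem hz] at this
      omega
    · intro a ha b hb hab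
      rw [Finset.mem_insert] at ha hb
      rcases ha with ha | ha <;> rcases hb with hb | hb
      · exact absurd (ha.trans hb.symm) hab.ne
      · subst ha
        rw [← (key b hb hab.symm).1]
        exact iff_comm
      · subst hb
        exact (key a ha hab).1
      · exact hX1 a ha b hb hab
    · intro a ha
      rcases Finset.mem_insert.1 ha with ha | ha
      · subst ha
        exact (key u hu huz).2
      · obtain ⟨L, e, hp, hL, hm⟩ := hX2 a ha
        exact ⟨L, e, hp, hL, fun w hw => Finset.mem_insert_of_mem (hm w hw)⟩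
  have hall : ∀ u, u ∈ X := by
    have := hconn (X : Set W) (by exact_mod_cast hX0) hcl
    intro u
    have h : u ∈ (X : Set W) := by rw [this]; trivial
    exact h
  have htype : ∀ u v, H.Adj u v → ((col u ↔ col v) ↔ σ) :=
    fun u v h => hX1 u (hall u) v (hall v) h
  by_cases h : σ
  · have := hconn {v | col v} ⟨x, hx⟩ (fun u hu v huv => ((htype u v huv).2 h).1 hu)
    have h2 : y ∈ {v | col v} := by rw [this]; trivial
    exact hy h2
  · have e1 := hexp (Finset.univ.filter col) Finset.univ ⟨x, by simpa using hx⟩ (by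
      intro u hu v hv huv
      exact h ((htype u v huv).1
        (iff_of_true (Finset.mem_filter.1 hu).2 (Finset.mem_filter.1 hv).2)))
      (Finset.subset_univ _) (fun _ _ _ _ => Finset.mem_univ _)
    have e2 := hexp (Finset.univ.filter fun v => ¬ col v) Finset.univ ⟨y, by simpa using hy⟩ (by
      intro u hu v hv huv
      exact h ((htype u v huv).1
        (iff_of_false (Finset.mem_filter.1 hu).2 (Finset.mem_filter.1 hv).2)))
      (Finset.subset_univ _) (fun _ _ _ _ => Finset.mem_univ _)
    have e3 := Finset.card_filter_add_card_filter_not (s := (Finset.univ : Finset W)) col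
    have e4 := Nat.mul_le_mul_right (Finset.univ.filter col).card hD
    have e5 := Nat.mul_le_mul_right (Finset.univ.filter fun v => ¬ col v).card hD
    omega

end Vale.Agent.P048
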