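import Vale.Agent.P048.Pattern
import Vale.Agent.P048.CertC

/-! Cliques with five to seven vertices: enumerate the clique patterns on the cycle. -/

namespace Vale.Agent.P048

def cp (P : ℕ → Bool) : ℕ → ℕ → ℕ
  | _, 0 => 0
  | i, k + 1 => bif P i then cp P (i + 1) k + 1 else cp P (i + 1) k

theorem cp_le (P : ℕ → Bool) : ∀ k i, cp P i k ≤ k
  | 0, _ => le_rfl
  | k + 1, i => by
    have := cp_le P k (i + 1)
    cases h : P i <;> simp only [cp, h, cond_true, cond_false] <;> omega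

theorem cp_eq_card (P : ℕ → Bool) (Q : ℤ → Prop) [DecidablePred Q]
    (h : ∀ j : ℕ, P j = true ↔ Q j) :
    ∀ (k i : ℕ), cp P i k = ((Finset.Ico (i : ℤ) ((i : ℤ) + k)).filter Q).card
  | 0, i => by simp [cp]
  | k + 1, i => by
    have ih := cp_eq_card P Q h k (i + 1)
    have e : Finset.Ico (i : ℤ) ((i : ℤ) + (k + 1 : ℕ)) =
        insert (i : ℤ) (Finset.Ico ((i + 1 : ℕ) : ℤ) (((i + 1 : ℕ) : ℤ) + k)) := by
      ext t
      simp only [Finset.mem_Ico, Finset.mem_insert]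
      omega
    rw [e, Finset.filter_insert]
    cases hP : P i with
    | true =>
      rw [if_pos ((h i).1 hP), Finset.card_insert_of_notMem (by simp), ← ih]
      simp only [cp, hP, cond_true]
    | false =>
      rw [if_neg (fun hq => by rw [(h i).2 hq] at hP; exact absurd hP (by simp)), ← ih]
      simp only [cp, hP, cond_false]

def go (x : ℕ) (leaf : ℕ → Bool) : ℕ → ℕ → ℕ → ℕ → Bool
  | 0, r, _, m => !Nat.beq r 0 || leaf m
  | k + 1, r, i, m => Nat.blt (k + 1) r || (go x leaf k r (i + 1) m &&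
      (Nat.beq r 0 || (Nat.ble (x + 1) i && m.testBit (i - (x + 1))) ||
        go x leaf k (r - 1) (i + 1) (m ||| 2 ^ i)))

theorem go_sound {x : ℕ} {leaf : ℕ → Bool} (P : ℕ → Bool)
    (hE : ∀ j, P j = true → P (j + x + 1) = true → False) :
    ∀ (k i m : ℕ), (∀ j, m.testBit j = (decide (j < i) && P j)) →
      go x leaf k (cp P i k) i m = true →
      ∃ m', (∀ j, m'.testBit j = (decide (j < i + k) && P j)) ∧ leaf m' = true
  | 0, i, m, hm, h => ⟨m, hm, by simpa [go, cp] using h⟩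
  | k + 1, i, m, hm, h => by
    have hle := cp_le P (k + 1) i
    simp only [go, Bool.or_eq_true, Bool.and_eq_true, Nat.blt_eq, Nat.beq_eq, Nat.ble_eq] at h
    rcases h with h | ⟨h1, h2⟩
    · omega
    have e : i + (k + 1) = i + 1 + k := by omega
    rw [e]
    cases hP : P i with
    | false =>
      simp only [cp, hP, cond_false] at h1
      refine go_sound P hE k (i + 1) m (fun j => ?_) h1
      rw [hm j]
      by_cases hj : j = i
      · subst hj; simp [hP]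
      · congr 1
        simp only [decide_eq_decide]; omega
    | true =>
      simp only [cp, hP, cond_true, Nat.add_sub_cancel] at h2
      rcases h2 with (h2 | ⟨h2, h3⟩) | h2
      · omega
      · rw [hm] at h3
        simp only [Bool.and_eq_true] at h3
        refine (hE _ h3.2 ?_).elim
        have : i - (x + 1) + x + 1 = i := by omega
        rw [this]; exact hP
      · refine go_sound P hE k (i + 1) _ (fun j => ?_) h2
        rw [Nat.testBit_or, hm j, Nat.testBit_two_pow]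
        by_cases hj : j = i
        · subst hj; simp [hP]
        · have h4 : ¬ i = j := fun e => hj e.symm
          simp only [h4, decide_false, Bool.or_false]
          congr 1
          simp only [decide_eq_decide]; omega

def chkEmb (n m : ℕ) (T : Tm) (ψ : List ℕ) : Bool :=
  Nat.beq ψ.length T.n && okList n ψ 0 &&
    T.es.all (fun e => Nat.blt e.1 T.n && Nat.blt e.2 T.n && !Nat.beq e.1 e.2 &&
      (Nat.beq (ψ.getD e.1 0 + 1) (ψ.getD e.2 0) || Nat.beq (ψ.getD e.2 0 + 1) (ψ.getD e.1 0) ||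
        (m.testBit (ψ.getD e.1 0) && m.testBit (ψ.getD e.2 0))))

def leafB (n x : ℕ) (lib : List Tm) (tab : List (ℕ × List ℕ)) (m : ℕ) : Bool :=
  !m.testBit (n - 1) ||
  (List.range n).any (fun i => m.testBit i && m.testBit ((i + x + 1) % n)) ||
  Nat.ble x (cp (fun i => m.testBit (i % n) && m.testBit ((i + 2) % n)) 0 n) ||
  (Nat.beq x 3 && (List.range n).any (fun i => m.testBit i && m.testBit ((i + 3) % n) &&
    (List.range n).any (fun d => Nat.ble 2 d && m.testBit ((i + d) % n) &&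
      m.testBit ((i + d + 2) % n)))) ||
  tab.any (fun t => match lib[t.1]? with
    | none => false
    | some T => chkEmb n m T t.2)

def chkAll (p b x : ℕ) (lib : List Tm) (tab : List (ℕ × List ℕ)) : Bool :=
  go x (leafB (p + 1 + x) x lib tab) (p + x) (b - 1) 1 1

variable {V : Type*} {G : SimpleGraph V} {K : Finset V}

theorem emb_of_chkEmb (hK : Clq G K) {n m : ℕ} {c : ℤ → V} (hc : ZCyc G n c)
    (hm : ∀ j : ℕ, m.testBit j = true → c j ∈ K) {T : Tm} {ψ : List ℕ}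
    (h : chkEmb n m T ψ = true) : Emb G T := by
  simp only [chkEmb, Bool.and_eq_true, Nat.beq_eq, List.all_eq_true, Nat.blt_eq,
    Bool.not_eq_true', Bool.or_eq_true] at h
  obtain ⟨⟨h1, h2⟩, h3⟩ := h
  obtain ⟨i1, i2⟩ := okList_spec h2
  have hget : ∀ i (hi : i < ψ.length), ψ.getD i 0 = ψ[i] := fun i hi => by
    simp [List.getD_eq_getElem?_getD, List.getElem?_eq_getElem hi]
  have hlt : ∀ i < T.n, ψ.getD i 0 < n := fun i hi => by
    rw [hget i (by omega)]; exact (i2 _ (List.getElem_mem _)).1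
  have hinj : ∀ i < T.n, ∀ j < T.n, c (ψ.getD i 0 : ℕ) = c (ψ.getD j 0 : ℕ) → i = j := by
    intro i hi j hj e
    have a1 := hlt i hi
    have a2 := hlt j hj
    have e1 := hc.inj' (by omega) (by omega) e
    have e2 : ψ.getD i 0 = ψ.getD j 0 := by omega
    rw [hget i (by omega), hget j (by omega)] at e2
    exact (List.Nodup.getElem_inj_iff i1).1 e2
  refine ⟨fun i => c (ψ.getD i 0 : ℕ), hinj, fun e he => ?_⟩
  obtain ⟨⟨⟨k1, k2⟩, k3⟩, k4⟩ := h3 e he
  refine ⟨k1, k2, ?_⟩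
  rcases k4 with (k4 | k4) | k4
  · exact hc.adj' (by omega)
  · exact (hc.adj' (by omega)).symm
  · refine hK _ (hm _ k4.1) _ (hm _ k4.2) (fun e' => ?_)
    rw [hinj _ k1 _ k2 e'] at k3
    simp at k3

theorem bridge {p x : ℕ} (hno : ¬ HasCyc G (p + 1)) (hp : 1 ≤ p) (hK : Clq G K)
    {lib : List Tm} (hlib : ∀ T ∈ lib, ¬ Emb G T) {tab : List (ℕ × List ℕ)}
    (h : chkAll p K.card x lib tab = true) : ¬ KPath G K (p + 1 + x) := by
  classical
  intro hkp
  obtain ⟨c, hc, h0, h1, hall⟩ := hkp.zcyc hK (by omega)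
  set n := p + 1 + x with hn
  let P : ℕ → Bool := fun j => decide (c j ∈ K)
  have hP : ∀ j : ℕ, P j = true ↔ c j ∈ K := fun j => by simp [P]
  have hcard := card_pos hc (by omega) hall 0
  have hcp := cp_eq_card P (fun t => c t ∈ K) hP n 0
  have hcp0 : cp P 0 n = K.card := by
    rw [hcp, ← hcard]; simp
  have hP0 : P 0 = true := (hP 0).2 (by simpa using h0)
  have hcp1 : cp P 1 (p + x) = K.card - 1 := by
    have e : n = (p + x) + 1 := by omega
    rw [e] at hcp0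
    simp only [cp, hP0, cond_true] at hcp0
    simp only [Nat.zero_add] at hcp0
    omega
  have hE : ∀ j, P j = true → P (j + x + 1) = true → False := fun j a b =>
    e1 hno hp hK hc j ⟨(hP j).1 a, by have := (hP _).1 b; push_cast at this; exact this⟩
  unfold chkAll at h
  rw [← hcp1] at h
  obtain ⟨m, hm, hleaf⟩ := go_sound P hE (p + x) 1 1 (fun j => by
    by_cases hj : j = 0
    · subst hj; simp [hP0]
    · have : ¬ j < 1 := by omega
      simp only [this, decide_false, Bool.false_and]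
      exact Nat.testBit_lt_two_pow (lt_of_lt_of_le (by norm_num)
        (Nat.pow_le_pow_right (by norm_num) (by omega : 1 ≤ j)))) h
  have hm1 : ∀ j : ℕ, m.testBit j = true → c j ∈ K := fun j hj => by
    rw [hm j] at hj
    simp only [Bool.and_eq_true] at hj
    exact (hP j).1 hj.2
  have hmod : ∀ j : ℕ, c ((j % n : ℕ) : ℤ) = c j := fun j => by
    rw [← hc.per_mul ((j / n : ℕ) : ℤ)]
    congr 1
    have := Nat.mod_add_div j n
    push_cast
    have h2 : ((j % n + n * (j / n) : ℕ) : ℤ) = j := by rw [this]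
    push_cast at h2
    linarith
  have hm2 : ∀ j : ℕ, m.testBit (j % n) = true ↔ c j ∈ K := fun j => by
    have : j % n < 1 + (p + x) := by
      have := Nat.mod_lt j (show 0 < n by omega); omega
    rw [hm, ← hmod j]
    simp only [this, decide_true, Bool.true_and]
    exact hP _
  simp only [leafB, Bool.or_eq_true, Bool.not_eq_true', List.any_eq_true, Bool.and_eq_true,
    Nat.ble_eq, Nat.beq_eq, List.mem_range] at hleaf
  rcases hleaf with (((hl | hl) | hl) | hl) | hl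
  · have a1 : (n - 1) % n = n - 1 := Nat.mod_eq_of_lt (by omega)
    have a2 : c ((n - 1 : ℕ) : ℤ) ∈ K := by
      rw [hc.eq_of_add (i := -1) (by omega)]; exact h1
    have := (hm2 (n - 1)).2 a2
    rw [a1, hl] at this
    exact absurd this (by simp)
  · obtain ⟨i, -, a1, a2⟩ := hl
    have := (hm2 _).1 a2
    push_cast at this
    exact e1 hno hp hK hc i ⟨hm1 i a1, this⟩
  · have a1 := e2 hno hp hK hc
    have a2 := cp_eq_card (fun i => m.testBit (i % n) && m.testBit ((i + 2) % n))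
      (fun t => c t ∈ K ∧ c (t + 2) ∈ K) (fun j => by
        rw [Bool.and_eq_true, hm2, hm2]; push_cast; rfl) n 0
    rw [a2] at hl
    simp only [Nat.cast_zero, zero_add] at hl
    have a3 : (((Finset.Ico (0 : ℤ) (n : ℤ)).filter (fun t => c t ∈ K ∧ c (t + 2) ∈ K)).card)
        < x := by convert a1
    omega
  · obtain ⟨rfl, i, -, ⟨a1, a2⟩, d, hd, ⟨a3, a4⟩, a5⟩ := hl
    have b2 := (hm2 _).1 a2
    have b4 := (hm2 _).1 a4
    have b5 := (hm2 _).1 a5
    push_cast at b2 b4 b5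
    exact e3 hno hp hK hc i (i + d) (by omega) (by omega) (hm1 i a1) b2 b4 b5
  · obtain ⟨t, -, ht⟩ := hl
    split at ht
    · exact absurd ht (by simp)
    · rename_i T hT
      exact hlib T (List.mem_of_getElem? hT) (emb_of_chkEmb hK hc hm1 ht)

def dOf : ℕ → ℕ → List (Tm × Pf)
  | 8, 5 => d_8_5
  | 9, 5 => d_9_5
  | 10, 6 => d_10_6
  | 11, 6 => d_11_6
  | 13, 7 => d_13_7
  | _, _ => []

theorem dOf_kill (p b : ℕ) : killAll p b (dOf p b) [] = true := by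
  unfold dOf
  split
  · exact k_8_5
  · exact k_9_5
  · exact k_10_6
  · exact k_11_6
  · exact k_13_7
  · rfl

def tabOf : ℕ → ℕ → ℕ → List (ℕ × List ℕ)
  | 8, 5, 2 => [(0, [1, 5, 6, 10, 0, 2, 3, 4, 7, 8, 9]),
      (0, [0, 4, 6, 10, 5, 1, 2, 3, 7, 8, 9]),
      (0, [0, 4, 5, 9, 10, 1, 2, 3, 6, 7, 8])]
  | 9, 5, 1 => [(3, [0, 3, 4, 7, 10, 1, 2, 5, 6, 8, 9]),
      (3, [7, 10, 0, 3, 6, 8, 9, 1, 2, 4, 5])]
  | 9, 5, 2 => [(2, [1, 5, 6, 11, 0, 2, 3, 4, 7, 8, 9, 10]),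
      (2, [7, 11, 1, 6, 0, 8, 9, 10, 2, 3, 4, 5]),
      (2, [0, 4, 6, 11, 5, 1, 2, 3, 7, 8, 9, 10]),
      (2, [0, 4, 5, 10, 11, 1, 2, 3, 6, 7, 8, 9]),
      (2, [7, 11, 0, 5, 6, 8, 9, 10, 1, 2, 3, 4]),
      (2, [6, 10, 0, 5, 11, 7, 8, 9, 1, 2, 3, 4])]
  | 9, 5, 3 => [(1, [2, 7, 12, 0, 1, 3, 4, 5, 6, 8, 9, 10, 11]),
      (0, [1, 6, 7, 12, 0, 2, 3, 4, 5, 8, 9, 10, 11]),
      (1, [1, 6, 11, 0, 12, 2, 3, 4, 5, 7, 8, 9, 10]),
      (0, [0, 5, 7, 12, 6, 1, 2, 3, 4, 8, 9, 10, 11]),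
      (0, [0, 5, 6, 11, 12, 1, 2, 3, 4, 7, 8, 9, 10]),
      (1, [0, 5, 10, 11, 12, 1, 2, 3, 4, 6, 7, 8, 9])]
  | 10, 6, 1 => [(1, [0, 3, 4, 7, 8, 11, 1, 2, 5, 6, 9, 10])]
  | 10, 6, 3 => [(0, [2, 7, 8, 13, 0, 1, 3, 4, 5, 6, 9, 10, 11, 12]),
      (0, [1, 6, 8, 13, 0, 7, 2, 3, 4, 5, 9, 10, 11, 12]),
      (0, [1, 6, 7, 12, 0, 13, 2, 3, 4, 5, 8, 9, 10, 11]),
      (0, [0, 5, 8, 13, 6, 7, 1, 2, 3, 4, 9, 10, 11, 12]),
      (0, [0, 5, 7, 12, 6, 13, 1, 2, 3, 4, 8, 9, 10, 11]),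
      (0, [0, 5, 6, 11, 12, 13, 1, 2, 3, 4, 7, 8, 9, 10])]
  | 11, 6, 1 => [(1, [0, 3, 4, 7, 8, 12, 1, 2, 5, 6, 9, 10, 11]),
      (1, [0, 3, 9, 12, 4, 8, 1, 2, 10, 11, 5, 6, 7]),
      (1, [5, 8, 9, 12, 0, 4, 6, 7, 10, 11, 1, 2, 3])]
  | 11, 6, 3 => [(0, [2, 7, 8, 14, 0, 1, 3, 4, 5, 6, 9, 10, 11, 12, 13]),
      (0, [9, 14, 2, 8, 0, 1, 10, 11, 12, 13, 3, 4, 5, 6, 7]),
      (0, [1, 6, 8, 14, 0, 7, 2, 3, 4, 5, 9, 10, 11, 12, 13]),
      (0, [1, 6, 7, 13, 0, 14, 2, 3, 4, 5, 8, 9, 10, 11, 12]),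
      (0, [9, 14, 1, 7, 0, 8, 10, 11, 12, 13, 2, 3, 4, 5, 6]),
      (0, [8, 13, 1, 7, 0, 14, 9, 10, 11, 12, 2, 3, 4, 5, 6]),
      (0, [0, 5, 8, 14, 6, 7, 1, 2, 3, 4, 9, 10, 11, 12, 13]),
      (0, [0, 5, 7, 13, 6, 14, 1, 2, 3, 4, 8, 9, 10, 11, 12]),
      (0, [0, 5, 6, 12, 13, 14, 1, 2, 3, 4, 7, 8, 9, 10, 11]),
      (0, [9, 14, 0, 6, 7, 8, 10, 11, 12, 13, 1, 2, 3, 4, 5]),
      (0, [8, 13, 0, 6, 7, 14, 9, 10, 11, 12, 1, 2, 3, 4, 5]),
      (0, [7, 12, 0, 6, 13, 14, 8, 9, 10, 11, 1, 2, 3, 4, 5])]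
  | 13, 7, 1 => [(1, [0, 3, 4, 7, 8, 11, 14, 1, 2, 5, 6, 9, 10, 12, 13]),
      (1, [0, 3, 11, 14, 4, 7, 10, 1, 2, 12, 13, 5, 6, 8, 9]),
      (1, [7, 10, 11, 14, 0, 3, 6, 8, 9, 12, 13, 1, 2, 4, 5])]
  | 13, 7, 2 => [(0, [1, 5, 6, 10, 11, 15, 0, 2, 3, 4, 7, 8, 9, 12, 13, 14]),
      (0, [0, 4, 6, 10, 11, 15, 5, 1, 2, 3, 7, 8, 9, 12, 13, 14]),
      (0, [0, 4, 5, 9, 11, 15, 10, 1, 2, 3, 6, 7, 8, 12, 13, 14]),
      (0, [0, 4, 5, 9, 10, 14, 15, 1, 2, 3, 6, 7, 8, 11, 12, 13])]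
  | _, _, _ => []

def chkB (b : ℕ) : Bool :=
  (List.range b).all (fun q => (List.range 3).all (fun y =>
    chkAll (b + q) b (y + 1) ((dOf (b + q) b).map Prod.fst) (tabOf (b + q) b (y + 1))))

theorem chkB5 : chkB 5 = true := by decide +kernel

theorem chkB6 : chkB 6 = true := by decide +kernel

theorem chkB7 : chkB 7 = true := by decide +kernel

theorem exc_mid [Finite V] {p : ℕ} (hG : Good G p) (hK : Clq G K) (h5 : 5 ≤ K.card)
    (h7 : K.card ≤ 7) (hmax : ∀ S, Clq G S → S.card ≤ K.card) (hbp : K.card ≤ p)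
    (hq : p + 1 ≤ 2 * K.card) (n : ℕ) (h1 : p + 2 ≤ n) (h2 : n ≤ p + 4) : ¬ KPath G K n := by
  have hB : chkB K.card = true := by
    have : K.card = 5 ∨ K.card = 6 ∨ K.card = 7 := by omega
    rcases this with h | h | h <;> rw [h]
    · exact chkB5
    · exact chkB6
    · exact chkB7
  simp only [chkB, List.all_eq_true, List.mem_range] at hB
  have h3 := hB (p - K.card) (by omega) (n - p - 2) (by omega)
  have e1 : K.card + (p - K.card) = p := by omega
  rw [e1] at h3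
  have e2 : n = p + 1 + (n - p - 2 + 1) := by omega
  rw [e2]
  exact bridge hG.nocyc (by omega) hK
    (killAll_sound hG hmax _ [] (by simp) (dOf_kill p K.card)) h3

end Vale.Agent.P048
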