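import Vale.Agent.P048.Defs

namespace Vale.Agent.P048

variable {V : Type*} {G : SimpleGraph V} {K : Finset V} {n : ℕ} {c : ℤ → V}

/-- the segment `c (i..j)` -/
def sg (c : ℤ → V) (i j : ℤ) : List V := seg c i (j + 1 - i).toNat

theorem sg_path (hc : ZCyc G n c) {i j : ℤ} (h1 : i ≤ j) (h2 : j < i + n) :
    PathL G (sg c i j) (c i) (c j) :=
  hc.seg_path (by omega) (by omega) (by omega)

theorem mem_sg {i j : ℤ} {v : V} : v ∈ sg c i j ↔ ∃ t, i ≤ t ∧ t ≤ j ∧ c t = v := by
  unfold sg
  rw [mem_seg]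
  constructor
  · rintro ⟨t, h1, h2, h3⟩
    exact ⟨t, h1, by omega, h3⟩
  · rintro ⟨t, h1, h2, h3⟩
    exact ⟨t, h1, by omega, h3⟩

theorem length_sg (c : ℤ → V) (i j : ℤ) : (sg c i j).length = (j + 1 - i).toNat :=
  length_seg _ _ _

theorem sg_disj (hc : ZCyc G n c) {i j i' j' : ℤ} (h1 : j < i') (h2 : j' < i + n) (v : V)
    (hv : v ∈ sg c i j) (hv' : v ∈ sg c i' j') : False := by
  obtain ⟨t, a1, a2, rfl⟩ := mem_sg.1 hv
  obtain ⟨t', b1, b2, e⟩ := mem_sg.1 hv'
  exact hc.inj t t' (by omega) (by omega) e.symm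

theorem sg_out {Z : List V} (hout : ∀ v ∈ Z, ∀ t, c t ≠ v) {i j : ℤ} (v : V)
    (hv : v ∈ sg c i j) (hv' : v ∈ Z) : False := by
  obtain ⟨t, -, -, e⟩ := mem_sg.1 hv
  exact hout v hv' t e

theorem win0 (hc : ZCyc G n c) (hn : 0 < n) (s t : ℤ) : ∃ j, s ≤ j ∧ j < s + n ∧ c j = c t := by
  obtain ⟨j, h1, h2, h3⟩ := hc.window hn s t
  exact ⟨j, h1, h2, by simpa using h3 0⟩

/-- Chvatal-Erdos rotation: an outside path between the successors of two clique vertices.
List: reverse of `c (i+1..j)`, then `Z`, then `c (j+1..i+n)`. -/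
theorem p1 (hc : ZCyc G n c) (hall : ∀ k ∈ K, ∃ t, c t = k) {i j : ℤ}
    (hij : i < j) (hji : j < i + n) (hi : c i ∈ K) (hj : c j ∈ K) {Z : List V} {z z' : V}
    (hZ : PathL G Z z z') (hout : ∀ v ∈ Z, ∀ t, c t ≠ v)
    (h1 : G.Adj (c (i + 1)) z) (h2 : G.Adj z' (c (j + 1))) : KPath G K (n + Z.length) := by
  have a1 := (sg_path hc (i := i + 1) (j := j) (by omega) (by omega)).reverse
  have a2 := sg_path hc (i := j + 1) (j := i + n) (by omega) (by omega)
  have a3 := a1.append hZ h1 (fun v hv hv' => sg_out hout v (List.mem_reverse.1 hv) hv')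
  have a4 := a3.append a2 h2 (fun v hv hv' => by
    rcases List.mem_append.1 hv with hv | hv
    · exact sg_disj hc (by omega) (by omega) v (List.mem_reverse.1 hv) hv'
    · exact sg_out hout v hv' hv)
  refine ⟨_, _, _, a4, ?_, hj, by rw [hc.per]; exact hi, fun k hk => ?_⟩
  · simp only [List.length_append, List.length_reverse, length_sg]; omega
  · obtain ⟨t, rfl⟩ := hall k hk
    obtain ⟨t', b1, b2, b3⟩ := win0 hc (by omega) (i + 1) t
    simp only [List.mem_append, List.mem_reverse, mem_sg]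
    by_cases h : t' ≤ j
    · exact Or.inl (Or.inl ⟨t', b1, h, b3⟩)
    · exact Or.inr ⟨t', by omega, by omega, b3⟩

/-- the same with a direct edge, dropping `c i`.
List: reverse of `c (i+1..j)`, then `c (j+1..i+n-1)`. -/
theorem p1_zero (hc : ZCyc G n c) (hK : Clq G K) {i j : ℤ}
    (hij : i < j) (hji : j + 1 < i + n) (hi : c (i - 1) ∈ K) (hj : c j ∈ K)
    (h1 : G.Adj (c (i + 1)) (c (j + 1))) : HasCyc G (n - 1) := by
  have a1 := (sg_path hc (i := i + 1) (j := j) (by omega) (by omega)).reverse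
  have a2 := sg_path hc (i := j + 1) (j := i - 1 + n) (by omega) (by omega)
  have a4 := a1.append a2 h1 (fun v hv hv' =>
    sg_disj hc (by omega) (by omega) v (List.mem_reverse.1 hv) hv')
  refine ⟨_, _, _, a4, ?_, hK _ (by rw [hc.per]; exact hi) _ hj
    (hc.inj _ _ (by omega) (by omega)).symm⟩
  simp only [List.length_append, List.length_reverse, length_sg]; omega

/-- double rotation through a clique edge `c k, c (k+1)`.
List: reverse of `c (i+1..k)`, `Z`, reverse of `c (k+1..j-1)`, then `c (j..i+n)`. -/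
theorem p2 (hc : ZCyc G n c) (hK : Clq G K) (hall : ∀ k ∈ K, ∃ t, c t = k) {i j k : ℤ}
    (hik : i + 1 ≤ k) (hkj : k + 2 ≤ j) (hji : j ≤ i + n) (hi : c i ∈ K) (hj : c j ∈ K)
    (hk : c k ∈ K) (hk1 : c (k + 1) ∈ K) {Z : List V} {z z' : V}
    (hZ : PathL G Z z z') (hout : ∀ v ∈ Z, ∀ t, c t ≠ v)
    (h1 : G.Adj (c (i + 1)) z) (h2 : G.Adj z' (c (j - 1))) : KPath G K (n + Z.length) := by
  have a1 := (sg_path hc (i := i + 1) (j := k) (by omega) (by omega)).reverse
  have a2 := (sg_path hc (i := k + 1) (j := j - 1) (by omega) (by omega)).reverse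
  have a2' := sg_path hc (i := j) (j := i + n) (by omega) (by omega)
  have a3 := a1.append hZ h1 (fun v hv hv' => sg_out hout v (List.mem_reverse.1 hv) hv')
  have a4 := a3.append a2 h2 (fun v hv hv' => by
    rcases List.mem_append.1 hv with hv | hv
    · exact sg_disj hc (by omega) (by omega) v (List.mem_reverse.1 hv) (List.mem_reverse.1 hv')
    · exact sg_out hout v (List.mem_reverse.1 hv') hv)
  have a5 := a4.append a2' (hK _ hk1 _ hj (hc.inj _ _ (by omega) (by omega))) (fun v hv hv' => by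
    rcases List.mem_append.1 hv with hv | hv
    · rcases List.mem_append.1 hv with hv | hv
      · exact sg_disj hc (by omega) (by omega) v (List.mem_reverse.1 hv) hv'
      · exact sg_out hout v hv' hv
    · exact sg_disj hc (by omega) (by omega) v (List.mem_reverse.1 hv) hv')
  refine ⟨_, _, _, a5, ?_, hk, by rw [hc.per]; exact hi, fun k' hk' => ?_⟩
  · simp only [List.length_append, List.length_reverse, length_sg]; omega
  · obtain ⟨t, rfl⟩ := hall k' hk'
    obtain ⟨t', b1, b2, b3⟩ := win0 hc (by omega) (i + 1) t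
    simp only [List.mem_append, List.mem_reverse, mem_sg]
    by_cases h : t' ≤ k
    · exact Or.inl (Or.inl (Or.inl ⟨t', b1, h, b3⟩))
    · by_cases h' : t' ≤ j - 1
      · exact Or.inl (Or.inr ⟨t', by omega, h', b3⟩)
      · exact Or.inr ⟨t', by omega, by omega, b3⟩

/-- the same with a direct edge, dropping `c i`. -/
theorem p2_zero (hc : ZCyc G n c) (hK : Clq G K) {i j k : ℤ}
    (hik : i + 1 ≤ k) (hkj : k + 2 ≤ j) (hji : j < i + n) (hi : c (i - 1) ∈ K) (hj : c j ∈ K)
    (hk : c k ∈ K) (hk1 : c (k + 1) ∈ K)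
    (h1 : G.Adj (c (i + 1)) (c (j - 1))) : HasCyc G (n - 1) := by
  have a1 := (sg_path hc (i := i + 1) (j := k) (by omega) (by omega)).reverse
  have a2 := (sg_path hc (i := k + 1) (j := j - 1) (by omega) (by omega)).reverse
  have a2' := sg_path hc (i := j) (j := i - 1 + n) (by omega) (by omega)
  have a4 := a1.append a2 h1 (fun v hv hv' =>
    sg_disj hc (by omega) (by omega) v (List.mem_reverse.1 hv) (List.mem_reverse.1 hv'))
  have a5 := a4.append a2' (hK _ hk1 _ hj (hc.inj _ _ (by omega) (by omega))) (fun v hv hv' => by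
    rcases List.mem_append.1 hv with hv | hv
    · exact sg_disj hc (by omega) (by omega) v (List.mem_reverse.1 hv) hv'
    · exact sg_disj hc (by omega) (by omega) v (List.mem_reverse.1 hv) hv')
  refine ⟨_, _, _, a5, ?_, hK _ (by rw [hc.per]; exact hi) _ hk
    (hc.inj _ _ (by omega) (by omega)).symm⟩
  simp only [List.length_append, List.length_reverse, length_sg]; omega

/-- replace the `d` non-clique vertices strictly between `c i` and `c (i+d+1)` by `Z`.
List: `c (k+1..i+n)`, `Z`, `c (i+d+1..k)`. -/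
theorem rep (hc : ZCyc G n c) (hall : ∀ k ∈ K, ∃ t, c t = k) {i k : ℤ} {d : ℕ}
    (hjk : i + d + 1 ≤ k) (hki : k + 1 ≤ i + n) (hk : c k ∈ K) (hk1 : c (k + 1) ∈ K)
    (hno : ∀ t, i < t → t < i + d + 1 → c t ∉ K) {Z : List V} {z z' : V}
    (hZ : PathL G Z z z') (hout : ∀ v ∈ Z, ∀ t, c t ≠ v)
    (h1 : G.Adj (c i) z) (h2 : G.Adj z' (c (i + d + 1))) : KPath G K (n - d + Z.length) := by
  have a1 := sg_path hc (i := k + 1) (j := i + n) (by omega) (by omega)
  have a2 := sg_path hc (i := i + d + 1) (j := k) (by omega) (by omega)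
  have a3 := a1.append hZ (by rw [hc.per]; exact h1) (fun v hv hv' => sg_out hout v hv hv')
  have a4 := a3.append a2 h2 (fun v hv hv' => by
    rcases List.mem_append.1 hv with hv | hv
    · exact sg_disj hc (by omega) (by omega) v hv' hv
    · exact sg_out hout v hv' hv)
  refine ⟨_, _, _, a4, ?_, hk1, hk, fun k' hk' => ?_⟩
  · simp only [List.length_append, length_sg]; omega
  · obtain ⟨t, rfl⟩ := hall k' hk'
    obtain ⟨t', b1, b2, b3⟩ := win0 hc (by omega) (i + 1) t
    simp only [List.mem_append, mem_sg]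
    by_cases h : t' < i + d + 1
    · exact absurd (b3 ▸ hk') (hno t' (by omega) h)
    · by_cases h' : t' ≤ k
      · exact Or.inr ⟨t', by omega, h', b3⟩
      · exact Or.inl (Or.inl ⟨t', by omega, by omega, b3⟩)

/-- a chord skipping `d` vertices -/
theorem chord (hc : ZCyc G n c) {i : ℤ} {d : ℕ} (hd : d + 1 < n)
    (h : G.Adj (c i) (c (i + d + 1))) : HasCyc G (n - d) := by
  have a1 := sg_path hc (i := i + d + 1) (j := i + n) (by omega) (by omega)
  refine ⟨_, _, _, a1, ?_, by rw [hc.per]; exact h⟩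
  simp only [length_sg]; omega

theorem del_aux (hc : ZCyc G n c) (hK : Clq G K) (s : ℤ) (X : Finset ℤ)
    (hX : ∀ t ∈ X, s < t ∧ t < s + n)
    (hb : ∀ t ∈ X, (t - 1 ∈ X ∨ c (t - 1) ∈ K) ∧ (t + 1 ∈ X ∨ c (t + 1) ∈ K)) :
    ∀ m : ℕ, m + 1 ≤ n → ∃ L r, PathL G L (c s) (c r) ∧ s ≤ r ∧ r ≤ s + m ∧
      (s + m ∉ X → r = s + m) ∧ (s + m ∈ X → c r ∈ K) ∧
      L.length + (X.filter (fun t => t ≤ s + m)).card = m + 1 ∧
      ∀ v ∈ L, ∃ t, s ≤ t ∧ t ≤ s + m ∧ c t = v
  | 0, _ => by
    refine ⟨[c s], s, PathL.single G _, le_rfl, by simp, by simp, fun h => ?_, ?_, ?_⟩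
    · have := hX _ h; omega
    · have : X.filter (fun t => t ≤ s + (0 : ℕ)) = ∅ := by
        rw [Finset.filter_eq_empty_iff]
        intro t ht
        have := hX t ht
        omega
      rw [this]; rfl
    · intro v hv
      rw [List.mem_singleton] at hv
      exact ⟨s, le_rfl, by simp, hv.symm⟩
  | m + 1, hm => by
    obtain ⟨L, r, a1, a2, a3, a4, a5, a6, a7⟩ := del_aux hc hK s X hX hb m (by omega)
    have e0 : s + ((m + 1 : ℕ) : ℤ) = s + m + 1 := by push_cast; ring
    rw [e0]
    by_cases hx : s + m + 1 ∈ X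
    · refine ⟨L, r, a1, a2, by omega, fun h => absurd hx h, fun _ => ?_, ?_, fun v hv => ?_⟩
      · by_cases hx' : s + m ∈ X
        · exact a5 hx'
        · rcases (hb _ hx).1 with h | h
          · exact absurd (by simpa using h) hx'
          · rw [a4 hx']; simpa using h
      · have : X.filter (fun t => t ≤ s + m + 1) =
            insert (s + m + 1) (X.filter (fun t => t ≤ s + m)) := by
          ext t
          simp only [Finset.mem_filter, Finset.mem_insert]
          constructor
          · rintro ⟨h1, h2⟩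
            by_cases h : t = s + m + 1
            · exact Or.inl h
            · exact Or.inr ⟨h1, by omega⟩
          · rintro (rfl | ⟨h1, h2⟩)
            · exact ⟨hx, le_rfl⟩
            · exact ⟨h1, by omega⟩
        rw [this, Finset.card_insert_of_notMem (by simp)]
        omega
      · obtain ⟨t, b1, b2, b3⟩ := a7 v hv
        exact ⟨t, b1, by omega, b3⟩
    · have hadj : G.Adj (c r) (c (s + m + 1)) := by
        by_cases hx' : s + m ∈ X
        · rcases (hb _ hx').2 with h | h
          · exact absurd h hx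
          · exact hK _ (a5 hx') _ h (hc.inj _ _ (by omega) (by omega))
        · exact hc.adj' (by rw [a4 hx'])
      have a8 := a1.append (PathL.single G (c (s + m + 1))) hadj (fun v hv hv' => by
        obtain ⟨t, b1, b2, b3⟩ := a7 v hv
        rw [List.mem_singleton] at hv'
        exact hc.inj t (s + m + 1) (by omega) (by omega) (b3.trans hv'))
      refine ⟨_, s + m + 1, a8, by omega, le_rfl, fun _ => rfl, fun h => absurd h hx, ?_,
        fun v hv => ?_⟩
      · have : X.filter (fun t => t ≤ s + m + 1) = X.filter (fun t => t ≤ s + m) := by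
          ext t
          simp only [Finset.mem_filter]
          constructor
          · rintro ⟨h1, h2⟩
            have : t ≠ s + m + 1 := fun e => hx (e ▸ h1)
            exact ⟨h1, by omega⟩
          · rintro ⟨h1, h2⟩
            exact ⟨h1, by omega⟩
        rw [this, List.length_append, List.length_singleton]
        omega
      · rcases List.mem_append.1 hv with hv | hv
        · obtain ⟨t, b1, b2, b3⟩ := a7 v hv
          exact ⟨t, b1, by omega, b3⟩
        · rw [List.mem_singleton] at hv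
          exact ⟨s + m + 1, by omega, le_rfl, hv.symm⟩

/-- delete a set of positions whose boundary lies in the clique -/
theorem del (hc : ZCyc G n c) (hK : Clq G K) (s : ℤ) (X : Finset ℤ)
    (hX : ∀ t ∈ X, s < t ∧ t < s + n)
    (hb : ∀ t ∈ X, (t - 1 ∈ X ∨ c (t - 1) ∈ K) ∧ (t + 1 ∈ X ∨ c (t + 1) ∈ K))
    (hn : X.card + 2 ≤ n) : HasCyc G (n - X.card) := by
  obtain ⟨L, r, a1, a2, a3, a4, a5, a6, -⟩ := del_aux hc hK s X hX hb (n - 1) (by omega)
  have e : X.filter (fun t => t ≤ s + ((n - 1 : ℕ) : ℤ)) = X := by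
    rw [Finset.filter_eq_self]
    intro t ht
    have := hX t ht
    omega
  rw [e] at a6
  refine ⟨L, _, _, a1, by omega, ?_⟩
  by_cases hx : s + ((n - 1 : ℕ) : ℤ) ∈ X
  · rcases (hb _ hx).2 with h | h
    · have := hX _ h; omega
    · rw [hc.eq_of_add (i := s) (by omega)] at h
      exact hK _ (a5 hx) _ h (a1.ne_of_length (by omega)).symm
  · rw [← hc.per s]
    exact hc.adj' (by rw [a4 hx]; omega)

end Vale.Agent.P048
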