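import Mathlib

/-! Internal vocabulary for the proof of the cycle-complete Ramsey conjecture. -/

namespace Vale.Agent.P048

variable {V : Type*}

/-- independent finset -/
def Indep (G : SimpleGraph V) (I : Finset V) : Prop := ∀ u ∈ I, ∀ v ∈ I, ¬ G.Adj u v

/-- clique finset -/
def Clq (G : SimpleGraph V) (K : Finset V) : Prop := ∀ u ∈ K, ∀ v ∈ K, u ≠ v → G.Adj u v

/-- every finset containing the closed neighbourhood of a nonempty independent set `I`
has more than `D * |I|` elements -/
def Expands (G : SimpleGraph V) (D : ℕ) : Prop :=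
  ∀ I S : Finset V, I.Nonempty → Indep G I → I ⊆ S → (∀ u ∈ I, ∀ v, G.Adj u v → v ∈ S) →
    D * I.card + 1 ≤ S.card

/-- connectivity, in closure form -/
def Conn (G : SimpleGraph V) : Prop :=
  ∀ X : Set V, X.Nonempty → (∀ u ∈ X, ∀ v, G.Adj u v → v ∈ X) → X = Set.univ

/-- `L` lists the vertices of a path from `a` to `b` -/
structure PathL (G : SimpleGraph V) (L : List V) (a b : V) : Prop where
  nodup : L.Nodup
  chain : L.IsChain G.Adj
  head : L.head? = some a
  last : L.getLast? = some b

/-- a cycle with `n` vertices (meaningful for `3 ≤ n`) -/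
def HasCyc (G : SimpleGraph V) (n : ℕ) : Prop :=
  ∃ L a b, PathL G L a b ∧ L.length = n ∧ G.Adj b a

/-- a path with `n` vertices, both ends in `K`, through all of `K` -/
def KPath (G : SimpleGraph V) (K : Finset V) (n : ℕ) : Prop :=
  ∃ L a b, PathL G L a b ∧ L.length = n ∧ a ∈ K ∧ b ∈ K ∧ ∀ k ∈ K, k ∈ L

/-- a cycle with `n` vertices, as an `n`-periodic map on the integers -/
structure ZCyc (G : SimpleGraph V) (n : ℕ) (c : ℤ → V) : Prop where
  per : ∀ i, c (i + n) = c i
  inj : ∀ i j : ℤ, i < j → j < i + n → c i ≠ c j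
  adj : ∀ i, G.Adj (c i) (c (i + 1))

/-- the standing hypotheses on a minimal counterexample -/
structure Good (G : SimpleGraph V) (p : ℕ) : Prop where
  ne : Nonempty V
  exp : Expands G p
  alpha : ∀ I, Indep G I → I.card ≤ p
  card : ∀ S : Finset V, S.card ≤ p * p + 1
  nocyc : ¬ HasCyc G (p + 1)

/-- forward segment `c i, c (i+1), ..., c (i+m-1)` -/
def seg (c : ℤ → V) (i : ℤ) (m : ℕ) : List V := (List.range m).map (fun t : ℕ => c (i + t))

theorem length_seg (c : ℤ → V) (i : ℤ) (m : ℕ) : (seg c i m).length = m := by simp [seg]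

theorem mem_seg {c : ℤ → V} {i : ℤ} {m : ℕ} {v : V} :
    v ∈ seg c i m ↔ ∃ t, i ≤ t ∧ t < i + m ∧ c t = v := by
  simp only [seg, List.mem_map, List.mem_range]
  constructor
  · rintro ⟨t, ht, rfl⟩
    exact ⟨i + t, by omega, by omega, rfl⟩
  · rintro ⟨t, h1, h2, rfl⟩
    refine ⟨(t - i).toNat, by omega, ?_⟩
    congr 1; omega

theorem PathL.reverse {G : SimpleGraph V} {L : List V} {a b : V} (h : PathL G L a b) :
    PathL G L.reverse b a where
  nodup := List.nodup_reverse.2 h.nodup
  chain := by
    rw [List.isChain_reverse]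
    exact h.chain.imp (fun _ _ hab => hab.symm)
  head := by rw [List.head?_reverse]; exact h.last
  last := by rw [List.getLast?_reverse]; exact h.head

theorem PathL.single (G : SimpleGraph V) (a : V) : PathL G [a] a a :=
  ⟨List.nodup_singleton a, List.isChain_singleton a, rfl, rfl⟩

theorem PathL.ne_nil {G : SimpleGraph V} {L : List V} {a b : V} (h : PathL G L a b) :
    L ≠ [] := by
  rintro rfl
  have := h.head
  simp at this

theorem PathL.head_mem {G : SimpleGraph V} {L : List V} {a b : V} (h : PathL G L a b) :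
    a ∈ L := List.mem_of_mem_head? (by rw [h.head]; rfl)

theorem PathL.last_mem {G : SimpleGraph V} {L : List V} {a b : V} (h : PathL G L a b) :
    b ∈ L := List.mem_of_mem_getLast? (by rw [h.last]; rfl)

/-- concatenation of disjoint paths joined by an edge -/
theorem PathL.append {G : SimpleGraph V} {L M : List V} {a b a' b' : V} (h : PathL G L a b)
    (h' : PathL G M a' b') (hadj : G.Adj b a') (hd : ∀ v, v ∈ L → v ∈ M → False) :
    PathL G (L ++ M) a b' where
  nodup := List.nodup_append.2 ⟨h.nodup, h'.nodup, fun x hx y hy hxy => hd x hx (hxy ▸ hy)⟩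
  chain := by
    refine h.chain.append h'.chain ?_
    intro x hx y hy
    rw [h.last] at hx
    rw [h'.head] at hy
    simp only [Option.mem_def, Option.some.injEq] at hx hy
    subst hx hy
    exact hadj
  head := by rw [List.head?_append, h.head]; rfl
  last := by rw [List.getLast?_append, h'.last]; rfl

theorem PathL.cons {G : SimpleGraph V} {M : List V} {z a b : V} (h : PathL G M a b)
    (hadj : G.Adj z a) (hz : z ∉ M) : PathL G (z :: M) z b :=
  (PathL.single G z).append h hadj (fun v hv hv' => hz (by
    rw [List.mem_singleton] at hv; exact hv ▸ hv'))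

theorem PathL.ne_of_length {G : SimpleGraph V} {L : List V} {a b : V} (h : PathL G L a b)
    (hl : 2 ≤ L.length) : a ≠ b := by
  obtain ⟨hn, -, hh, hlast⟩ := h
  match L, hl with
  | x :: y :: M, _ =>
    simp only [List.head?_cons, Option.some.injEq] at hh
    subst hh
    have : b ∈ y :: M := List.mem_of_mem_getLast? (by
      rw [List.getLast?_cons_cons] at hlast; rw [hlast]; rfl)
    rintro rfl
    exact (List.nodup_cons.1 hn).1 this

theorem PathL.map {W : Type*} {H : SimpleGraph W} {G : SimpleGraph V} (f : W → V)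
    (hf : Function.Injective f) (hadj : ∀ x y, H.Adj x y → G.Adj (f x) (f y))
    {L : List W} {a b : W} (h : PathL H L a b) : PathL G (L.map f) (f a) (f b) where
  nodup := h.nodup.map hf
  chain := List.isChain_map_of_isChain f hadj h.chain
  head := by rw [List.head?_map, h.head]; rfl
  last := by rw [List.getLast?_map, h.last]; rfl

namespace ZCyc

variable {G : SimpleGraph V} {n : ℕ} {c : ℤ → V}

theorem per_mul (h : ZCyc G n c) (k : ℤ) (i : ℤ) : c (i + k * n) = c i := by
  induction k using Int.induction_on with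
  | zero => simp
  | succ k ih => rw [← ih, ← h.per (i + k * n)]; congr 1; ring
  | pred k ih => rw [← ih, ← h.per (i + (-(k : ℤ) - 1) * n)]; congr 1; ring

/-- `c i = c j` when the indices differ by `n` -/
theorem eq_of_add (h : ZCyc G n c) {i j : ℤ} (hij : j = i + n) : c j = c i := by
  rw [hij, h.per]

/-- every index can be moved into the window `[s, s+n)` -/
theorem window (h : ZCyc G n c) (hn : 0 < n) (s i : ℤ) :
    ∃ j, s ≤ j ∧ j < s + n ∧ ∀ t, c (j + t) = c (i + t) := by
  have hn' : (0 : ℤ) < n := by omega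
  refine ⟨s + (i - s) % n, ?_, ?_, fun t => ?_⟩
  · have := Int.emod_nonneg (i - s) hn'.ne'; omega
  · have := Int.emod_lt_of_pos (i - s) hn'; omega
  · rw [← h.per_mul ((i - s) / n)]
    congr 1
    have := Int.emod_add_mul_ediv (i - s) n
    linarith

theorem inj' (h : ZCyc G n c) {i j : ℤ} (h1 : i < j + n) (h2 : j < i + n) (e : c i = c j) :
    i = j := by
  rcases lt_trichotomy i j with hlt | heq | hgt
  · exact absurd e (h.inj i j hlt h2)
  · exact heq
  · exact absurd e.symm (h.inj j i hgt h1)

theorem adj' (h : ZCyc G n c) {i j : ℤ} (hij : j = i + 1) : G.Adj (c i) (c j) := by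
  rw [hij]; exact h.adj i

theorem shift (h : ZCyc G n c) (s : ℤ) : ZCyc G n (fun i => c (i + s)) where
  per i := by rw [← h.per (i + s)]; congr 1; ring
  inj i j h1 h2 := h.inj _ _ (by omega) (by omega)
  adj i := h.adj' (by ring)

theorem rev (h : ZCyc G n c) : ZCyc G n (fun i => c (-i)) where
  per i := by rw [← h.per (-(i + n))]; congr 1; ring
  inj i j h1 h2 := (h.inj _ _ (by omega) (by omega)).symm
  adj i := (h.adj' (by ring)).symm

/-- a forward segment from index `i` to index `j` is a path -/
theorem seg_path (h : ZCyc G n c) {i j : ℤ} {m : ℕ} (hm : j + 1 = i + m) (h1 : 1 ≤ m)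
    (hn : m ≤ n) : PathL G (seg c i m) (c i) (c j) where
  nodup := by
    refine List.Nodup.map_on ?_ List.nodup_range
    intro x hx y hy e
    rw [List.mem_range] at hx hy
    have := h.inj' (by omega) (by omega) e
    omega
  chain := by
    unfold seg
    rw [List.isChain_map, List.isChain_range]
    intro t _
    exact h.adj' (by push_cast; ring)
  head := by
    obtain ⟨m, rfl⟩ : ∃ k, m = k + 1 := ⟨m - 1, by omega⟩
    simp [seg, List.range_succ_eq_map]
  last := by
    obtain ⟨m, rfl⟩ : ∃ k, m = k + 1 := ⟨m - 1, by omega⟩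
    simp only [seg, List.range_succ, List.map_append, List.map_cons, List.map_nil,
      List.getLast?_append, List.getLast?_singleton, Option.some_or, Option.some.injEq]
    congr 1
    push_cast at hm
    omega

theorem hasCyc (h : ZCyc G n c) (hn : 0 < n) : HasCyc G n :=
  ⟨seg c 0 n, c 0, c (n - 1), h.seg_path (by ring) hn le_rfl, length_seg _ _ _, by
    rw [← h.per 0]; exact h.adj' (by ring)⟩

end ZCyc

/-- a closed path yields a periodic parametrisation -/
theorem exists_zcyc {G : SimpleGraph V} {L : List V} {a b : V} (h : PathL G L a b)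
    (hba : G.Adj b a) :
    ∃ c, ZCyc G L.length c ∧ c 0 = a ∧ c (-1) = b ∧ (∀ v, v ∈ L ↔ ∃ i, c i = v) := by
  have hpos : 0 < L.length := List.length_pos_iff.2 h.ne_nil
  have hpos' : (0 : ℤ) < L.length := by omega
  have hlt : ∀ i : ℤ, (i % (L.length : ℤ)).toNat < L.length := fun i => by
    have := Int.emod_nonneg i hpos'.ne'
    have := Int.emod_lt_of_pos i hpos'
    omega
  have h0 : L[0] = a := by
    have := h.head
    rw [List.head?_eq_getElem?, List.getElem?_eq_getElem hpos] at this
    exact Option.some.inj this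
  have hl : L[L.length - 1] = b := by
    have := h.last
    rw [List.getLast?_eq_getElem?, List.getElem?_eq_getElem (by omega)] at this
    exact Option.some.inj this
  have hm1 : (-1 : ℤ) % (L.length : ℤ) = L.length - 1 := by
    rw [← Int.add_emod_right, Int.emod_eq_of_lt] <;> omega
  refine ⟨fun i => L[(i % (L.length : ℤ)).toNat]'(hlt i), ⟨fun i => ?_, fun i j h1 h2 e => ?_,
    fun i => ?_⟩, ?_, ?_, fun v => ⟨fun hv => ?_, ?_⟩⟩
  · simp
  · have e' := (List.Nodup.getElem_inj_iff h.nodup).1 e
    have a1 := Int.emod_nonneg i hpos'.ne'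
    have a2 := Int.emod_nonneg j hpos'.ne'
    have e2 : i % (L.length : ℤ) = j % (L.length : ℤ) := by omega
    have hd : (L.length : ℤ) ∣ j - i := Int.ModEq.dvd e2
    have := Int.le_of_dvd (by omega) hd
    omega
  · have a1 := Int.emod_nonneg i hpos'.ne'
    have a2 := Int.emod_lt_of_pos i hpos'
    have a3 : (i + 1) % (L.length : ℤ) = (i % L.length + 1) % L.length := by simp
    by_cases hc : i % (L.length : ℤ) + 1 < L.length
    · have a4 : ((i + 1) % (L.length : ℤ)).toNat = (i % (L.length : ℤ)).toNat + 1 := by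
        rw [a3, Int.emod_eq_of_lt (by omega) hc]; omega
      simp only [a4]
      exact List.isChain_iff_getElem.1 h.chain _ (by omega)
    · have a5 : i % (L.length : ℤ) + 1 = L.length := by omega
      have a4 : ((i + 1) % (L.length : ℤ)).toNat = 0 := by
        rw [a3, a5]; simp
      have a6 : (i % (L.length : ℤ)).toNat = L.length - 1 := by omega
      simp only [a4, a6, h0, hl]
      exact hba
  · simp [h0]
  · have : ((-1 : ℤ) % (L.length : ℤ)).toNat = L.length - 1 := by omega
    simp only [this, hl]
  · obtain ⟨k, hk, rfl⟩ := List.getElem_of_mem hv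
    refine ⟨k, ?_⟩
    have : ((k : ℤ) % (L.length : ℤ)).toNat = k := by
      rw [Int.emod_eq_of_lt (by omega) (by omega)]; omega
    simp only [this]
  · rintro ⟨i, rfl⟩
    exact List.getElem_mem _

/-- minimum degree from expansion -/
theorem Expands.deg {G : SimpleGraph V} {D : ℕ} (h : Expands G D) (v : V) (S : Finset V)
    (hS : ∀ u, G.Adj v u → u ∈ S) : D ≤ S.card := by
  classical
  have := h {v} (insert v S) (Finset.singleton_nonempty v)
    (by intro a ha b hb; rw [Finset.mem_singleton] at ha hb; subst ha hb; exact G.irrefl)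
    (by simp) (by
      intro a ha b hab
      rw [Finset.mem_singleton] at ha; subst ha
      exact Finset.mem_insert_of_mem (hS b hab))
  have h2 := Finset.card_insert_le v S
  simp only [Finset.card_singleton] at this
  omega

/-- a `K`-path with at least two vertices closes up to a cycle -/
theorem KPath.zcyc {G : SimpleGraph V} {K : Finset V} {n : ℕ} (hK : Clq G K) (h : KPath G K n)
    (hn : 2 ≤ n) :
    ∃ c, ZCyc G n c ∧ c 0 ∈ K ∧ c (-1) ∈ K ∧ ∀ k ∈ K, ∃ i, c i = k := by
  obtain ⟨L, a, b, hp, rfl, ha, hb, hall⟩ := h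
  obtain ⟨c, hc, h0, h1, hm⟩ := exists_zcyc hp (hK b hb a ha (hp.ne_of_length hn).symm)
  exact ⟨c, hc, h0 ▸ ha, h1 ▸ hb, fun k hk => (hm k).1 (hall k hk)⟩

theorem KPath.hasCyc {G : SimpleGraph V} {K : Finset V} {n : ℕ} (hK : Clq G K) (h : KPath G K n)
    (hn : 2 ≤ n) : HasCyc G n := by
  obtain ⟨c, hc, -⟩ := h.zcyc hK hn
  exact hc.hasCyc (by omega)

end Vale.Agent.P048
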