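import Vale.Agent.P048.Minimal

/-! A verified checker for finite local case analyses. -/

namespace Vale.Agent.P048

def bit (m u v : ℕ) : Bool := m.testBit (64 * u + v)

def setE (m u v : ℕ) : ℕ := m ||| 2 ^ (64 * u + v) ||| 2 ^ (64 * v + u)

theorem bit_setE {m u v a b : ℕ} (hu : u < 64) (hv : v < 64) (hb : b < 64)
    (h : bit (setE m u v) a b = true) : bit m a b = true ∨ (a = u ∧ b = v) ∨ (a = v ∧ b = u) := by
  simp only [bit, setE, Nat.testBit_or, Nat.testBit_two_pow, Bool.or_eq_true,
    decide_eq_true_eq] at h ⊢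
  rcases h with (h | h) | h
  · exact Or.inl h
  · right; left; omega
  · right; right; omega

/-- all entries are below `n`, distinct, and not marked in `m` -/
def okList (n : ℕ) : List ℕ → ℕ → Bool
  | [], _ => true
  | a :: l, m => Nat.blt a n && !m.testBit a && okList n l (m ||| 2 ^ a)

theorem okList_spec {n : ℕ} : ∀ {l : List ℕ} {m : ℕ}, okList n l m = true →
    l.Nodup ∧ ∀ a ∈ l, a < n ∧ m.testBit a = false
  | [], _, _ => by simp
  | a :: l, m, h => by
    simp only [okList, Bool.and_eq_true, Nat.blt_eq, Bool.not_eq_true'] at h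
    obtain ⟨⟨h1, h2⟩, h3⟩ := h
    obtain ⟨i1, i2⟩ := okList_spec h3
    refine ⟨List.nodup_cons.2 ⟨fun ha => ?_, i1⟩, ?_⟩
    · have := (i2 a ha).2
      simp [Nat.testBit_or] at this
    · intro x hx
      rcases List.mem_cons.1 hx with rfl | hx
      · exact ⟨h1, h2⟩
      · have := i2 x hx
        simp only [Nat.testBit_or, Bool.or_eq_false_iff] at this
        exact ⟨this.1, this.2.1⟩

/-- consecutive entries are marked; the last one is marked with `z` -/
def chainB (A z : ℕ) : ℕ → List ℕ → Bool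
  | a, [] => bit A a z
  | a, b :: l => bit A a b && chainB A z b l

/-- all pairs are marked -/
def pairsB (A : ℕ) : List ℕ → Bool
  | [] => true
  | a :: l => l.all (fun b => bit A a b) && pairsB A l

structure Tm where
  n : ℕ
  es : List (ℕ × ℕ)

inductive Cert
  | cyc (a : ℕ) (l : List ℕ)
  | clq (l : List ℕ)
  | emb (t : ℕ) (l : List ℕ)

inductive Step
  | x (u v : ℕ) (c : Cert)
  | new (a : ℕ)
  | new2 (a : ℕ)
  | free (a : ℕ) (l : List ℕ)

inductive Pf
  | ind (l : List ℕ)
  | big
  | br (u v : ℕ) (k1 k2 : Pf)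
  | seq (s : List Step) (k : Pf)

def chkCert (p b : ℕ) (lib : List Tm) (n A : ℕ) : Cert → Bool
  | .cyc a l => Nat.beq l.length p && okList n (a :: l) 0 && chainB A a a l
  | .clq l => Nat.beq l.length (b + 1) && okList n l 0 && pairsB A l
  | .emb t l =>
    match lib[t]? with
    | none => false
    | some T => Nat.beq l.length T.n && okList n l 0 &&
        T.es.all (fun e => Nat.blt e.1 T.n && Nat.blt e.2 T.n &&
          bit A (l.getD e.1 0) (l.getD e.2 0))

/-- number of vertices below `k` that may be adjacent to `a` -/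
def cnt (N a : ℕ) : ℕ → ℕ
  | 0 => 0
  | k + 1 => bif Nat.beq k a || bit N a k then cnt N a k else cnt N a k + 1

def runSteps (p b : ℕ) (lib : List Tm) (fin : ℕ → ℕ → ℕ → Bool) :
    List Step → ℕ → ℕ → ℕ → Bool
  | [], n, A, N => fin n A N
  | .x u v c :: s, n, A, N => Nat.blt u n && Nat.blt v n && chkCert p b lib n (setE A u v) c &&
      runSteps p b lib fin s n A (setE N u v)
  | .new a :: s, n, A, N => Nat.blt a n && Nat.blt n 64 && Nat.blt (cnt N a n) p &&
      runSteps p b lib fin s (n + 1) (setE A a n) N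
  | .new2 a :: s, n, A, N => Nat.blt a n && Nat.blt n 63 && Nat.ble (cnt N a n + b) p &&
      runSteps p b lib fin s (n + 2) (setE (setE A a n) a (n + 1)) (setE N n (n + 1))
  | .free a l :: s, n, A, N => Nat.blt n 64 && Nat.ble n (p * (l.length + 1)) &&
      okList n (a :: l) 0 && pairsB N (a :: l) && runSteps p b lib fin s (n + 1) A N

def run (p b : ℕ) (lib : List Tm) : Pf → ℕ → ℕ → ℕ → Bool
  | .ind l => fun n _ N => Nat.beq l.length (p + 1) && okList n l 0 && pairsB N l
  | .big => fun n _ _ => Nat.ble (p * p + 2) n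
  | .br u v k1 k2 => fun n A N => Nat.blt u n && Nat.blt v n &&
      run p b lib k1 n (setE A u v) N && run p b lib k2 n A (setE N u v)
  | .seq s k => fun n A N => runSteps p b lib (run p b lib k) s n A N

def initA : List (ℕ × ℕ) → ℕ
  | [] => 0
  | e :: l => setE (initA l) e.1 e.2

def killT (p b : ℕ) (lib : List Tm) (T : Tm) (pf : Pf) : Bool :=
  Nat.ble T.n 64 && run p b lib pf T.n (initA T.es) 0

variable {V : Type*} {G : SimpleGraph V}

/-- the template embeds in the graph -/
def Emb (G : SimpleGraph V) (T : Tm) : Prop :=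
  ∃ φ : ℕ → V, (∀ i < T.n, ∀ j < T.n, φ i = φ j → i = j) ∧
    ∀ e ∈ T.es, e.1 < T.n ∧ e.2 < T.n ∧ G.Adj (φ e.1) (φ e.2)

/-- a symmetric relation holds on all marked pairs -/
def Marks (R : V → V → Prop) (φ : ℕ → V) (n A : ℕ) : Prop :=
  ∀ u v, v < 64 → bit A u v = true → u < n ∧ v < n ∧ R (φ u) (φ v)

theorem Marks.set {R : V → V → Prop} {φ : ℕ → V} {n A u v : ℕ} (h : Marks R φ n A) (hn : n ≤ 64)
    (hu : u < n) (hv : v < n) (h1 : R (φ u) (φ v)) (h2 : R (φ v) (φ u)) :
    Marks R φ n (setE A u v) := by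
  intro a c hc hb
  rcases bit_setE (by omega) (by omega) hc hb with h' | ⟨rfl, rfl⟩ | ⟨rfl, rfl⟩
  · exact h a c hc h'
  · exact ⟨hu, hv, h1⟩
  · exact ⟨hv, hu, h2⟩

theorem Marks.ext {R : V → V → Prop} {φ ψ : ℕ → V} {n n' A : ℕ} (h : Marks R φ n A) (hn : n ≤ n')
    (he : ∀ i < n, ψ i = φ i) : Marks R ψ n' A := by
  intro a c hc hb
  obtain ⟨h1, h2, h3⟩ := h a c hc hb
  exact ⟨by omega, by omega, by rw [he a h1, he c h2]; exact h3⟩

theorem chainB_spec {φ : ℕ → V} {n A z : ℕ} (hA : Marks G.Adj φ n A) (hn : n ≤ 64) (hz : z < n) :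
    ∀ (l : List ℕ) (a : ℕ), (∀ x ∈ l, x < n) → chainB A z a l = true →
      ((a :: l).map φ).IsChain G.Adj ∧
        ∃ y, ((a :: l).map φ).getLast? = some y ∧ G.Adj y (φ z)
  | [], a, _, h => ⟨by simp, φ a, by simp, (hA a z (by omega) h).2.2⟩
  | c :: l, a, hl, h => by
    simp only [chainB, Bool.and_eq_true] at h
    have hc := hl c (by simp)
    obtain ⟨i1, y, i2, i3⟩ := chainB_spec hA hn hz l c (fun x hx => hl x (by simp [hx])) h.2
    refine ⟨?_, y, ?_, i3⟩
    · simp only [List.map_cons] at i1 ⊢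
      exact List.IsChain.cons_cons (hA a c (by omega) h.1).2.2 i1
    · simp only [List.map_cons] at i2 ⊢
      rw [List.getLast?_cons_cons]; exact i2

theorem pairsB_spec {R : V → V → Prop} (hR : ∀ a b, R a b → R b a) {φ : ℕ → V} {n A : ℕ}
    (hA : Marks R φ n A) (hn : n ≤ 64) :
    ∀ (l : List ℕ), (∀ x ∈ l, x < n) → pairsB A l = true →
      ∀ a ∈ l, ∀ c ∈ l, a ≠ c → R (φ a) (φ c)
  | [], _, _ => by simp
  | z :: l, hl, h => by
    simp only [pairsB, Bool.and_eq_true, List.all_eq_true] at h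
    have ih := pairsB_spec hR hA hn l (fun x hx => hl x (by simp [hx])) h.2
    have hz : ∀ c ∈ l, R (φ z) (φ c) := fun c hc =>
      (hA z c (by have := hl c (by simp [hc]); omega) (h.1 c hc)).2.2
    intro a ha c hc hac
    rcases List.mem_cons.1 ha with rfl | ha' <;> rcases List.mem_cons.1 hc with rfl | hc'
    · exact absurd rfl hac
    · exact hz c hc'
    · exact hR _ _ (hz a ha')
    · exact ih a ha' c hc' hac

theorem nodup_map_of_inj {φ : ℕ → V} {n : ℕ} (hinj : ∀ i < n, ∀ j < n, φ i = φ j → i = j)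
    {l : List ℕ} (hl : l.Nodup) (hlt : ∀ x ∈ l, x < n) : (l.map φ).Nodup :=
  List.Nodup.map_on (fun x hx y hy e => hinj x (hlt x hx) y (hlt y hy) e) hl

theorem chkCert_sound {p b : ℕ} {lib : List Tm} (hG : Good G p)
    (hmax : ∀ S, Clq G S → S.card ≤ b) (hlib : ∀ T ∈ lib, ¬ Emb G T) {φ : ℕ → V} {n A : ℕ}
    (hn : n ≤ 64) (hinj : ∀ i < n, ∀ j < n, φ i = φ j → i = j) (hA : Marks G.Adj φ n A)
    (c : Cert) (h : chkCert p b lib n A c = true) : False := by
  classical
  cases c with
  | cyc a l =>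
    simp only [chkCert, Bool.and_eq_true, Nat.beq_eq] at h
    obtain ⟨⟨h1, h2⟩, h3⟩ := h
    obtain ⟨i1, i2⟩ := okList_spec h2
    have hlt : ∀ x ∈ a :: l, x < n := fun x hx => (i2 x hx).1
    obtain ⟨j1, y, j2, j3⟩ := chainB_spec hA hn (hlt a (by simp)) l a
      (fun x hx => hlt x (by simp [hx])) h3
    exact hG.nocyc ⟨(a :: l).map φ, φ a, y, ⟨nodup_map_of_inj hinj i1 hlt, j1, by simp, j2⟩,
      by simp [h1], j3⟩
  | clq l =>
    simp only [chkCert, Bool.and_eq_true, Nat.beq_eq] at h
    obtain ⟨⟨h1, h2⟩, h3⟩ := h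
    obtain ⟨i1, i2⟩ := okList_spec h2
    have hlt : ∀ x ∈ l, x < n := fun x hx => (i2 x hx).1
    have hp := pairsB_spec (R := G.Adj) (fun _ _ h => h.symm) hA hn l hlt h3
    have := hmax (l.map φ).toFinset (by
      intro u hu v hv huv
      rw [List.mem_toFinset, List.mem_map] at hu hv
      obtain ⟨a, ha, rfl⟩ := hu
      obtain ⟨c, hc, rfl⟩ := hv
      exact hp a ha c hc (fun e => huv (e ▸ rfl)))
    rw [List.toFinset_card_of_nodup (nodup_map_of_inj hinj i1 hlt), List.length_map] at this
    omega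
  | emb t l =>
    simp only [chkCert] at h
    split at h
    · exact absurd h (by simp)
    · rename_i T hT
      simp only [Bool.and_eq_true, Nat.beq_eq, List.all_eq_true, Nat.blt_eq] at h
      obtain ⟨⟨h1, h2⟩, h3⟩ := h
      obtain ⟨i1, i2⟩ := okList_spec h2
      have hget : ∀ i (hi : i < l.length), l.getD i 0 = l[i] := fun i hi => by
        simp [List.getD_eq_getElem?_getD, List.getElem?_eq_getElem hi]
      have hlt : ∀ i < T.n, l.getD i 0 < n := fun i hi => by
        rw [hget i (by omega)]; exact (i2 _ (List.getElem_mem _)).1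
      refine hlib T (List.mem_of_getElem? hT) ⟨fun i => φ (l.getD i 0), fun i hi j hj e => ?_,
        fun e he => ?_⟩
      · have e' := hinj _ (hlt i hi) _ (hlt j hj) e
        rw [hget i (by omega), hget j (by omega)] at e'
        exact (List.Nodup.getElem_inj_iff i1).1 e'
      · obtain ⟨⟨k1, k2⟩, k3⟩ := h3 e he
        exact ⟨k1, k2, (hA _ _ (by have := hlt _ k2; omega) k3).2.2⟩

theorem cnt_spec (N a : ℕ) : ∀ k, ∃ S : Finset ℕ, S.card ≤ cnt N a k ∧
    ∀ v < k, v ≠ a → bit N a v = false → v ∈ S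
  | 0 => ⟨∅, by simp, by simp⟩
  | k + 1 => by
    obtain ⟨S, h1, h2⟩ := cnt_spec N a k
    cases hc : (Nat.beq k a || bit N a k) with
    | true =>
      refine ⟨S, by simp only [cnt, hc, cond_true]; exact h1, fun v hv hva hb => ?_⟩
      by_cases hk : v = k
      · subst hk
        simp only [Bool.or_eq_true, Nat.beq_eq] at hc
        rcases hc with hc | hc
        · exact absurd hc hva
        · rw [hb] at hc; exact absurd hc (by simp)
      · exact h2 v (by omega) hva hb
    | false =>
      refine ⟨insert k S, ?_, fun v hv hva hb => ?_⟩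
      · simp only [cnt, hc, cond_false]
        have := Finset.card_insert_le k S
        omega
      · by_cases hk : v = k
        · subst hk; exact Finset.mem_insert_self _ _
        · exact Finset.mem_insert_of_mem (h2 v (by omega) hva hb)

theorem out_nbrs [Finite V] {p : ℕ} (hG : Good G p) {φ : ℕ → V} {n N a : ℕ} (hn : n ≤ 64)
    (hN : Marks (fun u v => ¬ G.Adj u v) φ n N) :
    ∃ T : Finset V, p ≤ T.card + cnt N a n ∧ ∀ u ∈ T, G.Adj (φ a) u ∧ ∀ i < n, φ i ≠ u := by
  classical
  obtain ⟨S, h1, h2⟩ := cnt_spec N a n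
  obtain ⟨T, h3, h4⟩ := exists_out hG.exp (φ a) {u | ∃ i < n, φ i = u} (S.image φ) (by
    rintro u ⟨i, hi, rfl⟩ hadj
    refine Finset.mem_image_of_mem _ (h2 i hi ?_ ?_)
    · rintro rfl; exact G.irrefl hadj
    · cases hb : bit N a i with
      | false => rfl
      | true => exact absurd hadj (hN a i (by omega) hb).2.2)
  refine ⟨T, ?_, fun u hu => ⟨(h4 u hu).1, fun i hi e => (h4 u hu).2 ⟨i, hi, e⟩⟩⟩
  have := Finset.card_image_le (s := S) (f := φ)
  omega

theorem inj_update {φ : ℕ → V} {n : ℕ} (hinj : ∀ i < n, ∀ j < n, φ i = φ j → i = j) {w : V}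
    (hw : ∀ i < n, φ i ≠ w) :
    ∀ i < n + 1, ∀ j < n + 1, Function.update φ n w i = Function.update φ n w j → i = j := by
  intro i hi j hj e
  by_cases h1 : i = n <;> by_cases h2 : j = n
  · omega
  · subst h1
    rw [Function.update_self, Function.update_of_ne h2] at e
    exact absurd e.symm (hw j (by omega))
  · subst h2
    rw [Function.update_self, Function.update_of_ne h1] at e
    exact absurd e (hw i (by omega))
  · rw [Function.update_of_ne h1, Function.update_of_ne h2] at e
    exact hinj i (by omega) j (by omega) e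

theorem indep_of_pairsB [DecidableEq V] {φ : ℕ → V} {n N : ℕ} (hn : n ≤ 64)
    (hinj : ∀ i < n, ∀ j < n, φ i = φ j → i = j)
    (hN : Marks (fun u v => ¬ G.Adj u v) φ n N) {l : List ℕ} (h2 : okList n l 0 = true)
    (h3 : pairsB N l = true) :
    Indep G (l.map φ).toFinset ∧ (l.map φ).toFinset.card = l.length := by
  obtain ⟨i1, i2⟩ := okList_spec h2
  have hlt : ∀ x ∈ l, x < n := fun x hx => (i2 x hx).1
  have hp := pairsB_spec (R := fun u v => ¬ G.Adj u v) (fun _ _ h h' => h h'.symm) hN hn l hlt h3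
  refine ⟨?_, ?_⟩
  · intro u hu v hv
    rw [List.mem_toFinset, List.mem_map] at hu hv
    obtain ⟨a, ha, rfl⟩ := hu
    obtain ⟨c, hc, rfl⟩ := hv
    by_cases hac : a = c
    · subst hac; exact G.irrefl
    · exact hp a ha c hc hac
  · rw [List.toFinset_card_of_nodup (nodup_map_of_inj hinj i1 hlt), List.length_map]

/-- a state is realised in the graph -/
def Real (G : SimpleGraph V) (n A N : ℕ) : Prop :=
  n ≤ 64 ∧ ∃ φ : ℕ → V, (∀ i < n, ∀ j < n, φ i = φ j → i = j) ∧ Marks G.Adj φ n A ∧
    Marks (fun u v => ¬ G.Adj u v) φ n N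

theorem runSteps_sound [Finite V] {p b : ℕ} {lib : List Tm} (hG : Good G p)
    (hmax : ∀ S, Clq G S → S.card ≤ b) (hlib : ∀ T ∈ lib, ¬ Emb G T)
    {fin : ℕ → ℕ → ℕ → Bool} (hfin : ∀ n A N, fin n A N = true → ¬ Real G n A N) :
    ∀ (s : List Step) (n A N : ℕ), runSteps p b lib fin s n A N = true → ¬ Real G n A N
  | [], n, A, N, h => hfin n A N h
  | .x u v c :: s, n, A, N, h => by
    simp only [runSteps, Bool.and_eq_true, Nat.blt_eq] at h
    obtain ⟨⟨⟨h1, h2⟩, h3⟩, h4⟩ := h
    rintro ⟨hn, φ, hinj, hA, hN⟩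
    have hna : ¬ G.Adj (φ u) (φ v) := fun hadj =>
      chkCert_sound hG hmax hlib hn hinj (hA.set hn h1 h2 hadj hadj.symm) c h3
    exact runSteps_sound hG hmax hlib hfin s n A _ h4
      ⟨hn, φ, hinj, hA, hN.set hn h1 h2 hna (fun h => hna h.symm)⟩
  | .new a :: s, n, A, N, h => by
    simp only [runSteps, Bool.and_eq_true, Nat.blt_eq] at h
    obtain ⟨⟨⟨h1, h2⟩, h3⟩, h4⟩ := h
    rintro ⟨hn, φ, hinj, hA, hN⟩
    obtain ⟨T, k1, k2⟩ := out_nbrs (a := a) hG hn hN
    obtain ⟨w, hw⟩ : T.Nonempty := Finset.card_pos.1 (by omega)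
    have he : ∀ i < n, Function.update φ n w i = φ i := fun i hi =>
      Function.update_of_ne (by omega) _ _
    have hadj : G.Adj (Function.update φ n w a) (Function.update φ n w n) := by
      rw [he a h1, Function.update_self]; exact (k2 w hw).1
    exact runSteps_sound hG hmax hlib hfin s _ _ _ h4
      ⟨by omega, Function.update φ n w, inj_update hinj (k2 w hw).2,
        (hA.ext (Nat.le_succ n) he).set (by omega) (by omega) (by omega) hadj hadj.symm,
        hN.ext (Nat.le_succ n) he⟩
  | .new2 a :: s, n, A, N, h => by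
    simp only [runSteps, Bool.and_eq_true, Nat.blt_eq, Nat.ble_eq] at h
    obtain ⟨⟨⟨h1, h2⟩, h3⟩, h4⟩ := h
    rintro ⟨hn, φ, hinj, hA, hN⟩
    obtain ⟨T, k1, k2⟩ := out_nbrs (a := a) hG hn hN
    obtain ⟨I, hIT, hI, hc⟩ := exists_pair G b hmax (φ a) T (fun u hu => (k2 u hu).1) (by omega)
    classical
    obtain ⟨w, w', hne, rfl⟩ := Finset.card_eq_two.1 hc
    have hw : w ∈ T := hIT (by simp)
    have hw' : w' ∈ T := hIT (by simp)
    have hna : ¬ G.Adj w w' := hI w (by simp) w' (by simp)
    let ψ := Function.update (Function.update φ n w) (n + 1) w'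
    have he : ∀ i < n, ψ i = φ i := fun i hi => by
      simp only [ψ]
      rw [Function.update_of_ne (by omega), Function.update_of_ne (by omega)]
    have e1 : ψ n = w := by
      simp only [ψ]
      rw [Function.update_of_ne (by omega), Function.update_self]
    have e2 : ψ (n + 1) = w' := Function.update_self _ _ _
    have hinj' : ∀ i < n + 2, ∀ j < n + 2, ψ i = ψ j → i = j :=
      inj_update (inj_update hinj (k2 w hw).2) (fun i hi => by
        by_cases hin : i = n
        · subst hin; rw [Function.update_self]; exact hne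
        · rw [Function.update_of_ne hin]; exact (k2 w' hw').2 i (by omega))
    have a1 : G.Adj (ψ a) (ψ n) := by rw [he a h1, e1]; exact (k2 w hw).1
    have a2 : G.Adj (ψ a) (ψ (n + 1)) := by rw [he a h1, e2]; exact (k2 w' hw').1
    have a3 : ¬ G.Adj (ψ n) (ψ (n + 1)) := by rw [e1, e2]; exact hna
    exact runSteps_sound hG hmax hlib hfin s _ _ _ h4
      ⟨by omega, ψ, hinj',
        (((hA.ext (Nat.le_add_right n 2) he).set (by omega) (by omega) (by omega) a1 a1.symm).set
          (by omega) (by omega) (by omega) a2 a2.symm),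
        (hN.ext (Nat.le_add_right n 2) he).set (by omega) (by omega) (by omega) a3
          (fun h => a3 h.symm)⟩
  | .free a l :: s, n, A, N, h => by
    classical
    simp only [runSteps, Bool.and_eq_true, Nat.blt_eq, Nat.ble_eq] at h
    obtain ⟨⟨⟨⟨h1, h2⟩, h3⟩, h4⟩, h5⟩ := h
    rintro ⟨hn, φ, hinj, hA, hN⟩
    obtain ⟨k1, k2⟩ := indep_of_pairsB hn hinj hN h3 h4
    have hw : ∃ w, ∀ i < n, φ i ≠ w := by
      by_contra hcon
      push Not at hcon
      have hall : ∀ w, w ∈ (Finset.range n).image φ := fun w => by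
        obtain ⟨i, hi, e⟩ := hcon w
        exact Finset.mem_image.2 ⟨i, Finset.mem_range.2 hi, e⟩
      have := hG.exp _ ((Finset.range n).image φ) ⟨φ a, by simp⟩ k1 (fun w _ => hall w)
        (fun _ _ w _ => hall w)
      have h6 := Finset.card_image_le (s := Finset.range n) (f := φ)
      rw [k2, List.length_cons] at this
      rw [Finset.card_range] at h6
      omega
    obtain ⟨w, hw⟩ := hw
    have he : ∀ i < n, Function.update φ n w i = φ i := fun i hi =>
      Function.update_of_ne (by omega) _ _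
    exact runSteps_sound hG hmax hlib hfin s _ _ _ h5
      ⟨by omega, Function.update φ n w, inj_update hinj hw, hA.ext (Nat.le_succ n) he,
        hN.ext (Nat.le_succ n) he⟩

theorem run_sound [Finite V] {p b : ℕ} {lib : List Tm} (hG : Good G p)
    (hmax : ∀ S, Clq G S → S.card ≤ b) (hlib : ∀ T ∈ lib, ¬ Emb G T) (pf : Pf) :
    ∀ (n A N : ℕ), run p b lib pf n A N = true → ¬ Real G n A N := by
  classical
  induction pf with
  | ind l =>
    intro n A N h
    simp only [run, Bool.and_eq_true, Nat.beq_eq] at h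
    obtain ⟨⟨h1, h2⟩, h3⟩ := h
    rintro ⟨hn, φ, hinj, -, hN⟩
    obtain ⟨k1, k2⟩ := indep_of_pairsB hn hinj hN h2 h3
    have := hG.alpha _ k1
    omega
  | big =>
    intro n A N h
    simp only [run, Nat.ble_eq] at h
    rintro ⟨-, φ, hinj, -, -⟩
    have := hG.card ((Finset.range n).image φ)
    rw [Finset.card_image_of_injOn (fun i hi j hj e =>
      hinj i (by simpa using hi) j (by simpa using hj) e), Finset.card_range] at this
    omega
  | br u v k1 k2 ih1 ih2 =>
    intro n A N h
    simp only [run, Bool.and_eq_true, Nat.blt_eq] at h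
    obtain ⟨⟨⟨h1, h2⟩, h3⟩, h4⟩ := h
    rintro ⟨hn, φ, hinj, hA, hN⟩
    by_cases hadj : G.Adj (φ u) (φ v)
    · exact ih1 _ _ _ h3 ⟨hn, φ, hinj, hA.set hn h1 h2 hadj hadj.symm, hN⟩
    · exact ih2 _ _ _ h4 ⟨hn, φ, hinj, hA, hN.set hn h1 h2 hadj (fun h => hadj h.symm)⟩
  | seq s k ih =>
    intro n A N h
    exact runSteps_sound hG hmax hlib ih s n A N h

theorem marks_init {φ : ℕ → V} {n : ℕ} (hn : n ≤ 64) : ∀ (es : List (ℕ × ℕ)),
    (∀ e ∈ es, e.1 < n ∧ e.2 < n ∧ G.Adj (φ e.1) (φ e.2)) → Marks G.Adj φ n (initA es)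
  | [], _ => fun u v _ h => by simp [initA, bit] at h
  | e :: l, h => by
    obtain ⟨h1, h2, h3⟩ := h e (by simp)
    exact (marks_init hn l (fun e' he' => h e' (by simp [he']))).set hn h1 h2 h3 h3.symm

theorem killT_sound [Finite V] {p b : ℕ} {lib : List Tm} (hG : Good G p)
    (hmax : ∀ S, Clq G S → S.card ≤ b) (hlib : ∀ T ∈ lib, ¬ Emb G T) {T : Tm} {pf : Pf}
    (h : killT p b lib T pf = true) : ¬ Emb G T := by
  simp only [killT, Bool.and_eq_true, Nat.ble_eq] at h
  rintro ⟨φ, h1, h2⟩
  exact run_sound hG hmax hlib pf _ _ _ h.2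
    ⟨h.1, φ, h1, marks_init h.1 _ h2, fun u v _ hb => by simp [bit] at hb⟩

/-- kill a list of templates in order, each one may use the earlier ones -/
def killAll (p b : ℕ) : List (Tm × Pf) → List Tm → Bool
  | [], _ => true
  | (T, pf) :: l, lib => killT p b lib T pf && killAll p b l (lib ++ [T])

theorem killAll_sound [Finite V] {p b : ℕ} (hG : Good G p)
    (hmax : ∀ S, Clq G S → S.card ≤ b) : ∀ (l : List (Tm × Pf)) (lib : List Tm),
    (∀ T ∈ lib, ¬ Emb G T) → killAll p b l lib = true → ∀ T ∈ l.map Prod.fst, ¬ Emb G T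
  | [], _, _, _ => by simp
  | (T, pf) :: l, lib, hlib, h => by
    simp only [killAll, Bool.and_eq_true] at h
    have hT := killT_sound hG hmax hlib h.1
    have ih := killAll_sound hG hmax l (lib ++ [T]) (by
      intro T' hT'
      rcases List.mem_append.1 hT' with h' | h'
      · exact hlib T' h'
      · rw [List.mem_singleton] at h'; exact h' ▸ hT) h.2
    intro T' hT'
    simp only [List.map_cons, List.mem_cons] at hT'
    rcases hT' with rfl | h'
    · exact hT
    · exact ih T' h'

/-- the template has `b` vertices and no loops -/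
def isKb (b : ℕ) (T : Tm) : Bool :=
  Nat.beq T.n b && T.es.all (fun e => Nat.blt e.1 b && Nat.blt e.2 b && !Nat.beq e.1 e.2)

theorem emb_of_clq [Nonempty V] {K : Finset V} (hK : Clq G K) {T : Tm}
    (h : isKb K.card T = true) : Emb G T := by
  simp only [isKb, Bool.and_eq_true, Nat.beq_eq, List.all_eq_true, Nat.blt_eq,
    Bool.not_eq_true'] at h
  obtain ⟨h1, h2⟩ := h
  have hget : ∀ i (hi : i < K.toList.length),
      K.toList.getD i (Classical.arbitrary V) = K.toList[i] := fun i hi => by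
    simp [List.getD_eq_getElem?_getD, List.getElem?_eq_getElem hi]
  have hl : K.toList.length = K.card := Finset.length_toList K
  have hinj : ∀ i < T.n, ∀ j < T.n, K.toList.getD i (Classical.arbitrary V) =
      K.toList.getD j (Classical.arbitrary V) → i = j := fun i hi j hj e => by
    rw [hget i (by omega), hget j (by omega)] at e
    exact (List.Nodup.getElem_inj_iff K.nodup_toList).1 e
  refine ⟨fun i => K.toList.getD i (Classical.arbitrary V), hinj, fun e he => ?_⟩
  obtain ⟨⟨k1, k2⟩, k3⟩ := h2 e he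
  refine ⟨by omega, by omega, hK _ ?_ _ ?_ (fun e' => ?_)⟩
  · simp only; rw [hget _ (by omega)]; exact Finset.mem_toList.1 (List.getElem_mem _)
  · simp only; rw [hget _ (by omega)]; exact Finset.mem_toList.1 (List.getElem_mem _)
  · have := hinj _ (by omega) _ (by omega) e'
    rw [this] at k3
    simp at k3

/-- a full kill: the list contains the clique template -/
def killFull (p b : ℕ) (l : List (Tm × Pf)) : Bool :=
  killAll p b l [] && l.any (fun x => isKb b x.1)

theorem killFull_sound [Finite V] {p : ℕ} (hG : Good G p) {K : Finset V} (hK : Clq G K)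
    (hmax : ∀ S, Clq G S → S.card ≤ K.card) {l : List (Tm × Pf)}
    (h : killFull p K.card l = true) : False := by
  simp only [killFull, Bool.and_eq_true, List.any_eq_true] at h
  obtain ⟨h1, x, hx, h2⟩ := h
  have := hG.ne
  exact killAll_sound hG hmax l [] (by simp) h1 x.1 (List.mem_map_of_mem hx) (emb_of_clq hK h2)

end Vale.Agent.P048
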