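import Vale.Agent.P048.Minimal

namespace Vale.Agent.P048

private theorem contained_of_hasCyc {V : Type*} {G : SimpleGraph V} {k : ℕ}
    (h : HasCyc G (k + 2)) : (SimpleGraph.cycleGraph (k + 2)).IsContained G := by
  obtain ⟨L, a, b, hp, hl, hab⟩ := h
  obtain ⟨c, hc, -⟩ := exists_zcyc hp hab
  rw [hl] at hc
  have key : ∀ u v : Fin (k + 2), u - v = 1 → G.Adj (c (v.val : ℤ)) (c (u.val : ℤ)) := by
    intro u v huv
    rw [sub_eq_iff_eq_add'] at huv
    have h1 : u.val = (v.val + 1) % (k + 2) := by
      rw [huv, Fin.val_add]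
      rfl
    by_cases hv : v.val + 1 < k + 2
    · rw [Nat.mod_eq_of_lt hv] at h1
      exact hc.adj' (by omega)
    · have h2 : v.val + 1 = k + 2 := by omega
      rw [h2, Nat.mod_self] at h1
      rw [← hc.per (u.val : ℤ)]
      exact hc.adj' (by omega)
  refine ⟨SimpleGraph.Hom.toCopy ⟨fun u => c (u.val : ℤ), fun {u v} huv => ?_⟩ ?_⟩
  · rcases SimpleGraph.cycleGraph_adj.1 huv with h | h
    · exact (key u v h).symm
    · exact key v u h
  · intro u v e
    have := hc.inj' (i := (u.val : ℤ)) (j := (v.val : ℤ)) (by omega) (by omega) e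
    exact Fin.ext (by omega)

/-- TASK Final: from the core statement to the Ramsey number. -/
theorem final_of_core
    (core : ∀ (V : Type) [Finite V] (G : SimpleGraph V) (p : ℕ), 3 ≤ p → ¬ Good G p)
    (m n : ℕ) (hn : 3 ≤ n) (hnm : n ≤ m) (hne : (m, n) ≠ (3, 3)) :
    IsLeast {N : ℕ | ∀ G : SimpleGraph (Fin N),
      (SimpleGraph.cycleGraph m).IsContained G ∨ ∃ s : Finset (Fin N), G.IsNIndepSet n s}
      ((m - 1) * (n - 1) + 1) := by
  classical
  have hm : 4 ≤ m := by
    by_contra h
    exact hne (by rw [show m = 3 by omega, show n = 3 by omega])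
  obtain ⟨k, rfl⟩ : ∃ k, m = k + 2 := ⟨m - 2, by omega⟩
  obtain ⟨a, rfl⟩ : ∃ a, n = a + 1 := ⟨n - 1, by omega⟩
  have e1 : k + 2 - 1 = k + 1 := rfl
  rw [e1, Nat.add_sub_cancel]
  constructor
  · intro G
    by_contra hc
    rw [not_or] at hc
    have hα : ∀ I, Indep G I → I.card ≤ a := by
      intro I hI
      by_contra h
      obtain ⟨J, h1, h2⟩ := Finset.exists_subset_card_eq (s := I) (n := a + 1) (by omega)
      exact hc.2 ⟨J, fun u hu v hv _ => hI u (h1 hu) v (h1 hv), h2⟩
    obtain ⟨S, -, hS, hcard, hexp, -⟩ := exists_minimal G (k + 1) a Finset.univ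
      (fun I _ hI => hα I hI) (by simp)
    refine core (S : Set (Fin ((k + 1) * a + 1))) (G.induce _) (k + 1) (by omega)
      ⟨?_, hexp, fun I hI => ?_, fun X => ?_, fun h => hc.1 (contained_of_hasCyc ?_)⟩
    · obtain ⟨v, hv⟩ := hS
      exact ⟨⟨v, hv⟩⟩
    · have := hα (I.map (Function.Embedding.subtype _)) (by
        intro u hu v hv
        obtain ⟨x, hx, rfl⟩ := Finset.mem_map.1 hu
        obtain ⟨y, hy, rfl⟩ := Finset.mem_map.1 hv
        exact hI x hx y hy)
      rw [Finset.card_map] at this
      omega
    · have h1 : X.map (Function.Embedding.subtype _) ⊆ S := by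
        intro v hv
        obtain ⟨x, -, rfl⟩ := Finset.mem_map.1 hv
        exact x.2
      have h2 := Finset.card_le_card h1
      rw [Finset.card_map] at h2
      have h3 : (k + 1) * a ≤ (k + 1) * (k + 1) := Nat.mul_le_mul_left _ (by omega)
      omega
    · obtain ⟨L, x, y, hp, hl, hxy⟩ := h
      exact ⟨L.map Subtype.val, x.1, y.1,
        hp.map Subtype.val Subtype.val_injective (fun _ _ h => h), by simpa using hl, hxy⟩
  · intro N hN
    by_contra hlt
    have hle : N ≤ (k + 1) * a := by omega
    let G : SimpleGraph (Fin N) :=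
      SimpleGraph.fromRel fun u v => u.val / (k + 1) = v.val / (k + 1)
    have hG : ∀ u v, G.Adj u v ↔ u ≠ v ∧ u.val / (k + 1) = v.val / (k + 1) := by
      intro u v
      rw [SimpleGraph.fromRel_adj]
      exact and_congr_right fun _ => ⟨fun h => h.elim id Eq.symm, Or.inl⟩
    rcases hN G with ⟨⟨f⟩⟩ | ⟨s, hs⟩
    · have hq : ∀ i : Fin (k + 2), (f i).val / (k + 1) = (f 0).val / (k + 1) := by
        intro i
        induction i using Fin.induction with
        | zero => rfl
        | succ i ih =>
          have hadj : (SimpleGraph.cycleGraph (k + 2)).Adj i.succ i.castSucc := by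
            rw [SimpleGraph.cycleGraph_adj]
            left
            rw [sub_eq_iff_eq_add', Fin.coeSucc_eq_succ]
          exact ((hG _ _).1 (f.toHom.map_adj hadj)).2.trans ih
      have := Fintype.card_le_of_injective
        (fun i : Fin (k + 2) => (⟨(f i).val % (k + 1), Nat.mod_lt _ (by omega)⟩ : Fin (k + 1)))
        (by
          intro i j e
          have e' : (f i).val % (k + 1) = (f j).val % (k + 1) := congrArg Fin.val e
          apply f.injective
          apply Fin.ext
          show (f i).val = (f j).val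
          rw [← Nat.div_add_mod (f i).val (k + 1), ← Nat.div_add_mod (f j).val (k + 1), e',
            hq i, hq j])
      simp at this
    · have := Finset.card_le_card_of_injOn (s := s) (t := Finset.range a)
        (fun u => u.val / (k + 1)) (by
          intro u _
          simp only [Finset.coe_range, Set.mem_Iio]
          rw [Nat.div_lt_iff_lt_mul (by omega), Nat.mul_comm]
          omega) (by
          intro u hu v hv e
          by_contra huv
          exact hs.isIndepSet hu hv huv ((hG u v).2 ⟨huv, e⟩))
      rw [hs.card_eq, Finset.card_range] at this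
      omega

end Vale.Agent.P048
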