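import Vale.Agent.P048.Defs

namespace Vale.Agent.P048

namespace Posa

variable {W : Type*}

/-- `v 0, ..., v (N-1)` is a path -/
def IsP (H : SimpleGraph W) (v : ℕ → W) (N : ℕ) : Prop :=
  (∀ s t, s < N → t < N → v s = v t → s = t) ∧ ∀ t, t + 1 < N → H.Adj (v t) (v (t + 1))

theorem IsP.le_card [Fintype W] {H : SimpleGraph W} {v : ℕ → W} {N : ℕ} (h : IsP H v N) :
    N ≤ Fintype.card W := by
  have := Fintype.card_le_of_injective (fun t : Fin N => v t)
    (fun s t e => Fin.ext (h.1 s t s.2 t.2 e))
  simpa using this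

theorem IsP.extend {H : SimpleGraph W} {v : ℕ → W} {M : ℕ} (h : IsP H v (M + 1)) {w : W}
    (hw : H.Adj (v M) w) (hn : ∀ t, t < M + 1 → v t ≠ w) :
    IsP H (fun t => if t ≤ M then v t else w) (M + 2) := by
  refine ⟨fun s t hs ht e => ?_, fun t ht => ?_⟩
  · dsimp only at e
    split_ifs at e with h1 h2 h2
    · exact h.1 s t (by omega) (by omega) e
    · exact absurd e (hn s (by omega))
    · exact absurd e.symm (hn t (by omega))
    · omega
  · dsimp only
    rw [if_pos (by omega)]
    split_ifs with h1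
    · exact h.2 t (by omega)
    · have : t = M := by omega
      rw [this]
      exact hw

theorem IsP.rot {H : SimpleGraph W} {v : ℕ → W} {M j : ℕ} (h : IsP H v (M + 1)) (hj : j < M)
    (ha : H.Adj (v M) (v j)) :
    IsP H (fun t => if t ≤ j then v t else v (M + 1 + j - t)) (M + 1) := by
  refine ⟨fun s t hs ht e => ?_, fun t ht => ?_⟩
  · dsimp only at e
    split_ifs at e with h1 h2 h2
    · exact h.1 s t hs ht e
    · have := h.1 _ _ hs (by omega) e
      omega
    · have := h.1 _ _ (by omega) ht e
      omega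
    · have := h.1 _ _ (by omega) (by omega) e
      omega
  · dsimp only
    split_ifs with h1 h2 h2
    · exact h.2 t ht
    · have e1 : t = j := by omega
      have e2 : M + 1 + j - (t + 1) = M := by omega
      rw [e2, e1]
      exact ha.symm
    · omega
    · have e1 : M + 1 + j - t = (M + 1 + j - (t + 1)) + 1 := by omega
      rw [e1]
      exact (h.2 _ (by omega)).symm

theorem IsP.pathL {H : SimpleGraph W} {v : ℕ → W} {M i : ℕ} (h : IsP H v (M + 1)) (hi : i ≤ M) :
    PathL H ((List.range (M - i + 1)).map (fun t => v (i + t))) (v i) (v M) where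
  nodup := by
    refine List.Nodup.map_on ?_ List.nodup_range
    intro x hx y hy e
    rw [List.mem_range] at hx hy
    have := h.1 _ _ (by omega) (by omega) e
    omega
  chain := by
    rw [List.isChain_map, List.isChain_range]
    intro t ht
    exact h.2 (i + t) (by omega)
  head := by simp [List.range_succ_eq_map]
  last := by
    simp only [List.range_succ, List.map_append, List.map_cons, List.map_nil,
      List.getLast?_append, List.getLast?_singleton, Option.some_or, Option.some.injEq]
    congr 1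
    omega

end Posa

open Posa in
/-- TASK LongCyc: an expanding graph without `K_{D+1}` has a cycle of length at least `2D+1`. -/
theorem long_cycle {W : Type*} [Finite W] [Nonempty W] (H : SimpleGraph W) (D : ℕ) (hD : 1 ≤ D)
    (hexp : Expands H D) (hK : ∀ S, Clq H S → S.card ≤ D) :
    ∃ n c, 2 * D + 1 ≤ n ∧ ZCyc H n c := by
  classical
  haveI := Fintype.ofFinite W
  obtain ⟨w0⟩ := ‹Nonempty W›
  have hex : ∃ M, ¬ ∃ v, IsP H v (M + 2) := ⟨Fintype.card W, fun ⟨v, hv⟩ => by
    have := hv.le_card
    omega⟩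
  obtain ⟨M, hM, v0, hv0⟩ : ∃ M, (¬ ∃ v, IsP H v (M + 2)) ∧ ∃ v, IsP H v (M + 1) := by
    refine ⟨Nat.find hex, Nat.find_spec hex, ?_⟩
    rcases h : Nat.find hex with _ | k
    · exact ⟨fun _ => w0, fun s t hs ht _ => by omega, fun t ht => by omega⟩
    · have := Nat.find_min hex (m := k) (by omega)
      exact not_not.1 this
  have hon : ∀ v, IsP H v (M + 1) → ∀ w, H.Adj (v M) w → ∃ t, t < M ∧ v t = w := by
    intro v hv w hw
    by_contra hc
    refine hM ⟨_, hv.extend hw fun t ht e => ?_⟩
    by_cases htM : t = M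
    · subst htM
      exact hw.ne e
    · exact hc ⟨t, by omega, e⟩
  have hex2 : ∃ i, ∃ v, IsP H v (M + 1) ∧ i < M ∧ H.Adj (v M) (v i) := by
    by_contra hc
    have := hexp.deg (v0 M) ∅ (fun u hu => by
      obtain ⟨t, ht, rfl⟩ := hon v0 hv0 u hu
      exact absurd ⟨t, v0, hv0, ht, hu⟩ hc)
    simp at this
    omega
  obtain ⟨v, hv, hiM, hi⟩ := Nat.find_spec hex2
  have hmin : ∀ v', IsP H v' (M + 1) → ∀ t, t < M → H.Adj (v' M) (v' t) → Nat.find hex2 ≤ t :=
    fun v' hv' t ht ha => Nat.find_min' hex2 ⟨v', hv', ht, ha⟩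
  generalize Nat.find hex2 = i at hiM hi hmin
  set Y := (Finset.Icc i M).image v with hY
  have hmemY : ∀ t, i ≤ t → t ≤ M → v t ∈ Y := fun t h1 h2 =>
    Finset.mem_image.2 ⟨t, Finset.mem_Icc.2 ⟨h1, h2⟩, rfl⟩
  have hcard : ∀ a, ((Finset.Icc a M).image v).card = M + 1 - a := by
    intro a
    rw [Finset.card_image_of_injOn, Nat.card_Icc]
    intro s hs t ht e
    simp only [Finset.coe_Icc, Set.mem_Icc] at hs ht
    exact hv.1 s t (by omega) (by omega) e
  have hYc : Y.card = M + 1 - i := hcard i
  have hrot : ∀ j, j < M → H.Adj (v M) (v j) → ∀ w, H.Adj (v (j + 1)) w → w ∈ Y := by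
    intro j hj ha w hw
    have hij := hmin v hv j hj ha
    have hr := hv.rot hj ha
    have e : (if M ≤ j then v M else v (M + 1 + j - M)) = v (j + 1) := by
      rw [if_neg (by omega)]
      congr 1
      omega
    obtain ⟨t, ht, hw'⟩ := hon _ hr w (by rw [e]; exact hw)
    have hit := hmin _ hr t ht (by rw [e, hw']; exact hw)
    rw [← hw']
    split_ifs with h1
    · exact hmemY t hit (by omega)
    · exact hmemY _ (by omega) (by omega)
  by_cases hA : ∃ j j', j < M ∧ j' < M ∧ H.Adj (v M) (v j) ∧ H.Adj (v M) (v j') ∧ j ≠ j' ∧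
      ¬ H.Adj (v (j + 1)) (v (j' + 1))
  · obtain ⟨j, j', h1, h2, h3, h4, h5, h6⟩ := hA
    have hne : v (j + 1) ≠ v (j' + 1) := fun e => by
      have := hv.1 _ _ (by omega) (by omega) e
      omega
    have := hexp {v (j + 1), v (j' + 1)} Y (by simp) (by
        intro x hx y hy
        simp only [Finset.mem_insert, Finset.mem_singleton] at hx hy
        rcases hx with rfl | rfl <;> rcases hy with rfl | rfl
        · exact H.irrefl
        · exact h6
        · exact fun h => h6 h.symm
        · exact H.irrefl) (by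
        intro x hx
        simp only [Finset.mem_insert, Finset.mem_singleton] at hx
        rcases hx with rfl | rfl
        · exact hmemY _ (by have := hmin v hv j h1 h3; omega) (by omega)
        · exact hmemY _ (by have := hmin v hv j' h2 h4; omega) (by omega)) (by
        intro x hx
        simp only [Finset.mem_insert, Finset.mem_singleton] at hx
        rcases hx with rfl | rfl
        · exact hrot j h1 h3
        · exact hrot j' h2 h4)
    rw [Finset.card_pair hne, hYc] at this
    obtain ⟨c, hc, -⟩ := exists_zcyc (hv.pathL hiM.le) hi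
    refine ⟨_, c, ?_, hc⟩
    simp only [List.length_map, List.length_range]
    omega
  · exfalso
    have hB : ∀ j j', j < M → j' < M → H.Adj (v M) (v j) → H.Adj (v M) (v j') → j ≠ j' →
        H.Adj (v (j + 1)) (v (j' + 1)) := by
      intro j j' h1 h2 h3 h4 h5
      by_contra h6
      exact hA ⟨j, j', h1, h2, h3, h4, h5, h6⟩
    obtain ⟨M', rfl⟩ : ∃ M', M = M' + 1 := ⟨M - 1, by omega⟩
    have hlast : H.Adj (v (M' + 1)) (v M') := (hv.2 M' (by omega)).symm
    have hall : ∀ t, i ≤ t → t < M' + 1 → H.Adj (v (M' + 1)) (v t) := by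
      intro t ht
      induction t, ht using Nat.le_induction with
      | base => exact fun _ => hi
      | succ t ht ih =>
        intro h
        exact hB M' t (by omega) (by omega) hlast (ih (by omega)) (by omega)
    have hT := hK ((Finset.Icc (i + 1) (M' + 1)).image v) (by
      intro x hx y hy hxy
      obtain ⟨s, hs, rfl⟩ := Finset.mem_image.1 hx
      obtain ⟨t, ht, rfl⟩ := Finset.mem_image.1 hy
      rw [Finset.mem_Icc] at hs ht
      obtain ⟨s, rfl⟩ : ∃ k, s = k + 1 := ⟨s - 1, by omega⟩
      obtain ⟨t, rfl⟩ : ∃ k, t = k + 1 := ⟨t - 1, by omega⟩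
      exact hB s t (by omega) (by omega) (hall s (by omega) (by omega))
        (hall t (by omega) (by omega)) (fun e => hxy (by rw [e])))
    rw [hcard] at hT
    have hadj : ∀ t, i ≤ t → t < M' + 1 → ∀ z ∈ Y, z ≠ v (t + 1) → H.Adj (v (t + 1)) z := by
      intro t h1 h2 z hz hne
      by_contra hna
      have hy : v (t + 1) ∈ Y := hmemY _ (by omega) (by omega)
      have := hexp.deg (v (t + 1)) ((Y.erase (v (t + 1))).erase z) (fun u hu =>
        Finset.mem_erase.2 ⟨fun e => hna (e ▸ hu), Finset.mem_erase.2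
          ⟨hu.ne.symm, hrot t h2 (hall t h1 h2) u hu⟩⟩)
      have c1 := Finset.card_erase_add_one hy
      have c2 := Finset.card_erase_add_one (Finset.mem_erase.2 ⟨hne, hz⟩)
      omega
    have hY' := hK Y (by
      intro x hx y hy hxy
      obtain ⟨s, hs, rfl⟩ := Finset.mem_image.1 hx
      obtain ⟨t, ht, rfl⟩ := Finset.mem_image.1 hy
      rw [Finset.mem_Icc] at hs ht
      by_cases hsi : s = i
      · have hti : t ≠ i := fun e => hxy (by rw [hsi, e])
        obtain ⟨t, rfl⟩ : ∃ k, t = k + 1 := ⟨t - 1, by omega⟩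
        exact (hadj t (by omega) (by omega) _ hx hxy).symm
      · obtain ⟨s, rfl⟩ : ∃ k, s = k + 1 := ⟨s - 1, by omega⟩
        exact hadj s (by omega) (by omega) _ hy hxy.symm)
    have := hexp.deg (v (M' + 1)) (Y.erase (v (M' + 1))) (fun u hu =>
      Finset.mem_erase.2 ⟨hu.ne.symm, hrot M' (by omega) hlast u hu⟩)
    have c1 := Finset.card_erase_add_one (hmemY (M' + 1) (by omega) le_rfl)
    omega

end Vale.Agent.P048
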