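import Vale.Agent.P048.Minimal
import Vale.Agent.P048.LongCyc
import Vale.Agent.P048.AB

namespace Vale.Agent.P048

namespace Lay

open MinAux

variable {V : Type*}

open Classical in
/-- balls around `v`: `ball G v (r + 1)` has radius `r` -/
noncomputable def ball [Fintype V] (G : SimpleGraph V) (v : V) : ℕ → Finset V
  | 0 => ∅
  | r + 1 => Finset.univ.filter fun u => u = v ∨ u ∈ ball G v r ∨ ∃ w ∈ ball G v r, G.Adj w u

variable [Fintype V] {G : SimpleGraph V} {v : V}

theorem mem_succ {r : ℕ} {u : V} : u ∈ ball G v (r + 1) ↔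
    u = v ∨ u ∈ ball G v r ∨ ∃ w ∈ ball G v r, G.Adj w u := by
  simp [ball]

theorem not_mem_zero {u : V} : u ∉ ball G v 0 := by simp [ball]

theorem mono {r s : ℕ} (h : r ≤ s) : ball G v r ⊆ ball G v s := by
  induction s, h using Nat.le_induction with
  | base => exact Finset.Subset.refl _
  | succ s _ ih => exact fun u hu => mem_succ.2 (Or.inr (Or.inl (ih hu)))

theorem mem_one {u : V} : u ∈ ball G v 1 ↔ u = v := by
  rw [mem_succ]
  simp [not_mem_zero]

open Classical in
/-- the sphere of radius `r` -/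
noncomputable def sph (G : SimpleGraph V) (v : V) (r : ℕ) : Finset V :=
  ball G v (r + 1) \ ball G v r

theorem mem_sph {r : ℕ} {u : V} : u ∈ sph G v r ↔ u ∈ ball G v (r + 1) ∧ u ∉ ball G v r := by
  simp [sph]

theorem card_succ (r : ℕ) : (ball G v (r + 1)).card = (ball G v r).card + (sph G v r).card := by
  classical
  have := Finset.card_sdiff_add_card_eq_card (mono (G := G) (v := v) (Nat.le_succ r))
  rw [← this, add_comm]
  congr

theorem exists_par (G : SimpleGraph V) (v x : V) :
    ∃ y, ∀ r, x ∈ sph G v (r + 1) → y ∈ sph G v r ∧ G.Adj y x := by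
  by_cases h : ∃ r, x ∈ sph G v (r + 1)
  · obtain ⟨r, hr⟩ := h
    rw [mem_sph] at hr
    rcases mem_succ.1 hr.1 with h | h | ⟨w, hw, ha⟩
    · exact absurd (mem_succ.2 (Or.inl h)) hr.2
    · exact absurd h hr.2
    · refine ⟨w, fun s hs => ?_⟩
      rw [mem_sph] at hs
      have : s = r := by
        rcases lt_trichotomy s r with h | h | h
        · exact absurd (mono (by omega) hs.1) hr.2
        · exact h
        · exact absurd (mono (by omega) hr.1) hs.2
      subst this
      exact ⟨mem_sph.2 ⟨hw, fun h => hr.2 (mem_succ.2 (Or.inr (Or.inr ⟨w, h, ha⟩)))⟩, ha⟩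
  · exact ⟨x, fun r hr => absurd ⟨r, hr⟩ h⟩

omit [Fintype V] in
theorem exists_long [Finite V] {D a : ℕ} (hD : 1 ≤ D) (hK : ∀ S, Clq G S → S.card ≤ D)
    (T : Finset V) (ha : ∀ I ⊆ T, Indep G I → I.card ≤ a) (hT : D * a < T.card) :
    ∃ S ⊆ T, Expands (G.induce (S : Set V)) D ∧ Conn (G.induce (S : Set V)) ∧
      ∃ n c, 2 * D + 1 ≤ n ∧ ZCyc (G.induce (S : Set V)) n c := by
  obtain ⟨S, hS, ⟨w, hw⟩, -, h1, h2⟩ := exists_minimal G D a T ha hT
  have : Nonempty (S : Set V) := ⟨⟨w, hw⟩⟩
  refine ⟨S, hS, h1, h2, long_cycle _ D hD h1 fun K hKc => ?_⟩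
  have := hK (K.map (Function.Embedding.subtype _)) (by
    intro u hu v hv huv
    obtain ⟨x, hx, rfl⟩ := Finset.mem_map.1 hu
    obtain ⟨y, hy, rfl⟩ := Finset.mem_map.1 hv
    exact hKc x hx y hy (fun e => huv (by rw [e])))
  rwa [Finset.card_map] at this

theorem sph_le {p D : ℕ} (hD : 3 ≤ D) (hp1 : 2 * D ≤ p) (hp2 : p ≤ 2 * D + 1)
    (hno : ¬ HasCyc G (p + 1)) (hK : ∀ S, Clq G S → S.card ≤ D) {i : ℕ} (hi : i ≤ D)
    (hi1 : 1 ≤ i) : (sph G v i).card ≤ D * al G (sph G v i) := by
  classical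
  by_contra hcon
  obtain ⟨S, hS, hexp, hconn, n, c, hn, hc⟩ := exists_long (by omega) hK (sph G v i)
    (fun I h1 h2 => le_al h1 h2) (not_le.1 hcon)
  choose par hpar using exists_par G v
  have hit : ∀ j k x, x ∈ sph G v (k + j) → par^[j] x ∈ sph G v k := by
    intro j
    induction j with
    | zero => intro k x hx; exact hx
    | succ j ih =>
      intro k x hx
      rw [Function.iterate_succ_apply']
      exact (hpar _ k (ih (k + 1) x (by rwa [add_assoc, add_comm 1 j]))).1
  have hadj : ∀ j k x, x ∈ sph G v (k + 1 + j) → G.Adj (par^[j + 1] x) (par^[j] x) := by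
    intro j k x hx
    rw [Function.iterate_succ_apply']
    exact (hpar _ k (hit j (k + 1) x hx)).2
  have hex : ∃ j, ∀ x y : (S : Set V), par^[j] x.1 = par^[j] y.1 := ⟨i, fun x y => by
    have h1 := hit i 0 x.1 (by rw [zero_add]; exact hS x.2)
    have h2 := hit i 0 y.1 (by rw [zero_add]; exact hS y.2)
    rw [mem_one.1 (mem_sph.1 h1).1, mem_one.1 (mem_sph.1 h2).1]⟩
  have hri : Nat.find hex ≤ i := Nat.find_min' hex fun x y => by
    have h1 := hit i 0 x.1 (by rw [zero_add]; exact hS x.2)
    have h2 := hit i 0 y.1 (by rw [zero_add]; exact hS y.2)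
    rw [mem_one.1 (mem_sph.1 h1).1, mem_one.1 (mem_sph.1 h2).1]
  have hspec := Nat.find_spec hex
  have hmin : ∀ j, j < Nat.find hex → ¬ ∀ x y : (S : Set V), par^[j] x.1 = par^[j] y.1 :=
    fun j hj => Nat.find_min hex hj
  generalize Nat.find hex = r at hri hspec hmin
  rcases r with _ | r
  · exact hc.inj 0 1 (by norm_num) (by omega) (Subtype.ext (hspec _ _))
  have h0 := hmin r (Nat.lt_succ_self r)
  simp only [not_forall] at h0
  obtain ⟨x0, y0, hxy⟩ := h0
  obtain ⟨L, a, b, hp, hL, ha, hb⟩ := ab_path _ D hD hexp hconn hc (p + 1 - 2 * (r + 1))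
    (by omega) (by omega) (fun x => par^[r] x.1 = par^[r] x0.1) x0 y0 rfl (fun e => hxy e.symm)
  have hab : par^[r] a.1 ≠ par^[r] b.1 := fun e => hb (e ▸ ha)
  have hne : ∀ j, j ≤ r → par^[j] a.1 ≠ par^[j] b.1 := by
    intro j hj e
    apply hab
    obtain ⟨k, rfl⟩ := Nat.exists_eq_add_of_le' hj
    rw [Function.iterate_add_apply, Function.iterate_add_apply, e]
  have hpath : ∀ j k, k + j = i → j ≤ r → ∃ M, PathL G M (par^[j] a.1) (par^[j] b.1) ∧
      M.length = L.length + 2 * j ∧ ∀ x ∈ M, x ∉ ball G v k := by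
    intro j
    induction j with
    | zero =>
      intro k hk _
      refine ⟨L.map Subtype.val, hp.map Subtype.val Subtype.val_injective (fun _ _ h => h),
        by simp, fun x hx => ?_⟩
      obtain ⟨y, -, rfl⟩ := List.mem_map.1 hx
      have : k = i := by omega
      rw [this]
      exact (mem_sph.1 (hS y.2)).2
    | succ j ih =>
      intro k hk hj
      obtain ⟨M, m1, m2, m3⟩ := ih (k + 1) (by omega) (by omega)
      have e : k + 1 + j = i := by omega
      have a1 := hit (j + 1) k a.1 (by rw [hk]; exact hS a.2)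
      have b1 := hit (j + 1) k b.1 (by rw [hk]; exact hS b.2)
      have a2 := hadj j k a.1 (by rw [e]; exact hS a.2)
      have b2 := hadj j k b.1 (by rw [e]; exact hS b.2)
      have q1 := m1.append (PathL.single G (par^[j + 1] b.1)) b2.symm (by
        intro x hx hx'
        rw [List.mem_singleton] at hx'
        subst hx'
        exact m3 _ hx (mem_sph.1 b1).1)
      have q2 := q1.cons a2 (by
        rw [List.mem_append, List.mem_singleton, not_or]
        exact ⟨fun h => m3 _ h (mem_sph.1 a1).1, hne _ hj⟩)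
      refine ⟨_, q2, by simp [m2]; ring, fun x hx => ?_⟩
      simp only [List.mem_cons, List.mem_append, List.not_mem_nil, or_false] at hx
      rcases hx with rfl | hx | rfl
      · exact (mem_sph.1 a1).2
      · exact fun h => m3 x hx (mono (Nat.le_succ k) h)
      · exact (mem_sph.1 b1).2
  obtain ⟨k, hk⟩ : ∃ k, k + 1 + r = i := ⟨i - (r + 1), by omega⟩
  obtain ⟨M, m1, m2, m3⟩ := hpath r (k + 1) hk le_rfl
  have a1 := hit (r + 1) k a.1 (by rw [show k + (r + 1) = i by omega]; exact hS a.2)
  have a2 := hadj r k a.1 (by rw [hk]; exact hS a.2)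
  have b2 := hadj r k b.1 (by rw [hk]; exact hS b.2)
  refine hno ⟨_, _, _, m1.cons a2 (fun h => m3 _ h (mem_sph.1 a1).1), ?_, ?_⟩
  · simp only [List.length_cons, m2, hL]
    omega
  · rw [hspec a b]
    exact b2.symm

theorem sph_one {D : ℕ} (hD : 3 ≤ D) (hno : ¬ HasCyc G (2 * D + 1))
    (hK : ∀ S, Clq G S → S.card ≤ D) (h1 : 1 ≤ al G (sph G v 1)) :
    (sph G v 1).card + 1 ≤ D * al G (sph G v 1) := by
  classical
  by_contra hcon
  have hv : v ∉ sph G v 1 := fun h => (mem_sph.1 h).2 (mem_one.2 rfl)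
  have hadj : ∀ u ∈ sph G v 1, G.Adj v u := by
    intro u hu
    obtain ⟨y, hy⟩ := exists_par G v u
    have := hy 0 hu
    rw [← mem_one.1 (mem_sph.1 this.1).1]
    exact this.2
  obtain ⟨S, hS, -, -, n, c, hn, hc⟩ := exists_long (a := al G (sph G v 1)) (by omega) hK
    (insert v (sph G v 1)) (by
      intro I i1 i2
      by_cases hvI : v ∈ I
      · refine le_trans (Finset.card_le_one.2 fun x hx y hy => ?_) h1
        have key : ∀ z ∈ I, z = v := fun z hz => by
          rcases Finset.mem_insert.1 (i1 hz) with h | h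
          · exact h
          · exact absurd (hadj z h) (i2 v hvI z hz)
        rw [key x hx, key y hy]
      · exact le_al ((Finset.subset_insert_iff_of_notMem hvI).1 i1) i2)
    (by rw [Finset.card_insert_of_notMem hv]; omega)
  have hs : ∃ s : ℤ, ∀ t, s ≤ t → t < s + (2 * D : ℕ) → (c t).1 ≠ v := by
    by_cases h : ∃ i, (c i).1 = v
    · obtain ⟨i, hi⟩ := h
      refine ⟨i + 1, fun t t1 t2 e => ?_⟩
      exact hc.inj i t (by omega) (by omega) (Subtype.ext (hi.trans e.symm))
    · exact ⟨0, fun t _ _ e => h ⟨t, e⟩⟩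
  obtain ⟨s, hs⟩ := hs
  have hadj' : ∀ t, s ≤ t → t < s + (2 * D : ℕ) → G.Adj v (c t).1 := fun t t1 t2 =>
    hadj _ ((Finset.mem_insert.1 (hS (c t).2)).resolve_left (hs t t1 t2))
  have hp := (hc.seg_path (i := s) (j := s + (2 * D : ℕ) - 1) (m := 2 * D) (by ring) (by omega)
    (by omega)).map Subtype.val Subtype.val_injective (G := G) (fun _ _ h => h)
  refine hno ⟨_, _, _, hp.cons (hadj' s le_rfl (by omega)) fun h => ?_, by simp [length_seg],
    (hadj' _ (by omega) (by omega)).symm⟩
  obtain ⟨y, hy, e⟩ := List.mem_map.1 h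
  obtain ⟨t, t1, t2, rfl⟩ := mem_seg.1 hy
  exact hs t t1 t2 e

end Lay

open Lay MinAux in
/-- TASK Layers: a minimal counterexample has a clique with more than `p / 2` vertices. -/
theorem big_clique {V : Type*} [Finite V] (G : SimpleGraph V) (p : ℕ) (hp : 6 ≤ p)
    (hG : Good G p) : ∃ K, Clq G K ∧ p / 2 + 1 ≤ K.card := by
  classical
  have := Fintype.ofFinite V
  by_contra hcon
  obtain ⟨D, hD⟩ : ∃ D, D = p / 2 := ⟨_, rfl⟩
  have hK : ∀ S, Clq G S → S.card ≤ D := fun S hS => by
    by_contra h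
    exact hcon ⟨S, hS, by omega⟩
  obtain ⟨v⟩ := hG.ne
  obtain ⟨ε, hε⟩ : ∃ ε, p + ε = 2 * D + 1 := ⟨2 * D + 1 - p, by omega⟩
  have hε1 : ε ≤ 1 := by omega
  have hD3 : 3 ≤ D := by omega
  have hpos : ∀ r, 1 ≤ al G (ball G v (r + 1)) := fun r => by
    have := le_al (G := G) (S := ball G v (r + 1)) (I := {v})
      (Finset.singleton_subset_iff.2 (mem_succ.2 (Or.inl rfl))) (by
        intro a ha b hb
        rw [Finset.mem_singleton] at ha hb
        subst ha hb
        exact G.irrefl)
    simpa using this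
  have hlow : ∀ r, p * al G (ball G v (r + 1)) + 1 ≤ (ball G v (r + 2)).card := fun r => by
    obtain ⟨I, i1, i2, i3⟩ := exists_al G (ball G v (r + 1))
    rw [← i3]
    exact hG.exp I _ (Finset.card_pos.1 (by have := hpos r; omega)) i2
      (i1.trans (mono (Nat.le_succ _)))
      (fun u hu w hw => mem_succ.2 (Or.inr (Or.inr ⟨u, i1 hu, hw⟩)))
  have hsph : ∀ r, sph G v r ⊆ ball G v (r + 1) := fun r u hu => (mem_sph.1 hu).1
  have hstep : ∀ r, al G (ball G v (r + 1)) + al G (sph G v (r + 2)) ≤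
      al G (ball G v (r + 3)) := fun r =>
    al_add (mono (by omega)) (hsph _)
      (Finset.disjoint_left.2 fun u hu hu' => (mem_sph.1 hu').2 (mono (Nat.le_succ _) hu))
      (fun u hu w hw h => (mem_sph.1 hw).2 (mem_succ.2 (Or.inr (Or.inr ⟨u, hu, h⟩))))
  have hb1 : (ball G v 1).card = 1 :=
    Finset.card_eq_one.2 ⟨v, by ext u; simp [mem_one]⟩
  have hup : ∀ r, r + 1 ≤ D → (ball G v (r + 2)).card + D + ε ≤
      D * al G (ball G v (r + 2)) + D * al G (ball G v (r + 1)) + 1 := by
    intro r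
    induction r with
    | zero =>
      intro _
      have c1 := card_succ (G := G) (v := v) 1
      have c2 := sph_le (v := v) hD3 (by omega) (by omega) hG.nocyc hK (i := 1) (by omega) le_rfl
      have c3 := Nat.mul_le_mul_left D (al_mono (G := G) (hsph 1))
      have c4 := Nat.mul_le_mul_left D (hpos 0)
      have c5 := hlow 0
      have c6 := Nat.mul_le_mul_left p (hpos 0)
      simp only [zero_add, mul_one, Nat.reduceAdd] at c1 c3 c4 c5 c6 ⊢
      rcases Nat.eq_zero_or_pos ε with h | h
      · omega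
      · have c7 := sph_one (v := v) hD3 (by rw [show 2 * D = p by omega]; exact hG.nocyc) hK (by
          rcases Nat.eq_zero_or_pos (al G (sph G v 1)) with h0 | h0
          · rw [h0] at c2
            omega
          · exact h0)
        omega
    | succ r ih =>
      intro hr
      have c0 := ih (by omega)
      have c1 := card_succ (G := G) (v := v) (r + 2)
      have c2 := sph_le (v := v) hD3 (by omega) (by omega) hG.nocyc hK (i := r + 2) hr (by omega)
      have c3 := Nat.mul_le_mul_left D (hstep r)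
      rw [Nat.mul_add] at c3
      show (ball G v (r + 2 + 1)).card + D + ε ≤
        D * al G (ball G v (r + 3)) + D * al G (ball G v (r + 2)) + 1
      omega
  have hkey : ∀ r, r + 1 ≤ D → (D + 1) * al G (ball G v (r + 1)) + D + ε ≤
      D * al G (ball G v (r + 2)) + ε * al G (ball G v (r + 1)) := by
    intro r hr
    have c1 := hup r hr
    have c2 := hlow r
    have c3 : p * al G (ball G v (r + 1)) + ε * al G (ball G v (r + 1)) =
        (D + 1) * al G (ball G v (r + 1)) + D * al G (ball G v (r + 1)) := by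
      rw [← Nat.add_mul, ← Nat.add_mul, hε]
      congr 1
      ring
    omega
  have hgrow : ∀ r, r ≤ D → 2 * r + 1 ≤ al G (ball G v (r + 1)) := by
    intro r
    induction r with
    | zero => exact fun _ => hpos 0
    | succ r ih =>
      intro hr
      have c0 := ih (by omega)
      have c1 := hkey r hr
      by_contra h
      have c2 : al G (ball G v (r + 2)) ≤ al G (ball G v (r + 1)) + 1 := by
        have : r + 1 + 1 = r + 2 := rfl
        rw [this] at h
        omega
      have c3 := Nat.mul_le_mul_left D c2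
      interval_cases ε <;> nlinarith
  obtain ⟨E, rfl⟩ : ∃ E, D = E + 1 := ⟨D - 1, by omega⟩
  obtain ⟨I, -, i2, i3⟩ := exists_al G (ball G v (E + 2))
  have c1 := hG.alpha I i2
  rw [i3] at c1
  have c2 := hgrow (E + 1) le_rfl
  have c3 := hgrow E (by omega)
  have c4 := hkey E le_rfl
  have e : E + 1 + 1 = E + 2 := rfl
  rw [e] at c2
  interval_cases ε
  · have c5 : al G (ball G v (E + 2)) ≤ 2 * (E + 1) + 1 := by omega
    have c6 := Nat.mul_le_mul_left (E + 1) c5
    have c7 := Nat.mul_le_mul_left (E + 1 + 1) c3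
    nlinarith
  · omega

end Vale.Agent.P048
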