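import Vale.Agent.P048.Minimal
import Vale.Agent.P048.Constr

namespace Vale.Agent.P048

open Classical in
/-- the number of clique positions in a window of a cycle through all of `K` -/
theorem card_pos {V : Type*} {G : SimpleGraph V} {K : Finset V} {n : ℕ} {c : ℤ → V}
    (hc : ZCyc G n c) (hn : 0 < n) (hall : ∀ k ∈ K, ∃ t, c t = k) (s : ℤ) :
    ((Finset.Ico s (s + n)).filter (fun i => c i ∈ K)).card = K.card := by
  refine Finset.card_bij (fun i _ => c i) (fun i hi => (Finset.mem_filter.1 hi).2)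
    (fun i hi j hj e => ?_) (fun k hk => ?_)
  · simp only [Finset.mem_filter, Finset.mem_Ico] at hi hj
    exact hc.inj' (by omega) (by omega) e
  · obtain ⟨t, rfl⟩ := hall k hk
    obtain ⟨j, h1, h2, h3⟩ := win0 hc hn s t
    exact ⟨j, by simp only [Finset.mem_filter, Finset.mem_Ico]; exact ⟨⟨h1, h2⟩, h3 ▸ hk⟩, h3⟩

theorem sum_telescope (Φ : ℤ → ℤ) : ∀ n : ℕ,
    ∑ i ∈ Finset.Ico (0 : ℤ) n, (Φ (i + 1) - Φ i) = Φ n - Φ 0
  | 0 => by simp
  | n + 1 => by
    have e : Finset.Ico (0 : ℤ) ((n + 1 : ℕ) : ℤ) = insert (n : ℤ) (Finset.Ico (0 : ℤ) n) := by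
      ext t
      simp only [Finset.mem_Ico, Finset.mem_insert]
      omega
    rw [e, Finset.sum_insert (by simp), sum_telescope Φ n]
    push_cast
    ring

/-- telescoping with a periodic potential -/
theorem sum_nonneg_of_potential (n : ℕ) (f Φ : ℤ → ℤ) (hΦ : Φ n = Φ 0)
    (h : ∀ i, 0 ≤ f i + Φ (i + 1) - Φ i) : 0 ≤ ∑ i ∈ Finset.Ico (0 : ℤ) n, f i := by
  have h1 : 0 ≤ ∑ i ∈ Finset.Ico (0 : ℤ) n, (f i + (Φ (i + 1) - Φ i)) :=
    Finset.sum_nonneg (fun i _ => by have := h i; omega)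
  rw [Finset.sum_add_distrib, sum_telescope] at h1
  omega

def bz (b : Bool) : ℤ := bif b then 1 else 0

theorem sum_bz (S : Finset ℤ) (P : ℤ → Prop) [DecidablePred P] :
    ∑ i ∈ S, bz (decide (P i)) = ((S.filter P).card : ℤ) := by
  rw [Finset.card_filter]
  push_cast
  refine Finset.sum_congr rfl (fun i _ => ?_)
  by_cases h : P i <;> simp [bz, h]

open Classical in
theorem sum_bz_pos {V : Type*} {G : SimpleGraph V} {K : Finset V} {n : ℕ} {c : ℤ → V}
    (hc : ZCyc G n c) (hn : 0 < n) (hall : ∀ k ∈ K, ∃ t, c t = k) (s : ℤ) :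
    ∑ i ∈ Finset.Ico (0 : ℤ) n, bz (decide (c (i + s) ∈ K)) = K.card := by
  rw [sum_bz]
  have := card_pos (hc.shift s) hn (fun k hk => by
    obtain ⟨t, ht⟩ := hall k hk
    exact ⟨t - s, by simpa using ht⟩) 0
  rw [zero_add] at this
  exact congrArg Nat.cast this

variable {V : Type*} {G : SimpleGraph V} {K : Finset V} {p x : ℕ} {c : ℤ → V}

theorem e1 (hno : ¬ HasCyc G (p + 1)) (hp : 1 ≤ p) (hK : Clq G K) (hc : ZCyc G (p + 1 + x) c)
    (i : ℤ) : ¬ (c i ∈ K ∧ c (i + x + 1) ∈ K) := by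
  rintro ⟨h1, h2⟩
  have := chord hc (i := i) (d := x) (by omega)
    (hK _ h1 _ h2 (hc.inj _ _ (by omega) (by omega)))
  rw [Nat.add_sub_cancel] at this
  exact hno this

open Classical in
theorem e2 (hno : ¬ HasCyc G (p + 1)) (hp : 1 ≤ p) (hK : Clq G K) (hc : ZCyc G (p + 1 + x) c) :
    ((Finset.Ico (0 : ℤ) (p + 1 + x : ℕ)).filter (fun i => c i ∈ K ∧ c (i + 2) ∈ K)).card < x := by
  by_contra hcon
  obtain ⟨m, hm⟩ : ∃ m, c m ∉ K := by
    by_contra h
    push Not at h
    exact e1 hno hp hK hc 0 ⟨h _, h _⟩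
  set n := p + 1 + x with hn
  have hn0 : 0 < n := by omega
  obtain ⟨Y, hY, hYc⟩ := Finset.exists_subset_card_eq (not_lt.1 hcon)
  choose w hw1 hw2 hw3 using fun i => hc.window hn0 m i
  have hmem : ∀ i ∈ Y, 0 ≤ i ∧ i < n ∧ c i ∈ K ∧ c (i + 2) ∈ K := fun i hi => by
    have := hY hi
    simp only [Finset.mem_filter, Finset.mem_Ico] at this
    exact ⟨this.1.1, this.1.2, this.2⟩
  have hw0 : ∀ i, c (w i) = c i := fun i => by simpa using hw3 i 0
  have hcard : (Y.image (fun i => w i + 1)).card = x := by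
    rw [Finset.card_image_of_injOn, hYc]
    intro i hi j hj e
    have e' : w i = w j := by simpa using e
    have a1 := hmem i hi
    have a2 := hmem j hj
    exact hc.inj' (by omega) (by omega) (by rw [← hw0 i, ← hw0 j, e'])
  have := del hc hK (m + 1) (Y.image (fun i => w i + 1)) (fun t ht => by
    obtain ⟨i, hi, rfl⟩ := Finset.mem_image.1 ht
    have a1 := hw1 i
    have a2 := hw2 i
    have a3 : w i ≠ m := fun e => hm (by rw [← e, hw0]; exact (hmem i hi).2.2.1)
    omega) (fun t ht => by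
    obtain ⟨i, hi, rfl⟩ := Finset.mem_image.1 ht
    refine ⟨Or.inr ?_, Or.inr ?_⟩
    · rw [add_sub_cancel_right, hw0]; exact (hmem i hi).2.2.1
    · rw [add_assoc, hw3]; exact (hmem i hi).2.2.2) (by omega)
  rw [hcard, hn, Nat.add_sub_cancel] at this
  exact hno this

theorem e3 (hno : ¬ HasCyc G (p + 1)) (hp : 1 ≤ p) (hK : Clq G K) (hc : ZCyc G (p + 1 + 3) c)
    (i j : ℤ) (hij : i + 2 ≤ j) (hji : j < i + (p + 1 + 3 : ℕ)) (h1 : c i ∈ K) (h2 : c (i + 3) ∈ K)
    (h3 : c j ∈ K) (h4 : c (j + 2) ∈ K) : False := by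
  by_cases hj : j + 1 = i + (p + 1 + 3 : ℕ)
  · refine e1 hno hp hK hc j ⟨h3, ?_⟩
    rw [hc.eq_of_add (i := i + 3) (by omega)]
    exact h2
  have hcard : ({i + 1, i + 2, j + 1} : Finset ℤ).card = 3 := by
    rw [Finset.card_insert_of_notMem (by simp; omega), Finset.card_pair (by omega)]
  have := del hc hK i {i + 1, i + 2, j + 1} (fun t ht => by
    simp only [Finset.mem_insert, Finset.mem_singleton] at ht
    omega) (fun t ht => by
    simp only [Finset.mem_insert, Finset.mem_singleton] at ht ⊢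
    rcases ht with rfl | rfl | rfl
    · exact ⟨Or.inr (by simpa using h1), Or.inl (by omega)⟩
    · exact ⟨Or.inl (by omega), Or.inr (by rw [add_assoc]; exact h2)⟩
    · exact ⟨Or.inr (by simpa using h3), Or.inr (by rw [add_assoc]; exact h4)⟩) (by omega)
  rw [hcard, Nat.add_sub_cancel] at this
  exact hno this

def phi3 : Bool → Bool → Bool → ℤ
  | false, false, false => -2
  | false, false, true => -4
  | false, true, false => -3
  | false, true, true => -6
  | true, false, _ => 0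
  | true, true, _ => -3

theorem phi3_ok : ∀ a b c d : Bool, (a && d) = false →
    0 ≤ 2 - 5 * bz b + 3 * bz (a && c) + phi3 b c d - phi3 a b c := by decide

def phi4 : Bool → Bool → Bool → Bool → ℤ
  | false, false, false, false => -1
  | false, false, false, true => -2
  | false, false, true, false => -2
  | false, false, true, true => -3
  | false, true, false, _ => -3
  | false, true, true, _ => -4
  | true, false, _, false => 0
  | true, false, _, true => -1
  | true, true, _, _ => -2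

theorem phi4_ok : ∀ a b c d e : Bool, (a && e) = false →
    0 ≤ 1 - 3 * bz b + 2 * bz (a && c) + phi4 b c d e - phi4 a b c d := by decide

/-- TASK Pattern: no `K`-path on `p+3` or `p+4` vertices once the clique has 8 vertices. -/
theorem exc23 (hno : ¬ HasCyc G (p + 1)) (hK : Clq G K) (hb : 8 ≤ K.card)
    (hbp : K.card ≤ p) (hq : p + 1 ≤ 2 * K.card) : ¬ KPath G K (p + 3) ∧ ¬ KPath G K (p + 4) := by
  classical
  have hp : 1 ≤ p := by omega
  constructor
  · intro h
    obtain ⟨c, hc, -, -, hall⟩ := h.zcyc hK (by omega)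
    have hc' : ZCyc G (p + 1 + 2) c := hc
    have a1 := sum_bz_pos hc' (by omega) hall 1
    have a2 := e2 hno hp hK hc'
    have a3 := sum_bz (Finset.Ico (0 : ℤ) (p + 1 + 2 : ℕ)) (fun i => c i ∈ K ∧ c (i + 2) ∈ K)
    have a4 := sum_nonneg_of_potential (p + 1 + 2)
      (fun i => 2 - 5 * bz (decide (c (i + 1) ∈ K)) + 3 * bz (decide (c i ∈ K ∧ c (i + 2) ∈ K)))
      (fun i => phi3 (decide (c i ∈ K)) (decide (c (i + 1) ∈ K)) (decide (c (i + 2) ∈ K)))
      (by
        rw [hc'.eq_of_add (i := 0) (j := (p + 1 + 2 : ℕ)) (by ring),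
          hc'.eq_of_add (i := 0 + 1) (j := (p + 1 + 2 : ℕ) + 1) (by ring),
          hc'.eq_of_add (i := 0 + 2) (j := (p + 1 + 2 : ℕ) + 2) (by ring)])
      (fun i => by
        have b1 := e1 hno hp hK hc' i
        have e1 : i + 1 + 1 = i + 2 := by ring
        have e2 : i + 1 + 2 = i + (2 : ℕ) + 1 := by push_cast; ring
        simp only [e1, e2, Bool.decide_and]
        exact phi3_ok _ _ _ _ (by simpa using b1))
    rw [Finset.sum_add_distrib, Finset.sum_sub_distrib, ← Finset.mul_sum, ← Finset.mul_sum, a1,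
      a3] at a4
    simp only [Finset.sum_const, Int.card_Ico, nsmul_eq_mul] at a4
    omega
  · intro h
    obtain ⟨c, hc, -, -, hall⟩ := h.zcyc hK (by omega)
    have hc' : ZCyc G (p + 1 + 3) c := hc
    have a1 := sum_bz_pos hc' (by omega) hall 1
    have a2 := e2 hno hp hK hc'
    have a3 := sum_bz (Finset.Ico (0 : ℤ) (p + 1 + 3 : ℕ)) (fun i => c i ∈ K ∧ c (i + 2) ∈ K)
    have a4 := sum_nonneg_of_potential (p + 1 + 3)
      (fun i => 1 - 3 * bz (decide (c (i + 1) ∈ K)) + 2 * bz (decide (c i ∈ K ∧ c (i + 2) ∈ K)))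
      (fun i => phi4 (decide (c i ∈ K)) (decide (c (i + 1) ∈ K)) (decide (c (i + 2) ∈ K))
        (decide (c (i + 3) ∈ K)))
      (by
        rw [hc'.eq_of_add (i := 0) (j := (p + 1 + 3 : ℕ)) (by ring),
          hc'.eq_of_add (i := 0 + 1) (j := (p + 1 + 3 : ℕ) + 1) (by ring),
          hc'.eq_of_add (i := 0 + 2) (j := (p + 1 + 3 : ℕ) + 2) (by ring),
          hc'.eq_of_add (i := 0 + 3) (j := (p + 1 + 3 : ℕ) + 3) (by ring)])
      (fun i => by
        have b1 := e1 hno hp hK hc' i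
        have e1 : i + 1 + 1 = i + 2 := by ring
        have e2 : i + 1 + 2 = i + 3 := by ring
        have e3 : i + 1 + 3 = i + (3 : ℕ) + 1 := by push_cast; ring
        simp only [e1, e2, e3, Bool.decide_and]
        exact phi4_ok _ _ _ _ _ (by simpa using b1))
    rw [Finset.sum_add_distrib, Finset.sum_sub_distrib, ← Finset.mul_sum, ← Finset.mul_sum, a1,
      a3] at a4
    simp only [Finset.sum_const, Int.card_Ico, nsmul_eq_mul] at a4
    omega

end Vale.Agent.P048
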