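import Vale.Agent.P048.Minimal
import Vale.Agent.P048.Pattern

namespace Vale.Agent.P048

namespace LowAux

variable {V : Type*} {G : SimpleGraph V} {K : Finset V} {n : ℕ} {c : ℤ → V}

/-- no short outside path joins the successors of two clique vertices -/
def Far (G : SimpleGraph V) (K : Finset V) (n : ℕ) (c : ℤ → V) (m : ℕ) : Prop :=
  ∀ i j : ℤ, i ≠ j → i < j + n → j < i + n → c i ∈ K → c j ∈ K → ∀ Z z z', PathL G Z z z' →
    (∀ v ∈ Z, ∀ t, c t ≠ v) → Z.length ≤ m → G.Adj (c (i + 1)) z → G.Adj z' (c (j + 1)) → False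

theorem far (hc : ZCyc G n c) (hall : ∀ k ∈ K, ∃ t, c t = k) {m : ℕ}
    (hno : ∀ r, 1 ≤ r → r ≤ m → ¬ KPath G K (n + r)) : Far G K n c m := by
  intro i j hij h1 h2 hi hj Z z z' hZ hout hm a1 a2
  have hpos : 1 ≤ Z.length := List.length_pos_iff.2 hZ.ne_nil
  rcases lt_or_gt_of_ne hij with h | h
  · exact hno _ hpos hm (p1 hc hall h h2 hi hj hZ hout a1 a2)
  · have := p1 hc hall h h1 hj hi hZ.reverse
      (fun v hv => hout v (List.mem_reverse.1 hv)) a2.symm a1.symm
    rw [List.length_reverse] at this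
    exact hno _ hpos hm this

theorem hall_rev (hall : ∀ k ∈ K, ∃ t, c t = k) : ∀ k ∈ K, ∃ t, (fun i => c (-i)) t = k :=
  fun k hk => by
    obtain ⟨t, ht⟩ := hall k hk
    exact ⟨-t, by simpa using ht⟩

open Classical in
theorem card_neg (hc : ZCyc G n c) (hn : 0 < n) (hall : ∀ k ∈ K, ∃ t, c t = k) (s : ℤ) :
    K.card + ((Finset.Ico s (s + n)).filter (fun i => c i ∉ K)).card = n := by
  have h1 := card_pos hc hn hall s
  have h2 := Finset.card_filter_add_card_filter_not (s := Finset.Ico s (s + n))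
    (fun i => c i ∈ K)
  rw [Int.card_Ico] at h2
  have : (s + n - s).toNat = n := by omega
  rw [this, h1] at h2
  exact h2

theorem path2 {u v : V} (h : G.Adj u v) : PathL G [u, v] u v :=
  (PathL.single G v).cons h (by simpa using h.ne)

/-- neighbours on the cycle of an outside vertex, other than one allowed successor -/
theorem nbr (hc : ZCyc G n c) (hn : 0 < n) (hall : ∀ k ∈ K, ∃ t, c t = k) {m : ℕ} (hm : 1 ≤ m)
    (hF : Far G K n c m) {w : V} (hw : ∀ t, c t ≠ w) {i : ℤ} (hi : c i ∈ K)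
    (ha : G.Adj (c (i + 1)) w) :
    ∃ A : Finset V, K.card + A.card ≤ n ∧ ∀ t, G.Adj w (c t) → c t = c (i + 1) ∨ c t ∈ A := by
  classical
  refine ⟨((Finset.Ico i (i + n)).filter (fun i => c i ∉ K)).image (fun j => c (j + 1)), ?_, ?_⟩
  · have := card_neg hc hn hall i
    have h2 := Finset.card_image_le (s := (Finset.Ico i (i + n)).filter (fun i => c i ∉ K))
      (f := fun j => c (j + 1))
    omega
  · intro t ht
    obtain ⟨j, j1, j2, j3⟩ := hc.window hn i (t - 1)
    have e : c (j + 1) = c t := by simpa using j3 1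
    by_cases hji : j = i
    · left
      rw [← e, hji]
    · right
      refine Finset.mem_image.2 ⟨j, Finset.mem_filter.2 ⟨Finset.mem_Ico.2 ⟨j1, j2⟩, fun hj => ?_⟩,
        e⟩
      exact hF i j (Ne.symm hji) (by omega) j2 hi hj [w] w w (PathL.single G w)
        (by simpa using hw) (by simpa using hm) ha (e ▸ ht)

/-- the same with one successor of a non-clique vertex excluded -/
theorem nbr' (hc : ZCyc G n c) (hn : 0 < n) (hall : ∀ k ∈ K, ∃ t, c t = k) {m : ℕ} (hm : 1 ≤ m)
    (hF : Far G K n c m) {w : V} (hw : ∀ t, c t ≠ w) {s : ℤ} (hs : c s ∉ K)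
    (ha : ¬ G.Adj w (c (s + 1))) :
    ∃ A : Finset V, K.card + A.card ≤ n ∧ ∀ t, G.Adj w (c t) → c t ∈ A := by
  classical
  by_cases h : ∃ i, c i ∈ K ∧ G.Adj (c (i + 1)) w
  · obtain ⟨i, hi, hiw⟩ := h
    obtain ⟨s', s1, s2, s3⟩ := hc.window hn i s
    have hs' : s' ∈ (Finset.Ico i (i + n)).filter (fun i => c i ∉ K) :=
      Finset.mem_filter.2 ⟨Finset.mem_Ico.2 ⟨s1, s2⟩, by
        have := s3 0
        simp only [add_zero] at this
        rwa [this]⟩
    refine ⟨insert (c (i + 1)) ((((Finset.Ico i (i + n)).filter (fun i => c i ∉ K)).erase s').image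
      (fun j => c (j + 1))), ?_, ?_⟩
    · have := card_neg hc hn hall i
      have h2 := Finset.card_image_le
        (s := ((Finset.Ico i (i + n)).filter (fun i => c i ∉ K)).erase s')
        (f := fun j => c (j + 1))
      have h3 := Finset.card_erase_add_one hs'
      have h4 := Finset.card_insert_le (c (i + 1))
        ((((Finset.Ico i (i + n)).filter (fun i => c i ∉ K)).erase s').image (fun j => c (j + 1)))
      omega
    · intro t ht
      obtain ⟨j, j1, j2, j3⟩ := hc.window hn i (t - 1)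
      have e : c (j + 1) = c t := by simpa using j3 1
      by_cases hji : j = i
      · rw [← e, hji]
        exact Finset.mem_insert_self _ _
      · refine Finset.mem_insert_of_mem (Finset.mem_image.2 ⟨j, Finset.mem_erase.2 ⟨?_,
          Finset.mem_filter.2 ⟨Finset.mem_Ico.2 ⟨j1, j2⟩, fun hj => ?_⟩⟩, e⟩)
        · rintro rfl
          exact ha (by rw [← s3 1, e]; exact ht)
        · exact hF i j (Ne.symm hji) (by omega) j2 hi hj [w] w w (PathL.single G w)
            (by simpa using hw) (by simpa using hm) hiw (e ▸ ht)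
  · refine ⟨((Finset.Ico 0 (0 + n : ℤ)).filter (fun i => c i ∉ K)).image (fun j => c (j + 1)),
      ?_, ?_⟩
    · have := card_neg hc hn hall 0
      have h2 := Finset.card_image_le
        (s := (Finset.Ico 0 (0 + n : ℤ)).filter (fun i => c i ∉ K)) (f := fun j => c (j + 1))
      omega
    · intro t ht
      obtain ⟨j, j1, j2, j3⟩ := hc.window hn 0 (t - 1)
      have e : c (j + 1) = c t := by simpa using j3 1
      exact Finset.mem_image.2 ⟨j, Finset.mem_filter.2 ⟨Finset.mem_Ico.2 ⟨j1, j2⟩,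
        fun hj => h ⟨j, hj, e ▸ ht.symm⟩⟩, e⟩

end LowAux

open LowAux in
/-- TASK Low: the main argument on a longest short `K`-path. -/
theorem low_kill {V : Type*} [Finite V] {G : SimpleGraph V} {p : ℕ} (hG : Good G p)
    {K : Finset V} (hK : Clq G K) (hb : 3 ≤ K.card) (hmax : ∀ S, Clq G S → S.card ≤ K.card)
    (hq : p + 1 ≤ 2 * K.card) (hex : ∀ n, p + 2 ≤ n → n ≤ p + 4 → ¬ KPath G K n) : False := by
  classical
  have hp : 1 ≤ p := by
    obtain ⟨v⟩ := hG.ne
    have := hG.alpha {v} (by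
      intro a ha b hb
      rw [Finset.mem_singleton] at ha hb
      subst ha hb
      exact G.irrefl)
    simpa using this
  have hbp := hG.clq_le hp hK
  have hK0 := hK.kpath (Finset.card_pos.1 (by omega))
  obtain ⟨n, hnp, hbn, hn, hno⟩ : ∃ n, n ≤ p ∧ K.card ≤ n ∧ KPath G K n ∧
      ∀ r, 1 ≤ r → r ≤ 4 → ¬ KPath G K (n + r) := by
    have h1 := Nat.findGreatest_le (P := KPath G K) p
    refine ⟨Nat.findGreatest (KPath G K) p, h1, Nat.le_findGreatest hbp hK0,
      Nat.findGreatest_spec hbp hK0, fun r r1 r2 => ?_⟩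
    by_cases h2 : Nat.findGreatest (KPath G K) p + r ≤ p
    · exact Nat.findGreatest_is_greatest (by omega) h2
    · by_cases h3 : Nat.findGreatest (KPath G K) p + r = p + 1
      · rw [h3]
        exact fun h => hG.nocyc (h.hasCyc hK (by omega))
      · exact hex _ (by omega) (by omega)
  obtain ⟨c, hc, hc0, hc1, hall⟩ := hn.zcyc hK (by omega)
  have hn0 : 0 < n := by omega
  have hF := far hc hall hno
  have hF' := far hc.rev (hall_rev hall) hno
  have hout : ∀ i, ∃ w, (∀ t, c t ≠ w) ∧ G.Adj (c i) w := by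
    intro i
    obtain ⟨T, h1, h2⟩ := exists_out hG.exp (c i) (Set.range c)
      ((Finset.Ico (i + 1) (i + n)).image c) (by
        rintro _ ⟨t, rfl⟩ ha
        obtain ⟨j, j1, j2, e⟩ := win0 hc hn0 i t
        refine Finset.mem_image.2 ⟨j, Finset.mem_Ico.2 ⟨?_, j2⟩, e⟩
        have : j ≠ i := by
          rintro rfl
          exact ha.ne e
        omega)
    have h3 := Finset.card_image_le (s := Finset.Ico (i + 1) (i + n)) (f := c)
    rw [Int.card_Ico] at h3
    obtain ⟨w, hw⟩ := Finset.card_pos.1 (by omega : 0 < T.card)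
    exact ⟨w, fun t e => (h2 w hw).2 ⟨t, e⟩, (h2 w hw).1⟩
  have hi0 : ∃ i0, c i0 ∈ K ∧ ∀ i, i0 < i → i < i0 + n → c i ∈ K → ∀ w, (∀ t, c t ≠ w) →
      G.Adj (c (i + 1)) w → K.card < p →
      ∃ A : Finset V, K.card + A.card ≤ p ∧ ∀ t, G.Adj w (c t) → c t ∈ A := by
    by_cases hlt : n < p
    · refine ⟨0, hc0, fun i _ _ hi w hw ha _ => ?_⟩
      obtain ⟨A, a1, a2⟩ := nbr hc hn0 hall (by norm_num) hF hw hi ha
      refine ⟨insert (c (i + 1)) A, ?_, fun t ht => Finset.mem_insert.2 (a2 t ht)⟩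
      have := Finset.card_insert_le (c (i + 1)) A
      omega
    · by_cases hbp' : K.card < p
      swap
      · exact ⟨0, hc0, fun _ _ _ _ _ _ _ h => absurd h hbp'⟩
      have hex2 : ∃ m : ℕ, c m ∉ K := by
        have := card_neg hc hn0 hall 0
        obtain ⟨j, hj⟩ := Finset.card_pos.1 (by omega :
          0 < ((Finset.Ico 0 (0 + n : ℤ)).filter (fun i => c i ∉ K)).card)
        rw [Finset.mem_filter, Finset.mem_Ico] at hj
        refine ⟨j.toNat, ?_⟩
        rw [Int.toNat_of_nonneg hj.1.1]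
        exact hj.2
      have hm := Nat.find_spec hex2
      have hm' : ∀ k, k < Nat.find hex2 → c (k : ℕ) ∈ K :=
        fun k hk => not_not.1 (Nat.find_min hex2 hk)
      generalize Nat.find hex2 = m at hm hm'
      have hm2 : c ((m : ℤ) - 2) ∈ K := by
        rcases m with _ | _ | m
        · exact absurd hc0 hm
        · exact hc1
        · have := hm' m (by omega)
          have e : ((m + 1 + 1 : ℕ) : ℤ) - 2 = m := by push_cast; ring
          rwa [e]
      refine ⟨(m : ℤ) - 2, hm2, fun i i1 i2 hi w hw ha _ => ?_⟩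
      obtain ⟨A, a1, a2⟩ := nbr' hc.rev hn0 (hall_rev hall) (by norm_num) hF' (w := w)
        (fun t => hw (-t)) (s := -(m : ℤ)) (by simpa using hm) (fun h => by
          refine hF i (m - 2) (by omega) i2 (by omega) hi hm2 [w] w w (PathL.single G w)
            (by simpa using hw) (by simp) ha ?_
          have e : (m : ℤ) - 2 + 1 = -(-(m : ℤ) + 1) := by ring
          rw [e]
          exact h)
      exact ⟨A, by omega, fun t ht => by simpa using a2 (-t) (by simpa using ht)⟩
  obtain ⟨i0, hi0K, hi0⟩ := hi0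
  have hI : ∀ i, ∃ (w : V) (I : Finset V), i0 ≤ i → i < i0 + n → c i ∈ K →
      (∀ t, c t ≠ w) ∧ G.Adj (c (i + 1)) w ∧ Indep G I ∧
      (∀ u ∈ I, G.Adj w u ∧ ((∀ t, c t ≠ u) ∨ (i = i0 ∧ u = c (i0 + 1)))) ∧
      I.card = if i = i0 ∨ K.card < p then 2 else 1 := by
    intro i
    obtain ⟨w, hw, ha⟩ := hout (i + 1)
    by_cases hi : i0 ≤ i ∧ i < i0 + n ∧ c i ∈ K
    swap
    · exact ⟨w, ∅, fun h1 h2 h3 => absurd ⟨h1, h2, h3⟩ hi⟩
    obtain ⟨h1, h2, h3⟩ := hi
    obtain ⟨A, a1, a2⟩ := nbr hc hn0 hall (by norm_num) hF hw h3 ha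
    by_cases e : i = i0
    · obtain ⟨T, t1, t2⟩ := exists_out hG.exp w (Set.range c \ {c (i + 1)}) A (by
        rintro _ ⟨⟨t, rfl⟩, h⟩ ht
        exact (a2 t ht).resolve_left h)
      obtain ⟨I, k1, k2, k3⟩ := exists_pair G _ hmax w T (fun u hu => (t2 u hu).1) (by omega)
      refine ⟨w, I, fun _ _ _ => ⟨hw, ha, k2, fun u hu => ⟨(t2 u (k1 hu)).1, ?_⟩, ?_⟩⟩
      · by_cases hu' : u = c (i + 1)
        · exact Or.inr ⟨e, e ▸ hu'⟩
        · exact Or.inl fun t ht => (t2 u (k1 hu)).2 ⟨⟨t, ht⟩, hu'⟩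
      · rw [if_pos (Or.inl e), k3]
    · by_cases hlt : K.card < p
      · obtain ⟨A', b1, b2⟩ := hi0 i (by omega) h2 h3 w hw ha hlt
        obtain ⟨T, t1, t2⟩ := exists_out hG.exp w (Set.range c) A' (by
          rintro _ ⟨t, rfl⟩ ht
          exact b2 t ht)
        obtain ⟨I, k1, k2, k3⟩ := exists_pair G _ hmax w T (fun u hu => (t2 u hu).1) (by omega)
        refine ⟨w, I, fun _ _ _ => ⟨hw, ha, k2, fun u hu => ⟨(t2 u (k1 hu)).1,
          Or.inl fun t ht => (t2 u (k1 hu)).2 ⟨t, ht⟩⟩, ?_⟩⟩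
        rw [if_pos (Or.inr hlt), k3]
      · obtain ⟨T, t1, t2⟩ := exists_out hG.exp w (Set.range c) (insert (c (i + 1)) A) (by
          rintro _ ⟨t, rfl⟩ ht
          exact Finset.mem_insert.2 (a2 t ht))
        have := Finset.card_insert_le (c (i + 1)) A
        obtain ⟨u, hu⟩ := Finset.card_pos.1 (by omega : 0 < T.card)
        refine ⟨w, {u}, fun _ _ _ => ⟨hw, ha, ?_, fun u' hu' => ?_, ?_⟩⟩
        · intro a ha b hb
          rw [Finset.mem_singleton] at ha hb
          subst ha hb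
          exact G.irrefl
        · rw [Finset.mem_singleton.1 hu']
          exact ⟨(t2 u hu).1, Or.inl fun t ht => (t2 u hu).2 ⟨t, ht⟩⟩
        · rw [if_neg (by tauto), Finset.card_singleton]
  choose w I hI using hI
  set S := (Finset.Ico i0 (i0 + n)).filter (fun i => c i ∈ K) with hS
  have hSc : S.card = K.card := by
    rw [← card_pos hc hn0 hall i0]
  have hI' : ∀ i ∈ S, i0 ≤ i ∧ i < i0 + n ∧ c i ∈ K := fun i hi => by
    rw [hS, Finset.mem_filter, Finset.mem_Ico] at hi
    exact ⟨hi.1.1, hi.1.2, hi.2⟩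
  have hhalf : ∀ i ∈ S, ∀ j ∈ S, i ≠ j → ∀ u ∈ I i, ∀ v ∈ I j, (∀ t, c t ≠ v) →
      u ≠ v ∧ ¬ G.Adj u v := by
    intro i hi j hj hij u hu v hv hvo
    obtain ⟨i1, i2, i3⟩ := hI' i hi
    obtain ⟨j1, j2, j3⟩ := hI' j hj
    obtain ⟨a1, a2, -, a4, -⟩ := hI i i1 i2 i3
    obtain ⟨b1, b2, -, b4, -⟩ := hI j j1 j2 j3
    have F := hF i j hij (by omega) (by omega) i3 j3
    have hu1 := (a4 u hu).1
    have hv1 := (b4 v hv).1
    rcases (a4 u hu).2 with huo | ⟨e1, e2⟩
    · have w1 : w i ≠ w j := fun e =>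
        F [w i] _ _ (PathL.single G _) (by simpa using a1) (by simp) a2 (e ▸ b2.symm)
      have w2 : ¬ G.Adj (w i) (w j) := fun h =>
        F _ _ _ (path2 h) (by simpa using ⟨a1, b1⟩) (by simp) a2 b2.symm
      constructor
      · rintro rfl
        exact F _ _ _ ((path2 hv1.symm).cons hu1 (by simpa using ⟨hu1.ne, w1⟩))
          (by simpa using ⟨a1, huo, b1⟩) (by simp) a2 b2.symm
      · intro h
        have u2 : u ≠ w j := fun e => w2 (e ▸ hu1)
        have v2 : w i ≠ v := fun e => w2 (e ▸ hv1.symm)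
        exact F _ _ _ (((path2 hv1.symm).cons h (by simpa using ⟨h.ne, u2⟩)).cons hu1
          (by simpa using ⟨hu1.ne, v2, w1⟩)) (by simpa using ⟨a1, huo, hvo, b1⟩) (by simp) a2
          b2.symm
    · subst e1
      subst e2
      exact ⟨hvo _, fun h => F _ _ _ (path2 hv1.symm) (by simpa using ⟨hvo, b1⟩) (by simp) h
        b2.symm⟩
  obtain ⟨J, j1, j2, -⟩ := indep_biUnion G S I (fun i hi => by
      obtain ⟨i1, i2, i3⟩ := hI' i hi
      exact (hI i i1 i2 i3).2.2.1) (by
      intro i hi j hj hij u hu v hv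
      obtain ⟨i1, i2, i3⟩ := hI' i hi
      obtain ⟨j1, j2, j3⟩ := hI' j hj
      rcases ((hI j j1 j2 j3).2.2.2.1 v hv).2 with hvo | ⟨e1, -⟩
      · exact hhalf i hi j hj hij u hu v hv hvo
      · have huo := (((hI i i1 i2 i3).2.2.2.1 u hu).2).resolve_right
          (fun h => hij (h.1.trans e1.symm))
        have := hhalf j hj i hi hij.symm v hv u hu huo
        exact ⟨this.1.symm, fun h => this.2 h.symm⟩)
  have hJ := hG.alpha J j1
  have hsum : ∑ i ∈ S, (I i).card = ∑ i ∈ S, if i = i0 ∨ K.card < p then 2 else 1 :=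
    Finset.sum_congr rfl fun i hi => by
      obtain ⟨i1, i2, i3⟩ := hI' i hi
      exact (hI i i1 i2 i3).2.2.2.2
  rw [j2, hsum] at hJ
  by_cases hlt : K.card < p
  · simp only [hlt, or_true, if_true, Finset.sum_const, smul_eq_mul] at hJ
    omega
  · have hi0S : i0 ∈ S := Finset.mem_filter.2 ⟨Finset.mem_Ico.2 ⟨le_rfl, by omega⟩, hi0K⟩
    rw [← Finset.add_sum_erase S _ hi0S, if_pos (Or.inl rfl)] at hJ
    have h1 := Finset.card_nsmul_le_sum (S.erase i0)
      (fun i => if i = i0 ∨ K.card < p then 2 else 1) 1 (fun i _ => by split_ifs <;> omega)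
    have h2 := Finset.card_erase_add_one hi0S
    rw [smul_eq_mul] at h1
    omega

end Vale.Agent.P048
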