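import Vale.Agent.P048.Low

namespace Vale.Agent.P048

namespace TI

open LowAux

variable {V : Type*} {G : SimpleGraph V} {K : Finset V} {p : ℕ} {c : ℤ → V}

/-- the pattern `110011` at positions `i - 1, ..., i + 4` -/
def Pure (K : Finset V) (c : ℤ → V) (i : ℤ) : Prop :=
  c (i - 1) ∈ K ∧ c i ∈ K ∧ c (i + 1) ∉ K ∧ c (i + 2) ∉ K ∧ c (i + 3) ∈ K ∧ c (i + 4) ∈ K

theorem Pure.rev {i : ℤ} (h : Pure K c i) : Pure K (fun t => c (-t)) (-(i + 3)) := by
  obtain ⟨h1, h2, h3, h4, h5, h6⟩ := h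
  refine ⟨?_, ?_, ?_, ?_, ?_, ?_⟩ <;> dsimp only
  · rwa [show -(-(i + 3) - 1) = i + 4 by ring]
  · rwa [show -(-(i + 3)) = i + 3 by ring]
  · rwa [show -(-(i + 3) + 1) = i + 2 by ring]
  · rwa [show -(-(i + 3) + 2) = i + 1 by ring]
  · rwa [show -(-(i + 3) + 3) = i by ring]
  · rwa [show -(-(i + 3) + 4) = i - 1 by ring]

theorem no2 (hno : ¬ HasCyc G (p + 1)) (hp : 1 ≤ p) (hc : ZCyc G (p + 2) c) {i j : ℤ}
    (e : j = i + 2) : ¬ G.Adj (c i) (c j) := fun h =>
  hno (chord hc (i := i) (d := 1) (by omega) (by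
    rwa [show i + (1 : ℕ) + 1 = j by push_cast; omega]))

theorem no2K (hno : ¬ HasCyc G (p + 1)) (hp : 1 ≤ p) (hK : Clq G K) (hc : ZCyc G (p + 2) c)
    {i j : ℤ} (e : j = i + 2) (hi : c i ∈ K) (hj : c j ∈ K) : False :=
  no2 hno hp hc e (hK _ hi _ hj (hc.inj i j (by omega) (by push_cast; omega)))

open Classical in
theorem neither (hno : ¬ HasCyc G (p + 1)) (hp : 1 ≤ p) (hK : Clq G K) (hc : ZCyc G (p + 2) c)
    (hall : ∀ k ∈ K, ∃ t, c t = k) (s : ℤ) :
    ((Finset.Ico s (s + (p + 2 : ℕ))).filter (fun r => c (r - 1) ∉ K ∧ c (r + 1) ∉ K)).card +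
      2 * K.card ≤ p + 2 := by
  have h1 := card_pos (hc.shift (-1)) (by omega) (fun k hk => by
    obtain ⟨t, ht⟩ := hall k hk
    exact ⟨t + 1, by simpa using ht⟩) s
  have h2 := card_pos (hc.shift 1) (by omega) (fun k hk => by
    obtain ⟨t, ht⟩ := hall k hk
    exact ⟨t - 1, by simpa using ht⟩) s
  set W := Finset.Ico s (s + (p + 2 : ℕ)) with hW
  have hWc : W.card = p + 2 := by
    rw [hW, Int.card_Ico]
    omega
  have d1 : Disjoint (W.filter fun i => c (i + -1) ∈ K) (W.filter fun i => c (i + 1) ∈ K) :=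
    Finset.disjoint_left.2 fun i a b =>
      no2K hno hp hK hc (by ring) (Finset.mem_filter.1 a).2 (Finset.mem_filter.1 b).2
  have d2 : Disjoint (W.filter fun r => c (r - 1) ∉ K ∧ c (r + 1) ∉ K)
      ((W.filter fun i => c (i + -1) ∈ K) ∪ (W.filter fun i => c (i + 1) ∈ K)) :=
    Finset.disjoint_left.2 fun i a b => by
      rcases Finset.mem_union.1 b with b | b
      · exact (Finset.mem_filter.1 a).2.1 (Finset.mem_filter.1 b).2
      · exact (Finset.mem_filter.1 a).2.2 (Finset.mem_filter.1 b).2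
  have h3 := Finset.card_le_card (Finset.union_subset
    (Finset.filter_subset (fun r => c (r - 1) ∉ K ∧ c (r + 1) ∉ K) W)
    (Finset.union_subset (Finset.filter_subset (fun i => c (i + -1) ∈ K) W)
      (Finset.filter_subset (fun i => c (i + 1) ∈ K) W)))
  rw [Finset.card_union_of_disjoint d2, Finset.card_union_of_disjoint d1, h1, h2, hWc] at h3
  omega

theorem few (hno : ¬ HasCyc G (p + 1)) (hp : 6 ≤ p) (hK : Clq G K) (hc : ZCyc G (p + 2) c)
    (hall : ∀ k ∈ K, ∃ t, c t = k) (hq : p + 1 ≤ 2 * K.card) {i : ℤ} (h : Pure K c i) :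
    ∃ A : Finset V, A.card ≤ 3 ∧ ∀ t, G.Adj (c (i + 1)) (c t) → c t ∈ A := by
  classical
  obtain ⟨h1, h2, h3, h4, h5, h6⟩ := h
  have hn := neither hno (by omega) hK hc hall (i + 1)
  set N := (Finset.Ico (i + 1) (i + 1 + (p + 2 : ℕ))).filter
    (fun r => c (r - 1) ∉ K ∧ c (r + 1) ∉ K) with hN
  refine ⟨insert (c i) (insert (c (i + 2)) (N.image c)), ?_, fun t ht => ?_⟩
  · have a1 := Finset.card_insert_le (c i) (insert (c (i + 2)) (N.image c))
    have a2 := Finset.card_insert_le (c (i + 2)) (N.image c)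
    have a3 := Finset.card_image_le (s := N) (f := c)
    omega
  · obtain ⟨r, r1, r2, e⟩ := win0 hc (by omega) (i + 1) t
    rw [← e] at ht ⊢
    have r3 : r ≠ i + 1 := by
      rintro rfl
      exact G.irrefl ht
    by_cases e1 : r = i + (p + 2 : ℕ)
    · rw [hc.eq_of_add e1]
      exact Finset.mem_insert_self _ _
    by_cases e2 : r = i + 2
    · rw [e2]
      exact Finset.mem_insert_of_mem (Finset.mem_insert_self _ _)
    refine Finset.mem_insert_of_mem (Finset.mem_insert_of_mem (Finset.mem_image.2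
      ⟨r, Finset.mem_filter.2 ⟨Finset.mem_Ico.2 ⟨r1, r2⟩, fun hk => ?_, fun hk => ?_⟩, rfl⟩))
    · exact hno (p1_zero hc hK (i := i) (j := r - 1) (by omega) (by omega) h1 hk
        (by rwa [sub_add_cancel]))
    · by_cases e3 : r = i + 3
      · exact no2 hno (by omega) hc (by omega) ht
      by_cases e4 : r = i - 1 + (p + 2 : ℕ)
      · rw [hc.eq_of_add e4] at ht
        exact no2 hno (by omega) hc (by omega) ht.symm
      exact hno (p2_zero hc hK (i := i) (j := r + 1) (k := i + 3) (by omega) (by omega) (by omega)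
        h1 hk h5 (by rwa [show i + 3 + 1 = i + 4 by ring]) (by rwa [add_sub_cancel_right]))

/-- potential on windows of five letters -/
def phi : Bool → Bool → Bool → Bool → Bool → ℤ
  | false, false, false, true, true => -2
  | false, false, true, false, false => -3
  | false, false, true, true, false => -5
  | false, true, false, false, false => -4
  | false, true, false, false, true => -6
  | false, true, true, false, false => -8
  | true, false, false, true, true => -2
  | true, true, false, false, false => -4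
  | true, true, false, false, true => -4
  | _, _, _, _, _ => 0

theorem phi_ineq : ∀ a b c d e f : Bool, (a && c) = false → (b && d) = false →
    (c && e) = false → (d && f) = false →
    0 ≤ ((if (a && b && !c && !d && e && f) = true then 2 else 0) +
      (if b = true then -4 else 3)) + phi b c d e f - phi a b c d e := by
  decide

open Classical in
theorem count (hno : ¬ HasCyc G (p + 1)) (hp : 1 ≤ p) (hK : Clq G K) (hc : ZCyc G (p + 2) c)
    (hall : ∀ k ∈ K, ∃ t, c t = k) :
    7 * K.card ≤ 2 * ((Finset.Ico (0 : ℤ) (p + 2 : ℕ)).filter (fun x => Pure K c x)).card +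
      3 * (p + 2) := by
  set π : ℤ → Bool := fun i => decide (c i ∈ K) with hπ
  have hπ2 : ∀ i j, j = i + 2 → (π i && π j) = false := by
    intro i j e
    by_contra h
    simp only [hπ, Bool.not_eq_false, Bool.and_eq_true, decide_eq_true_eq] at h
    exact no2K hno hp hK hc e h.1 h.2
  have hper : ∀ i j : ℤ, j = i + (p + 2 : ℕ) → π j = π i := by
    intro i j e
    simp only [hπ, hc.eq_of_add e]
  have key := sum_nonneg_of_potential (p + 2)
    (fun i => (if Pure K c i then 2 else 0) + (if c i ∈ K then -4 else 3))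
    (fun i => phi (π (i - 1)) (π i) (π (i + 1)) (π (i + 2)) (π (i + 3))) (by
      rw [hper (0 - 1) (((p + 2 : ℕ) : ℤ) - 1) (by ring), hper 0 ((p + 2 : ℕ) : ℤ) (by ring),
        hper (0 + 1) (((p + 2 : ℕ) : ℤ) + 1) (by ring),
        hper (0 + 2) (((p + 2 : ℕ) : ℤ) + 2) (by ring),
        hper (0 + 3) (((p + 2 : ℕ) : ℤ) + 3) (by ring)]) (by
      intro i
      have := phi_ineq (π (i - 1)) (π i) (π (i + 1)) (π (i + 2)) (π (i + 3)) (π (i + 4))
        (hπ2 _ _ (by ring)) (hπ2 _ _ (by ring)) (hπ2 _ _ (by ring)) (hπ2 _ _ (by ring))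
      have e1 : ((π (i - 1) && π i && !π (i + 1) && !π (i + 2) && π (i + 3) && π (i + 4)) = true)
          ↔ Pure K c i := by
        simp [hπ, Pure, and_assoc]
      have e2 : π i = true ↔ c i ∈ K := by simp [hπ]
      simp only [e1, e2] at this
      rw [add_sub_cancel_right, show i + 1 + 1 = i + 2 by ring, show i + 1 + 2 = i + 3 by ring,
        show i + 1 + 3 = i + 4 by ring]
      exact this)
  have c1 := card_pos hc (by omega) hall 0
  have c2 := card_neg hc (by omega) hall 0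
  rw [zero_add] at c1 c2
  rw [Finset.sum_add_distrib, Finset.sum_ite, Finset.sum_ite] at key
  simp only [Finset.sum_const, smul_zero, add_zero, nsmul_eq_mul] at key
  rw [c1] at key
  omega

theorem sep2 {u v : V} (hu : ∀ t, c t ≠ u) (hv : ∀ t, c t ≠ v)
    (h : ∀ Z, PathL G Z u v → (∀ x ∈ Z, ∀ t, c t ≠ x) → Z.length ≤ 2 → False) :
    u ≠ v ∧ ¬ G.Adj u v := by
  constructor
  · rintro rfl
    exact h [u] (PathL.single G u) (by simpa using hu) (by simp)
  · intro ha
    exact h _ (path2 ha) (by simpa using ⟨hu, hv⟩) (by simp)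

theorem indep_single (G : SimpleGraph V) (u : V) : Indep G {u} := by
  intro a ha b hb
  rw [Finset.mem_singleton] at ha hb
  subst ha hb
  exact G.irrefl

end TI

open TI LowAux in
/-- TASK TypeI: no `K`-path on `p+2` vertices once the clique has 8 vertices. -/
theorem typeI {V : Type*} [Finite V] {G : SimpleGraph V} {p : ℕ} (hG : Good G p)
    {K : Finset V} (hK : Clq G K) (hb : 8 ≤ K.card) (hmax : ∀ S, Clq G S → S.card ≤ K.card)
    (hq : p + 1 ≤ 2 * K.card) : ¬ KPath G K (p + 2) := by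
  classical
  intro hpath
  have hp1 : 1 ≤ p := by
    obtain ⟨v⟩ := hG.ne
    simpa using hG.alpha {v} (indep_single G v)
  have hbp := hG.clq_le hp1 hK
  have hno := hG.nocyc
  obtain ⟨c, hc, -, -, hall⟩ := hpath.zcyc hK (by omega)
  obtain ⟨x3, x4⟩ := exc23 hno hK hb hbp hq
  have hex : ∀ r, 1 ≤ r → r ≤ 2 → ¬ KPath G K (p + 2 + r) := by
    intro r r1 r2
    interval_cases r
    · exact x3
    · exact x4
  have hF := far hc hall hex
  have hF' := far hc.rev (hall_rev hall) hex
  have hnei := neither hno hp1 hK hc hall 0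
  have hcount := count hno hp1 hK hc hall
  have hbig : ∀ (a : V) (A : Finset V), A.card ≤ 3 → (∀ t, G.Adj a (c t) → c t ∈ A) →
      ∀ B : Finset V, B.card ≤ 1 → ∃ I : Finset V, Indep G I ∧ I.card = 2 ∧
        ∀ u ∈ I, G.Adj a u ∧ (∀ t, c t ≠ u) ∧ u ∉ B := by
    intro a A a1 a2 B b1
    obtain ⟨T, t1, t2⟩ := exists_out hG.exp a (Set.range c ∪ B) (A ∪ B) (by
      rintro u (⟨t, rfl⟩ | hu) ha
      · exact Finset.mem_union_left _ (a2 t ha)
      · exact Finset.mem_union_right _ hu)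
    have := Finset.card_union_le A B
    obtain ⟨I, k1, k2, k3⟩ := exists_pair G _ hmax a T (fun u hu => (t2 u hu).1) (by omega)
    exact ⟨I, k2, k3, fun u hu => ⟨(t2 u (k1 hu)).1,
      fun t ht => (t2 u (k1 hu)).2 (Or.inl ⟨t, ht⟩), fun h => (t2 u (k1 hu)).2 (Or.inr h)⟩⟩
  have hI : ∀ a : V, ∃ I : Finset V, (∃ t, c t = a) → Indep G I ∧
      (∀ u ∈ I, G.Adj a u ∧ ∀ t, c t ≠ u) ∧
      I.card = if ∃ i, c (i + 1) = a ∧ Pure K c i then 2 else 1 := by
    intro a
    by_cases h : ∃ i, c (i + 1) = a ∧ Pure K c i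
    · obtain ⟨i, rfl, hi⟩ := id h
      obtain ⟨A, a1, a2⟩ := few hno (by omega) hK hc hall hq hi
      obtain ⟨I, k1, k2, k3⟩ := hbig _ A a1 a2 ∅ (by simp)
      exact ⟨I, fun _ => ⟨k1, fun u hu => ⟨(k3 u hu).1, (k3 u hu).2.1⟩, by rw [if_pos h, k2]⟩⟩
    · by_cases h' : ∃ t, c t = a
      swap
      · exact ⟨∅, fun h => absurd h h'⟩
      obtain ⟨i, rfl⟩ := h'
      obtain ⟨T, h1, h2⟩ := exists_out hG.exp (c i) (Set.range c)
        ((((Finset.Ico (i + 1) (i + (p + 2 : ℕ))).erase (i + 2)).erase (i + p)).image c) (by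
          rintro _ ⟨t, rfl⟩ ha
          obtain ⟨j, j1, j2, e⟩ := win0 hc (by omega) i t
          rw [← e] at ha
          refine Finset.mem_image.2 ⟨j, Finset.mem_erase.2 ⟨?_, Finset.mem_erase.2
            ⟨?_, Finset.mem_Ico.2 ⟨?_, j2⟩⟩⟩, e⟩
          · intro h
            rw [← hc.per i] at ha
            exact no2 hno hp1 hc (by push_cast; omega) ha.symm
          · exact fun h => no2 hno hp1 hc h ha
          · have : j ≠ i := by
              rintro rfl
              exact G.irrefl ha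
            omega)
      have h3 := Finset.card_image_le
        (s := ((Finset.Ico (i + 1) (i + (p + 2 : ℕ))).erase (i + 2)).erase (i + p)) (f := c)
      have m1 : i + 2 ∈ Finset.Ico (i + 1) (i + (p + 2 : ℕ)) :=
        Finset.mem_Ico.2 ⟨by omega, by omega⟩
      have m2 : i + p ∈ (Finset.Ico (i + 1) (i + (p + 2 : ℕ))).erase (i + 2) :=
        Finset.mem_erase.2 ⟨by omega, Finset.mem_Ico.2 ⟨by omega, by omega⟩⟩
      have h4 := Finset.card_erase_add_one m1
      have h5 := Finset.card_erase_add_one m2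
      rw [Int.card_Ico] at h4
      obtain ⟨w, hw⟩ := Finset.card_pos.1 (by omega : 0 < T.card)
      refine ⟨{w}, fun _ => ⟨indep_single G w, fun u hu => ?_, by rw [if_neg h]; simp⟩⟩
      rw [Finset.mem_singleton.1 hu]
      exact ⟨(h2 w hw).1, fun t e => (h2 w hw).2 ⟨t, e⟩⟩
  choose I hI using hI
  have hI1 : ∀ t, Indep G (I (c t)) := fun t => (hI _ ⟨t, rfl⟩).1
  have hI2 : ∀ t, ∀ u ∈ I (c t), G.Adj (c t) u ∧ ∀ t, c t ≠ u := fun t => (hI _ ⟨t, rfl⟩).2.1
  have hJ : ∀ i, ∃ J : Finset V, Pure K c i → Indep G J ∧ J.card = 2 ∧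
      ∀ u ∈ J, G.Adj (c (i + 2)) u ∧ (∀ t, c t ≠ u) ∧ u ∉ I (c i) := by
    intro i
    by_cases h : Pure K c i
    swap
    · exact ⟨∅, fun h' => absurd h' h⟩
    obtain ⟨A, a1, a2⟩ := few hno (by omega) hK hc.rev (hall_rev hall) hq h.rev
    rw [show -(-(i + 3) + 1) = i + 2 by ring] at a2
    obtain ⟨J, k⟩ := hbig (c (i + 2)) A a1
      (fun t ht => by simpa using a2 (-t) (by simpa using ht)) (I (c i)) (by
        rw [(hI _ ⟨i, rfl⟩).2.2, if_neg]
        rintro ⟨j, e, hj⟩
        exact hj.2.2.1 (e ▸ h.2.1))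
    exact ⟨J, fun _ => k⟩
  choose J hJ using hJ
  have hIJ : ∀ i' i, c i' ∈ K → Pure K c i → ∀ u ∈ I (c (i' + 1)), ∀ v ∈ J i,
      u ≠ v ∧ ¬ G.Adj u v := by
    intro i'' i hi'' hi u hu v hv
    obtain ⟨i', w1, w2, w3⟩ := hc.window (by omega) (i + 3 - (p + 2 : ℕ)) i''
    have hi' : c i' ∈ K := by
      have := w3 0
      simp only [add_zero] at this
      rwa [this]
    rw [← w3 1] at hu
    obtain ⟨u1, u2⟩ := hI2 _ u hu
    obtain ⟨v1, v2, v3⟩ := (hJ i hi).2.2 v hv
    obtain ⟨h1, h2, h3, h4, h5, h6⟩ := hi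
    have h6' : c (i + 3 + 1) ∈ K := by rwa [show i + 3 + 1 = i + 4 by ring]
    have n1 : i' ≠ i + 1 := by
      rintro rfl
      exact h3 hi'
    have n2 : i' ≠ i + 2 := by
      rintro rfl
      exact h4 hi'
    by_cases e1 : i' = i
    · subst e1
      refine sep2 u2 v2 fun Z z1 z2 z3 => ?_
      exact hex _ (List.length_pos_iff.2 z1.ne_nil) z3 (rep hc hall (i := i' + 1) (k := i' + 3)
        (d := 0) (by omega) (by omega) h5 h6' (fun t t1 t2 => by omega) z1 z2 u1
        (by rw [show i' + 1 + (0 : ℕ) + 1 = i' + 2 by push_cast; ring]; exact v1.symm))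
    by_cases e2 : i' = i - 1
    · subst e2
      rw [sub_add_cancel] at hu u1
      refine ⟨fun e => v3 (e ▸ hu), fun ha => ?_⟩
      exact x3 (rep hc hall (i := i) (k := i + 3) (d := 1) (by omega) (by omega) h5 h6'
        (fun t t1 t2 => by rwa [show t = i + 1 by omega]) (path2 ha) (by simpa using ⟨u2, v2⟩) u1
        (by rw [show i + (1 : ℕ) + 1 = i + 2 by push_cast; ring]; exact v1.symm))
    refine sep2 u2 v2 fun Z z1 z2 z3 => ?_
    exact hex _ (List.length_pos_iff.2 z1.ne_nil) z3 (p2 hc hK hall (i := i') (j := i + 3)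
      (k := i - 1) (by omega) (by omega) (by omega) hi' h5 h1 (by rwa [sub_add_cancel]) z1 z2 u1
      (by rw [show i + 3 - 1 = i + 2 by ring]; exact v1.symm))
  set W := Finset.Ico (0 : ℤ) (p + 2 : ℕ) with hW
  have hWm : ∀ i ∈ W, 0 ≤ i ∧ i < (p + 2 : ℕ) := fun i hi => Finset.mem_Ico.1 hi
  obtain ⟨X, j1, j2, -⟩ := indep_biUnion G
    ((W.filter fun i => c i ∈ K).disjSum (W.filter (fun x => Pure K c x)))
    (Sum.elim (fun i => I (c (i + 1))) J) (by
      rintro (i | i) hi
      · exact hI1 _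
      · exact (hJ i (Finset.mem_filter.1 (Finset.inr_mem_disjSum.1 hi)).2).1) (by
      rintro (i | i) hi (j | j) hj hij u hu v hv
      · rw [Finset.inl_mem_disjSum, Finset.mem_filter] at hi hj
        have := hWm i hi.1
        have := hWm j hj.1
        obtain ⟨u1, u2⟩ := hI2 _ u hu
        obtain ⟨v1, v2⟩ := hI2 _ v hv
        exact sep2 u2 v2 fun Z z1 z2 z3 => hF i j (fun e => hij (by rw [e])) (by omega) (by omega)
          hi.2 hj.2 Z u v z1 z2 z3 u1 v1.symm
      · rw [Finset.inl_mem_disjSum, Finset.mem_filter] at hi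
        rw [Finset.inr_mem_disjSum, Finset.mem_filter] at hj
        exact hIJ i j hi.2 hj.2 u hu v hv
      · rw [Finset.inr_mem_disjSum, Finset.mem_filter] at hi
        rw [Finset.inl_mem_disjSum, Finset.mem_filter] at hj
        have := hIJ j i hj.2 hi.2 v hv u hu
        exact ⟨this.1.symm, fun h => this.2 h.symm⟩
      · rw [Finset.inr_mem_disjSum, Finset.mem_filter] at hi hj
        have := hWm i hi.1
        have := hWm j hj.1
        have hne : i ≠ j := fun e => hij (by rw [e])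
        obtain ⟨u1, u2, -⟩ := (hJ i hi.2).2.2 u hu
        obtain ⟨v1, v2, -⟩ := (hJ j hj.2).2.2 v hv
        exact sep2 u2 v2 fun Z z1 z2 z3 => hF' (-(i + 3)) (-(j + 3)) (by omega) (by omega)
          (by omega) hi.2.rev.2.1 hj.2.rev.2.1 Z u v z1 (fun x hx t => z2 x hx (-t)) z3
          (by dsimp only; rw [show -(-(i + 3) + 1) = i + 2 by ring]; exact u1)
          (by dsimp only; rw [show -(-(j + 3) + 1) = j + 2 by ring]; exact v1.symm))
  have hX := hG.alpha X j1
  rw [j2, Finset.sum_disjSum] at hX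
  simp only [Sum.elim_inl, Sum.elim_inr] at hX
  have s1 : ∑ i ∈ W.filter (fun x => Pure K c x), (J i).card = 2 * (W.filter (fun x => Pure K c x)).card := by
    rw [mul_comm, ← smul_eq_mul, ← Finset.sum_const]
    exact Finset.sum_congr rfl fun i hi => (hJ i (Finset.mem_filter.1 hi).2).2.1
  have s2 : ∑ i ∈ W.filter (fun i => c i ∈ K), (1 + if Pure K c i then 1 else 0) ≤
      ∑ i ∈ W.filter (fun i => c i ∈ K), (I (c (i + 1))).card := by
    refine Finset.sum_le_sum fun i _ => ?_
    rw [(hI _ ⟨i + 1, rfl⟩).2.2]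
    by_cases h : Pure K c i
    · rw [if_pos h, if_pos ⟨i, rfl, h⟩]
    · rw [if_neg h]
      split_ifs <;> omega
  have s3 : (W.filter (fun i => c i ∈ K)).filter (fun x => Pure K c x) = W.filter (fun x => Pure K c x) := by
    rw [Finset.filter_filter]
    exact Finset.filter_congr fun i _ => ⟨fun h => h.2, fun h => ⟨h.2.1, h⟩⟩
  have c1 := card_pos hc (by omega) hall 0
  rw [zero_add] at c1
  rw [Finset.sum_add_distrib, ← Finset.card_eq_sum_ones, ← Finset.card_filter, s3, c1] at s2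
  omega

end Vale.Agent.P048
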