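import Vale.Agent.P048.Layers
import Vale.Agent.P048.Low
import Vale.Agent.P048.TypeI
import Vale.Agent.P048.Bridge
import Vale.Agent.P048.CertA
import Vale.Agent.P048.CertB
import Vale.Agent.P048.Final

namespace Vale.Agent.P048

theorem core (V : Type) [Finite V] (G : SimpleGraph V) (p : ℕ) (hp : 3 ≤ p) : ¬ Good G p := by
  classical
  intro hG
  have := Fintype.ofFinite V
  obtain ⟨K, hKm, hmax'⟩ := Finset.exists_max_image
    ((Finset.univ : Finset (Finset V)).filter (fun S => Clq G S)) Finset.card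
    ⟨∅, Finset.mem_filter.2 ⟨Finset.mem_univ _, fun u hu => absurd hu (by simp)⟩⟩
  have hK : Clq G K := (Finset.mem_filter.1 hKm).2
  have hmax : ∀ S, Clq G S → S.card ≤ K.card := fun S hS =>
    hmax' S (Finset.mem_filter.2 ⟨Finset.mem_univ _, hS⟩)
  have hbp : K.card ≤ p := hG.clq_le (by omega) hK
  have h2 : 2 ≤ K.card := by
    obtain ⟨v⟩ := hG.ne
    have : ∃ u, G.Adj v u := by
      by_contra hcon
      have := hG.exp.deg v ∅ (fun u hu => (hcon ⟨u, hu⟩).elim)
      simp at this
      omega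
    obtain ⟨u, hu⟩ := this
    have := hmax {v, u} (by
      intro a ha b hb hab
      simp only [Finset.mem_insert, Finset.mem_singleton] at ha hb
      rcases ha with rfl | rfl <;> rcases hb with rfl | rfl
      · exact absurd rfl hab
      · exact hu
      · exact hu.symm
      · exact absurd rfl hab)
    rwa [Finset.card_pair hu.ne] at this
  have hbig : 6 ≤ p → p / 2 + 1 ≤ K.card := fun h6 => by
    obtain ⟨K', h1, h2⟩ := big_clique G p h6 hG
    exact h2.trans (hmax K' h1)
  have hsmall : ∀ (p' b : ℕ) (l : List (Tm × Pf)), killFull p' b l = true → p = p' →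
      K.card = b → False := fun p' b l h e1 e2 => by
    subst e1 e2
    exact killFull_sound hG hK hmax h
  by_cases h5 : 5 ≤ K.card
  · have hq : p + 1 ≤ 2 * K.card := by
      by_cases h6 : 6 ≤ p
      · have := hbig h6; omega
      · omega
    refine low_kill hG hK (by omega) hmax hq (fun n h1 h2 => ?_)
    by_cases h7 : K.card ≤ 7
    · exact exc_mid hG hK h5 h7 hmax hbp hq n h1 h2
    · have h23 := exc23 hG.nocyc hK (by omega) hbp hq
      have : n = p + 2 ∨ n = p + 3 ∨ n = p + 4 := by omega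
      rcases this with rfl | rfl | rfl
      · exact typeI hG hK (by omega) hmax hq
      · exact h23.1
      · exact h23.2
  · by_cases h6 : 6 ≤ p
    · have := hbig h6
      have : p = 6 ∨ p = 7 := by omega
      rcases this with e | e
      · exact hsmall _ _ _ k_6_4 e (by omega)
      · exact hsmall _ _ _ k_7_4 e (by omega)
    · have : (p = 3 ∧ K.card = 2) ∨ (p = 3 ∧ K.card = 3) ∨ (p = 4 ∧ K.card = 2) ∨
          (p = 4 ∧ K.card = 3) ∨ (p = 4 ∧ K.card = 4) ∨ (p = 5 ∧ K.card = 2) ∨
          (p = 5 ∧ K.card = 3) ∨ (p = 5 ∧ K.card = 4) := by omega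
      rcases this with e | e | e | e | e | e | e | e
      · exact hsmall _ _ _ k_3_2 e.1 e.2
      · exact hsmall _ _ _ k_3_3 e.1 e.2
      · exact hsmall _ _ _ k_4_2 e.1 e.2
      · exact hsmall _ _ _ k_4_3 e.1 e.2
      · exact hsmall _ _ _ k_4_4 e.1 e.2
      · exact hsmall _ _ _ k_5_2 e.1 e.2
      · exact hsmall _ _ _ k_5_3 e.1 e.2
      · exact hsmall _ _ _ k_5_4 e.1 e.2

theorem main (m n : ℕ) (hn : 3 ≤ n) (hnm : n ≤ m) (hne : (m, n) ≠ (3, 3)) :
    IsLeast {N : ℕ | ∀ G : SimpleGraph (Fin N),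
      (SimpleGraph.cycleGraph m).IsContained G ∨ ∃ s : Finset (Fin N), G.IsNIndepSet n s}
      ((m - 1) * (n - 1) + 1) :=
  final_of_core core m n hn hnm hne

end Vale.Agent.P048
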