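import Vale.Agent.P048.Defs

namespace Vale.Agent.P048

variable {V : Type*}

namespace MinAux

open Classical in
/-- independence number of a finset -/
noncomputable def al (G : SimpleGraph V) (S : Finset V) : ℕ :=
  (S.powerset.filter (Indep G)).sup Finset.card

theorem le_al {G : SimpleGraph V} {S I : Finset V} (h : I ⊆ S) (hI : Indep G I) :
    I.card ≤ al G S := by
  classical
  unfold al
  apply Finset.le_sup (f := Finset.card)
  simp [h, hI]

theorem exists_al (G : SimpleGraph V) (S : Finset V) :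
    ∃ I ⊆ S, Indep G I ∧ I.card = al G S := by
  classical
  obtain ⟨I, hI, h⟩ := Finset.exists_mem_eq_sup (S.powerset.filter (Indep G))
    ⟨∅, by simp [Indep]⟩ Finset.card
  rw [Finset.mem_filter, Finset.mem_powerset] at hI
  refine ⟨I, hI.1, hI.2, ?_⟩
  rw [← h]
  unfold al
  congr

theorem al_add {G : SimpleGraph V} {S A B : Finset V} (hA : A ⊆ S) (hB : B ⊆ S)
    (hd : Disjoint A B) (he : ∀ u ∈ A, ∀ v ∈ B, ¬ G.Adj u v) : al G A + al G B ≤ al G S := by
  classical
  obtain ⟨I, i1, i2, i3⟩ := exists_al G A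
  obtain ⟨J, j1, j2, j3⟩ := exists_al G B
  rw [← i3, ← j3, ← Finset.card_union_of_disjoint (hd.mono i1 j1)]
  refine le_al (Finset.union_subset (i1.trans hA) (j1.trans hB)) ?_
  intro u hu v hv
  rw [Finset.mem_union] at hu hv
  rcases hu with hu | hu <;> rcases hv with hv | hv
  · exact i2 u hu v hv
  · exact he u (i1 hu) v (j1 hv)
  · exact fun h => he v (i1 hv) u (j1 hu) h.symm
  · exact j2 u hu v hv

theorem al_mono {G : SimpleGraph V} {S A : Finset V} (hA : A ⊆ S) : al G A ≤ al G S := by
  obtain ⟨I, i1, i2, i3⟩ := exists_al G A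
  rw [← i3]
  exact le_al (i1.trans hA) i2

end MinAux

open MinAux in
/-- TASK Minimal: a set with more than `D * alpha` vertices contains a critical subset. -/
theorem exists_minimal (G : SimpleGraph V) (D a : ℕ) (T : Finset V)
    (ha : ∀ I ⊆ T, Indep G I → I.card ≤ a) (hT : D * a < T.card) :
    ∃ S ⊆ T, S.Nonempty ∧ S.card ≤ D * a + 1 ∧ Expands (G.induce (S : Set V)) D ∧
      Conn (G.induce (S : Set V)) := by
  classical
  have hTa : al G T ≤ a := by
    obtain ⟨I, i1, i2, i3⟩ := exists_al G T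
    rw [← i3]
    exact ha I i1 i2
  obtain ⟨S, hS, hmin⟩ := Finset.exists_min_image
    (T.powerset.filter fun S => D * al G S < S.card) Finset.card
    ⟨T, by
      rw [Finset.mem_filter, Finset.mem_powerset]
      exact ⟨Finset.Subset.refl _, lt_of_le_of_lt (Nat.mul_le_mul_left _ hTa) hT⟩⟩
  simp only [Finset.mem_filter, Finset.mem_powerset] at hS hmin
  obtain ⟨hST, hS⟩ := hS
  have hprop : ∀ S' ⊆ S, S'.card < S.card → S'.card ≤ D * al G S' := by
    intro S' h1 h2
    by_contra h
    have := hmin S' ⟨h1.trans hST, by omega⟩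
    omega
  have hne : S.Nonempty := Finset.card_pos.1 (by omega)
  refine ⟨S, hST, hne, ?_, ?_, ?_⟩
  · obtain ⟨v, hv⟩ := hne
    have c1 := Finset.card_erase_add_one hv
    have h1 := hprop (S.erase v) (Finset.erase_subset _ _) (by omega)
    have h2 : al G (S.erase v) ≤ a := (al_mono ((Finset.erase_subset _ _).trans hST)).trans hTa
    have h3 := Nat.mul_le_mul_left D h2
    omega
  · intro I N hI hind hIN hcl
    set e : (S : Set V) ↪ V := Function.Embedding.subtype _ with he
    have hsub : ∀ X : Finset (S : Set V), X.map e ⊆ S := by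
      intro X v hv
      obtain ⟨x, -, rfl⟩ := Finset.mem_map.1 hv
      exact x.2
    have hind' : Indep G (I.map e) := by
      intro u hu v hv
      obtain ⟨x, hx, rfl⟩ := Finset.mem_map.1 hu
      obtain ⟨y, hy, rfl⟩ := Finset.mem_map.1 hv
      exact hind x hx y hy
    have h1 := al_add (G := G) (hsub I) (Finset.sdiff_subset (s := S) (t := N.map e))
      (Finset.disjoint_sdiff.mono_left (Finset.map_subset_map.2 hIN)) (by
        intro u hu v hv huv
        obtain ⟨x, hx, rfl⟩ := Finset.mem_map.1 hu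
        rw [Finset.mem_sdiff] at hv
        exact hv.2 (Finset.mem_map.2 ⟨⟨v, hv.1⟩, hcl x hx ⟨v, hv.1⟩ huv, rfl⟩))
    have h2 := le_al (Finset.Subset.refl _) hind'
    have c1 := Finset.card_sdiff_add_card_eq_card (hsub N)
    rw [Finset.card_map] at h2 c1
    have c2 := Finset.card_le_card hIN
    have c3 := hI.card_pos
    have h3 := hprop (S \ N.map e) Finset.sdiff_subset (by omega)
    have h4 := Nat.mul_le_mul_left D ((Nat.add_le_add_right h2 _).trans h1)
    rw [Nat.mul_add] at h4
    omega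
  · intro X hX hcl
    by_contra hXu
    obtain ⟨x, hx⟩ := hX
    obtain ⟨y, hy⟩ := (Set.ne_univ_iff_exists_notMem X).1 hXu
    set A := S.filter (fun v => ∃ h : v ∈ (S : Set V), (⟨v, h⟩ : (S : Set V)) ∈ X) with hA
    have hAS : A ⊆ S := Finset.filter_subset _ _
    have h1 := al_add (G := G) hAS (Finset.sdiff_subset (s := S) (t := A))
      Finset.disjoint_sdiff (by
        intro u hu v hv huv
        obtain ⟨-, hu1, hu2⟩ := Finset.mem_filter.1 hu
        rw [Finset.mem_sdiff] at hv
        exact hv.2 (Finset.mem_filter.2 ⟨hv.1, hv.1, hcl _ hu2 ⟨v, hv.1⟩ huv⟩))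
    have c1 := Finset.card_sdiff_add_card_eq_card hAS
    have c2 : 0 < A.card := Finset.card_pos.2 ⟨x.1, Finset.mem_filter.2 ⟨x.2, x.2, hx⟩⟩
    have c3 : 0 < (S \ A).card := Finset.card_pos.2 ⟨y.1, Finset.mem_sdiff.2 ⟨y.2, fun h => by
      obtain ⟨-, _, h2⟩ := Finset.mem_filter.1 h
      exact hy h2⟩⟩
    have h3 := hprop (S \ A) Finset.sdiff_subset (by omega)
    have h4 := hprop A hAS (by omega)
    have h5 := Nat.mul_le_mul_left D h1
    rw [Nat.mul_add] at h5
    omega

/-- union of pairwise far apart independent sets -/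
theorem indep_biUnion (G : SimpleGraph V) {ι : Type*} (S : Finset ι) (I : ι → Finset V)
    (h1 : ∀ i ∈ S, Indep G (I i))
    (h2 : ∀ i ∈ S, ∀ j ∈ S, i ≠ j → ∀ u ∈ I i, ∀ v ∈ I j, u ≠ v ∧ ¬ G.Adj u v) :
    ∃ J : Finset V, Indep G J ∧ J.card = ∑ i ∈ S, (I i).card ∧ ∀ v, v ∈ J ↔ ∃ i ∈ S, v ∈ I i := by
  classical
  refine ⟨S.biUnion I, ?_, ?_, fun v => Finset.mem_biUnion⟩
  · intro u hu v hv
    obtain ⟨i, hi, hu⟩ := Finset.mem_biUnion.1 hu
    obtain ⟨j, hj, hv⟩ := Finset.mem_biUnion.1 hv
    by_cases hij : i = j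
    · subst hij
      exact h1 i hi u hu v hv
    · exact (h2 i hi j hj hij u hu v hv).2
  · refine Finset.card_biUnion fun i hi j hj hij => ?_
    exact Finset.disjoint_left.2 fun u hu hv => (h2 i hi j hj hij u hu u hv).1 rfl

/-- `b` neighbours of a vertex are not pairwise adjacent when cliques have at most `b` vertices -/
theorem exists_pair (G : SimpleGraph V) (b : ℕ) (hmax : ∀ S, Clq G S → S.card ≤ b) (w : V)
    (T : Finset V) (hT : ∀ u ∈ T, G.Adj w u) (hb : b ≤ T.card) :
    ∃ I ⊆ T, Indep G I ∧ I.card = 2 := by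
  classical
  by_cases h : ∃ u ∈ T, ∃ v ∈ T, u ≠ v ∧ ¬ G.Adj u v
  · obtain ⟨u, hu, v, hv, huv, hna⟩ := h
    refine ⟨{u, v}, ?_, ?_, Finset.card_pair huv⟩
    · intro x hx
      rcases Finset.mem_insert.1 hx with rfl | hx
      · exact hu
      · rw [Finset.mem_singleton.1 hx]; exact hv
    · intro x hx y hy
      simp only [Finset.mem_insert, Finset.mem_singleton] at hx hy
      rcases hx with rfl | rfl <;> rcases hy with rfl | rfl
      · exact G.irrefl
      · exact hna
      · exact fun h => hna h.symm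
      · exact G.irrefl
  · exfalso
    have hw : w ∉ T := fun hw => G.irrefl (hT w hw)
    have := hmax (insert w T) (by
      intro u hu v hv huv
      rw [Finset.mem_insert] at hu hv
      rcases hu with hu | hu <;> rcases hv with hv | hv
      · exact absurd (hu.trans hv.symm) huv
      · exact hu ▸ hT v hv
      · exact hv ▸ (hT u hu).symm
      · by_contra hna
        exact h ⟨u, hu, v, hv, huv, hna⟩)
    rw [Finset.card_insert_of_notMem hw] at this
    omega

/-- if at most `d` neighbours of `w` lie in `U`, at least `D - d` lie outside -/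
theorem exists_out [Finite V] {G : SimpleGraph V} {D : ℕ} (h : Expands G D) (w : V) (U : Set V)
    (A : Finset V) (hA : ∀ u ∈ U, G.Adj w u → u ∈ A) :
    ∃ T : Finset V, D ≤ T.card + A.card ∧ ∀ u ∈ T, G.Adj w u ∧ u ∉ U := by
  classical
  haveI := Fintype.ofFinite V
  refine ⟨Finset.univ.filter fun u => G.Adj w u ∧ u ∉ U, ?_, fun u hu =>
    (Finset.mem_filter.1 hu).2⟩
  refine (h.deg w _ fun u hu => ?_).trans (Finset.card_union_le _ _)
  by_cases hU : u ∈ U
  · exact Finset.mem_union_right _ (hA u hU hu)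
  · exact Finset.mem_union_left _ (Finset.mem_filter.2 ⟨Finset.mem_univ _, hu, hU⟩)

private theorem pathL_of_clq {G : SimpleGraph V} {K : Finset V} (hK : Clq G K) {L : List V}
    (hne : L ≠ []) (hn : L.Nodup) (hL : ∀ v ∈ L, v ∈ K) :
    PathL G L (L.head hne) (L.getLast hne) where
  nodup := hn
  chain := List.Pairwise.isChain
    (List.Pairwise.imp_of_mem (fun ha hb hab => hK _ (hL _ ha) _ (hL _ hb) hab) hn)
  head := List.head?_eq_some_head hne
  last := List.getLast?_eq_some_getLast hne

/-- a clique with at least `m` vertices contains an `m`-cycle, and spans a `K`-path -/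
theorem Clq.kpath {G : SimpleGraph V} {K : Finset V} (hK : Clq G K) (hne : K.Nonempty) :
    KPath G K K.card := by
  have h0 : K.toList ≠ [] := hne.toList_ne_nil
  exact ⟨K.toList, _, _, pathL_of_clq hK h0 K.nodup_toList (fun v hv => Finset.mem_toList.1 hv),
    K.length_toList, Finset.mem_toList.1 (List.head_mem h0),
    Finset.mem_toList.1 (List.getLast_mem h0), fun k hk => Finset.mem_toList.2 hk⟩

theorem Good.clq_le {G : SimpleGraph V} {p : ℕ} (hG : Good G p) (hp : 1 ≤ p) {K : Finset V}
    (hK : Clq G K) : K.card ≤ p := by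
  by_contra h
  obtain ⟨K', h1, h2⟩ := Finset.exists_subset_card_eq (s := K) (n := p + 1) (by omega)
  have hK' : Clq G K' := fun u hu v hv => hK u (h1 hu) v (h1 hv)
  have := (hK'.kpath (Finset.card_pos.1 (by omega))).hasCyc hK' (by omega)
  rw [h2] at this
  exact hG.nocyc this

end Vale.Agent.P048
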